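import Mathlib

open MeasureTheory Set
open scoped Pointwise

namespace Vale.Agent.P074.Third

/-- Volume of the image of `K` under `x ↦ (1/2) • (x + c)`. -/
theorem volume_half_image (K : Set ℝ) (c : ℝ) :
    volume ((fun x : ℝ => (1/2 : ℝ) • (x + c)) '' K) = (1/2 : ENNReal) * volume K := by
  have h1 : (fun x : ℝ => (1/2 : ℝ) • (x + c)) '' K = (1/2 : ℝ) • ((fun x : ℝ => x + c) '' K) := by
    rw [← image_smul, image_image]
  rw [h1, Measure.addHaar_smul, image_add_right, measure_preimage_add_right]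
  congr 1
  simp [abs_of_pos, ENNReal.ofReal_inv_of_pos]

/-- One-dimensional Brunn-Minkowski, midpoint form, compact sets. -/
theorem bm_one_compact (K₁ K₂ C : Set ℝ) (h1 : IsCompact K₁) (h2 : IsCompact K₂)
    (n1 : K₁.Nonempty) (n2 : K₂.Nonempty)
    (H : ∀ a, a ∈ K₁ → ∀ b, b ∈ K₂ → (1/2 : ℝ) • (a + b) ∈ C) :
    volume K₁ + volume K₂ ≤ 2 * volume C := by
  obtain ⟨a, ha, hamax⟩ := h1.exists_isGreatest n1
  obtain ⟨b, hb, hbmin⟩ := h2.exists_isLeast n2
  set m : ℝ := (1/2 : ℝ) • (a + b) with hm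
  have hS : (fun x : ℝ => (1/2 : ℝ) • (x + b)) '' K₁ ⊆ C ∩ Iic m := by
    rintro _ ⟨x, hx, rfl⟩
    refine ⟨H x hx b hb, ?_⟩
    have := hamax hx
    simp only [mem_Iic, hm, smul_eq_mul]
    linarith
  have hT : (fun y : ℝ => (1/2 : ℝ) • (y + a)) '' K₂ ⊆ (C \ Iic m) ∪ {m} := by
    rintro _ ⟨y, hy, rfl⟩
    have h := hbmin hy
    have hc : (1/2 : ℝ) • (y + a) ∈ C := by
      have := H a ha y hy
      rwa [add_comm] at this
    by_cases hyb : y = b
    · right
      simp only [mem_singleton_iff, hm, hyb, add_comm]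
    · left
      refine ⟨hc, ?_⟩
      have hlt : b < y := lt_of_le_of_ne h (Ne.symm hyb)
      simp only [mem_Iic, hm, smul_eq_mul, not_le]
      linarith
  have e1 := measure_mono (μ := volume) hS
  have e2 := measure_mono (μ := volume) hT
  rw [volume_half_image] at e1 e2
  have e3 : volume ((C \ Iic m) ∪ {m}) ≤ volume (C \ Iic m) := by
    refine (measure_union_le _ _).trans ?_
    simp
  have e4 : volume (C ∩ Iic m) + volume (C \ Iic m) = volume C :=
    measure_inter_add_sdiff C measurableSet_Iic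
  have e5 : (1/2 : ENNReal) * volume K₁ + (1/2 : ENNReal) * volume K₂ ≤ volume C := by
    rw [← e4]
    exact add_le_add e1 (e2.trans e3)
  calc volume K₁ + volume K₂
      = 2 * ((1/2 : ENNReal) * volume K₁ + (1/2 : ENNReal) * volume K₂) := by
        rw [← mul_add, ← mul_assoc]
        have : (2 : ENNReal) * (1/2) = 1 := by
          rw [one_div]
          exact ENNReal.mul_inv_cancel (by norm_num) (by norm_num)
        rw [this, one_mul]
    _ ≤ 2 * volume C := by gcongr

/-- One-dimensional Brunn-Minkowski, midpoint form. -/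
theorem bm_one (A B C : Set ℝ) (hA : MeasurableSet A) (hB : MeasurableSet B)
    (_hC : MeasurableSet C) (hAn : A.Nonempty) (hBn : B.Nonempty)
    (H : ∀ a, a ∈ A → ∀ b, b ∈ B → (1/2 : ℝ) • (a + b) ∈ C) :
    volume A + volume B ≤ 2 * volume C := by
  obtain ⟨a₀, ha₀⟩ := hAn
  obtain ⟨b₀, hb₀⟩ := hBn
  rw [hA.measure_eq_iSup_isCompact, hB.measure_eq_iSup_isCompact]
  simp only [iSup_and']
  refine ENNReal.biSup_add_biSup_le' ⟨∅, by simp⟩ ⟨∅, by simp⟩ ?_
  rintro K₁ ⟨hK₁, c1⟩ K₂ ⟨hK₂, c2⟩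
  have h := bm_one_compact (insert a₀ K₁) (insert b₀ K₂) C (c1.insert a₀) (c2.insert b₀)
    (insert_nonempty _ _) (insert_nonempty _ _)
    (fun a ha b hb => H a (insert_subset ha₀ hK₁ ha) b (insert_subset hb₀ hK₂ hb))
  exact (add_le_add (measure_mono (subset_insert _ _)) (measure_mono (subset_insert _ _))).trans h

end Vale.Agent.P074.Third
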