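import Vale.Agent.P074.Third.Defs

open MeasureTheory
open scoped ENNReal NNReal RealInnerProductSpace

namespace Vale.Agent.P074

variable {d : ℕ} {ι : Type} [Fintype ι]


lemma cell_subset (K : Set (EE d)) (p : ι → EE d) (w : ι → ℝ) (i : ι) : cell K p w i ⊆ K :=
  fun _ hx => hx.1

lemma isClosed_cell {K : Set (EE d)} (hK : IsClosed K) (p : ι → EE d) (w : ι → ℝ) (i : ι) :
    IsClosed (cell K p w i) := by
  have h : cell K p w i = K ∩ ⋂ j, {x | ⟪x, p j⟫ - w j ≤ ⟪x, p i⟫ - w i} := by
    ext x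
    simp [cell]
  rw [h]
  exact hK.inter (isClosed_iInter fun j => isClosed_le (by fun_prop) (by fun_prop))

lemma measurableSet_cell {K : Set (EE d)} (hK : IsClosed K) (p : ι → EE d) (w : ι → ℝ) (i : ι) :
    MeasurableSet (cell K p w i) := (isClosed_cell hK p w i).measurableSet

lemma convex_cell {K : Set (EE d)} (hK : Convex ℝ K) (p : ι → EE d) (w : ι → ℝ) (i : ι) :
    Convex ℝ (cell K p w i) := by
  intro x hx y hy a b ha hb hab
  refine ⟨hK hx.1 hy.1 ha hb hab, fun j => ?_⟩
  have h1 := mul_le_mul_of_nonneg_left (hx.2 j) ha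
  have h2 := mul_le_mul_of_nonneg_left (hy.2 j) hb
  simp only [inner_add_left, real_inner_smul_left]
  have e1 : w j = a * w j + b * w j := by rw [← add_mul, hab, one_mul]
  have e2 : w i = a * w i + b * w i := by rw [← add_mul, hab, one_mul]
  nlinarith

lemma le_pot (p : ι → EE d) (w : ι → ℝ) (x : EE d) (i : ι) : ⟪x, p i⟫ - w i ≤ pot p w x :=
  le_ciSup (f := fun i => ⟪x, p i⟫ - w i) (Set.finite_range _).bddAbove i

lemma pot_le [Nonempty ι] {p : ι → EE d} {w : ι → ℝ} {x : EE d} {b : ℝ}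
    (h : ∀ i, ⟪x, p i⟫ - w i ≤ b) : pot p w x ≤ b :=
  ciSup_le h

lemma pot_eq_of_mem_cell [Nonempty ι] {K : Set (EE d)} {p : ι → EE d} {w : ι → ℝ} {i : ι} {x : EE d}
    (hx : x ∈ cell K p w i) : pot p w x = ⟪x, p i⟫ - w i :=
  le_antisymm (pot_le hx.2) (le_pot p w x i)

lemma exists_mem_cell [Nonempty ι] {K : Set (EE d)} (p : ι → EE d) (w : ι → ℝ) {x : EE d}
    (hx : x ∈ K) : ∃ i, x ∈ cell K p w i := by
  obtain ⟨i, hi⟩ := Finite.exists_max (fun i => ⟪x, p i⟫ - w i)
  exact ⟨i, hx, hi⟩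

/-- `pot` is `R`-Lipschitz. -/
lemma pot_lip [Nonempty ι] {p : ι → EE d} {R : ℝ} (hp : ∀ i, ‖p i‖ ≤ R) (w : ι → ℝ) (x z : EE d) :
    |pot p w x - pot p w z| ≤ R * ‖x - z‖ := by
  have key : ∀ x z : EE d, pot p w x ≤ pot p w z + R * ‖x - z‖ := by
    intro x z
    refine pot_le fun i => ?_
    have h1 := le_pot p w z i
    have h2 : ⟪x - z, p i⟫ ≤ R * ‖x - z‖ := by
      calc ⟪x - z, p i⟫ ≤ ‖x - z‖ * ‖p i‖ := real_inner_le_norm _ _
        _ ≤ ‖x - z‖ * R := mul_le_mul_of_nonneg_left (hp i) (norm_nonneg _)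
        _ = R * ‖x - z‖ := mul_comm _ _
    rw [inner_sub_left] at h2
    linarith
  rw [abs_le]
  have h1 := key x z
  have h2 := key z x
  rw [norm_sub_rev] at h2
  constructor <;> linarith

lemma continuous_pot [Nonempty ι] (p : ι → EE d) (w : ι → ℝ) : Continuous (pot p w) := by
  have hR : ∀ i, ‖p i‖ ≤ ∑ j, ‖p j‖ := fun i =>
    Finset.single_le_sum (f := fun j => ‖p j‖) (fun j _ => norm_nonneg _) (Finset.mem_univ i)
  have hnn : 0 ≤ ∑ j, ‖p j‖ := Finset.sum_nonneg fun j _ => norm_nonneg _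
  have hl : LipschitzWith (Real.toNNReal (∑ j, ‖p j‖)) (pot p w) := by
    refine LipschitzWith.of_dist_le_mul fun x z => ?_
    rw [Real.dist_eq, dist_eq_norm, Real.coe_toNNReal _ hnn]
    exact pot_lip hR w x z
  exact hl.continuous

/-- dependence on the weights -/
lemma pot_sub_le [Nonempty ι] (p : ι → EE d) (w w' : ι → ℝ) {c : ℝ} (h : ∀ i, |w i - w' i| ≤ c)
    (x : EE d) : |pot p w x - pot p w' x| ≤ c := by
  rw [abs_le]
  constructor
  · have : pot p w' x ≤ pot p w x + c := by
      refine pot_le fun i => ?_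
      have h1 := le_pot p w x i
      have h2 := (abs_le.1 (h i)).2
      linarith
    linarith
  · have : pot p w x ≤ pot p w' x + c := by
      refine pot_le fun i => ?_
      have h1 := le_pot p w' x i
      have h2 := (abs_le.1 (h i)).1
      linarith
    linarith

lemma integrable_unif_of_continuous {G : Type*} [NormedAddCommGroup G] {K : Set (EE d)}
    (hK : IsCompact K) (hKi : (interior K).Nonempty) {f : EE d → G} (hf : Continuous f) :
    Integrable f (unif K) := by
  have h0 : volume K ≠ 0 := by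
    have : 0 < volume (interior K) := isOpen_interior.measure_pos volume hKi
    exact (lt_of_lt_of_le this (measure_mono interior_subset)).ne'
  have h1 : IntegrableOn f K volume := hf.continuousOn.integrableOn_compact hK
  exact Integrable.smul_measure h1 (ENNReal.inv_ne_top.2 h0)

lemma integrable_pot [Nonempty ι] {K : Set (EE d)} (hK : IsCompact K) (hKi : (interior K).Nonempty)
    (p : ι → EE d) (w : ι → ℝ) : Integrable (pot p w) (unif K) :=
  integrable_unif_of_continuous hK hKi (continuous_pot p w)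

lemma unif_null_of_volume_null {K s : Set (EE d)} (hs : volume s = 0) : unif K s = 0 := by
  have h : (volume.restrict K) s = 0 :=
    nonpos_iff_eq_zero.1 ((Measure.restrict_apply_le K s).trans hs.le)
  simp [unif, h]

lemma volume_hyperplane_null {v : EE d} (hv : v ≠ 0) (c : ℝ) :
    volume {x : EE d | ⟪x, v⟫ = c} = 0 := by
  by_cases hne : ∃ x0 : EE d, ⟪x0, v⟫ = c
  · obtain ⟨x0, hx0⟩ := hne
    let S : AffineSubspace ℝ (EE d) := AffineSubspace.mk' x0 (LinearMap.ker (innerₛₗ ℝ v))
    have hS : ({x : EE d | ⟪x, v⟫ = c} : Set (EE d)) = S := by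
      ext x
      simp only [Set.mem_ofPred_eq, SetLike.mem_coe, S, AffineSubspace.mem_mk', LinearMap.mem_ker,
        vsub_eq_sub, innerₛₗ_apply_apply, inner_sub_right]
      have e1 : ⟪v, x⟫ = ⟪x, v⟫ := real_inner_comm _ _
      have e2 : ⟪v, x0⟫ = ⟪x0, v⟫ := real_inner_comm _ _
      rw [e1, e2, hx0]
      constructor <;> intro h <;> linarith
    have hne : S ≠ ⊤ := by
      intro htop
      have : x0 + v ∈ S := by rw [htop]; trivial
      simp only [S, AffineSubspace.mem_mk', LinearMap.mem_ker, vsub_eq_sub, add_sub_cancel_left,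
        innerₛₗ_apply_apply] at this
      exact hv (inner_self_eq_zero.1 this)
    rw [hS]
    exact Measure.addHaar_affineSubspace volume S hne
  · have : {x : EE d | ⟪x, v⟫ = c} = ∅ := by
      ext x
      simp only [Set.mem_ofPred_eq, Set.mem_empty_iff_false, iff_false]
      exact fun h => hne ⟨x, h⟩
    rw [this]
    exact measure_empty

/-- Two different cells overlap in a null set (they lie in a hyperplane). -/
lemma unif_cell_inter_null {K : Set (EE d)} {p : ι → EE d} (hp : Function.Injective p) (w : ι → ℝ)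
    {i j : ι} (hij : i ≠ j) : unif K (cell K p w i ∩ cell K p w j) = 0 := by
  have hv : p i - p j ≠ 0 := sub_ne_zero.2 fun h => hij (hp h)
  refine unif_null_of_volume_null (measure_mono_null ?_ (volume_hyperplane_null hv (w i - w j)))
  rintro x ⟨hx1, hx2⟩
  have h1 := hx1.2 j
  have h2 := hx2.2 i
  simp only [Set.mem_ofPred_eq, inner_sub_right]
  linarith

lemma iUnion_cell [Nonempty ι] (K : Set (EE d)) (p : ι → EE d) (w : ι → ℝ) :
    ⋃ i, cell K p w i = K := by
  ext x
  simp only [Set.mem_iUnion]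
  exact ⟨fun ⟨i, hi⟩ => hi.1, fun hx => exists_mem_cell p w hx⟩

/-- Decomposition of an integral over the cells. -/
lemma integral_eq_sum_cells [Nonempty ι] {G : Type*} [NormedAddCommGroup G] [NormedSpace ℝ G]
    {K : Set (EE d)} (hK : IsCompact K)
    {p : ι → EE d} (hp : Function.Injective p) (w : ι → ℝ) {f : EE d → G}
    (hf : Integrable f (unif K)) :
    ∫ x, f x ∂(unif K) = ∑ i, ∫ x in cell K p w i, f x ∂(unif K) := by
  have h1 : ∫ x in ⋃ i, cell K p w i, f x ∂(unif K) = ∑' i, ∫ x in cell K p w i, f x ∂(unif K) :=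
    integral_iUnion_ae (fun i => (measurableSet_cell hK.isClosed p w i).nullMeasurableSet)
      (fun i j hij => unif_cell_inter_null hp w hij) hf.integrableOn
  rw [tsum_fintype, iUnion_cell] at h1
  rw [← h1, Measure.restrict_eq_self_of_ae_mem (ae_mem_unif hK.measurableSet)]

lemma midpoint_mem_cell {K : Set (EE d)} (hK : Convex ℝ K) {p : ι → EE d} {w0 w1 : ι → ℝ} {i : ι}
    {x x' : EE d} (hx : x ∈ cell K p w0 i) (hx' : x' ∈ cell K p w1 i) :
    (1 / 2 : ℝ) • (x + x') ∈ cell K p (fun j => (w0 j + w1 j) / 2) i := by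
  refine ⟨?_, fun j => ?_⟩
  · rw [smul_add]
    exact hK hx.1 hx'.1 (by norm_num) (by norm_num) (by norm_num)
  · have h1 := hx.2 j
    have h2 := hx'.2 j
    simp only [real_inner_smul_left, inner_add_left]
    linarith

/-- Oscillation of optimal weights. -/
lemma weights_osc {K : Set (EE d)} {r R : ℝ} (hKr : ∀ x ∈ K, ‖x‖ ≤ r) {p : ι → EE d}
    (hpR : ∀ i, ‖p i‖ ≤ R) {m : ι → ℝ} (hm : ∀ i, 0 < m i) {w : ι → ℝ} (hw : IsOpt K m p w)
    (i j : ι) : |w i - w j| ≤ 2 * r * R := by
  have hne : ∀ i, (cell K p w i).Nonempty := by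
    intro i
    by_contra h
    rw [Set.not_nonempty_iff_eq_empty] at h
    have := hw i
    rw [h] at this
    simp at this
    exact (hm i).ne this
  have key : ∀ i j, w i - w j ≤ 2 * r * R := by
    intro i j
    obtain ⟨x, hx⟩ := hne i
    have h1 := hx.2 j
    have h2 : ⟪x, p i - p j⟫ ≤ 2 * r * R := by
      calc ⟪x, p i - p j⟫ ≤ ‖x‖ * ‖p i - p j‖ := real_inner_le_norm _ _
        _ ≤ r * (R + R) := by
            refine mul_le_mul (hKr x hx.1) ((norm_sub_le _ _).trans (add_le_add (hpR i) (hpR j)))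
              (norm_nonneg _) ((norm_nonneg _).trans (hKr x hx.1))
        _ = 2 * r * R := by ring
    rw [inner_sub_right] at h2
    linarith
  rw [abs_le]
  have h1 := key i j
  have h2 := key j i
  constructor <;> linarith

end Vale.Agent.P074
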