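import Vale.Agent.P074.Third.Cells

open MeasureTheory
open scoped ENNReal NNReal RealInnerProductSpace

namespace Vale.Agent.P074

variable {d : ℕ} {ι : Type} [Fintype ι]

lemma integrable_id_unif {K : Set (EE d)} (hK : IsCompact K) (hKi : (interior K).Nonempty) :
    Integrable (fun x : EE d => x) (unif K) := by
  have := unif_isProbabilityMeasure hK hKi
  obtain ⟨r, hr⟩ := hK.isBounded.exists_norm_le
  refine Integrable.of_bound measurable_id.aestronglyMeasurable r ?_
  filter_upwards [ae_mem_unif hK.measurableSet] with x hx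
  exact hr x hx

lemma integrable_inner_unif {K : Set (EE d)} (hK : IsCompact K) (hKi : (interior K).Nonempty)
    (q : EE d) : Integrable (fun x : EE d => ⟪x, q⟫) (unif K) :=
  (integrable_id_unif hK hKi).inner_const q

omit [Fintype ι] in
lemma setIntegral_inner_sub {K : Set (EE d)} (hK : IsCompact K) (hKi : (interior K).Nonempty)
    (p : ι → EE d) (w : ι → ℝ) (i : ι) (q : EE d) (c : ℝ) :
    ∫ x in cell K p w i, (⟪x, q⟫ - c) ∂(unif K)
      = ⟪mom K p w i, q⟫ - c * (unif K).real (cell K p w i) := by
  have := unif_isProbabilityMeasure hK hKi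
  rw [integral_sub (integrable_inner_unif hK hKi q).integrableOn (integrable_const c).integrableOn]
  congr 1
  · unfold mom
    rw [real_inner_comm, ← integral_inner (integrable_id_unif hK hKi).integrableOn q]
    refine integral_congr_ae (Filter.Eventually.of_forall fun x => ?_)
    exact real_inner_comm _ _
  · rw [setIntegral_const, smul_eq_mul, mul_comm]

lemma norm_mom_le {K : Set (EE d)} (hK : IsCompact K) (hKi : (interior K).Nonempty) {r : ℝ}
    (hKr : ∀ x ∈ K, ‖x‖ ≤ r) {p : ι → EE d} {m : ι → ℝ} {w : ι → ℝ} (hw : IsOpt K m p w) (i : ι) :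
    ‖mom K p w i‖ ≤ r * m i := by
  have := unif_isProbabilityMeasure hK hKi
  rw [← hw i]
  exact norm_setIntegral_le_of_norm_le_const (measure_lt_top _ _)
    (fun x hx => hKr x (cell_subset K p w i hx))

/-- Weak duality: the optimal partition for `(m, p, w)` is a competitor for any other sites. -/
theorem weak_duality [Nonempty ι] {K : Set (EE d)} (hK : IsCompact K) (hKi : (interior K).Nonempty)
    {p : ι → EE d} (hp : Function.Injective p) {m : ι → ℝ} {w : ι → ℝ} (hw : IsOpt K m p w)
    (p' : ι → EE d) (w' : ι → ℝ) :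
    ∑ i, ⟪mom K p w i, p' i⟫ ≤ JJ K m p' w' := by
  have := unif_isProbabilityMeasure hK hKi
  unfold JJ
  rw [integral_eq_sum_cells hK hp w (integrable_pot hK hKi p' w'), ← Finset.sum_add_distrib]
  refine Finset.sum_le_sum fun i _ => ?_
  have h1 : ∫ x in cell K p w i, (⟪x, p' i⟫ - w' i) ∂(unif K)
      ≤ ∫ x in cell K p w i, pot p' w' x ∂(unif K) := by
    refine integral_mono ?_ (integrable_pot hK hKi p' w').integrableOn (fun x => le_pot p' w' x i)
    exact ((integrable_inner_unif hK hKi (p' i)).sub (integrable_const _)).integrableOn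
  rw [setIntegral_inner_sub hK hKi, hw i] at h1
  linarith

/-- Strong duality at the optimal weights. -/
theorem strong_duality [Nonempty ι] {K : Set (EE d)} (hK : IsCompact K)
    (hKi : (interior K).Nonempty)
    {p : ι → EE d} (hp : Function.Injective p) {m : ι → ℝ} {w : ι → ℝ} (hw : IsOpt K m p w) :
    JJ K m p w = ∑ i, ⟪mom K p w i, p i⟫ := by
  have := unif_isProbabilityMeasure hK hKi
  unfold JJ
  rw [integral_eq_sum_cells hK hp w (integrable_pot hK hKi p w), ← Finset.sum_add_distrib]
  refine Finset.sum_congr rfl fun i _ => ?_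
  have h1 : ∫ x in cell K p w i, pot p w x ∂(unif K)
      = ∫ x in cell K p w i, (⟪x, p i⟫ - w i) ∂(unif K) :=
    setIntegral_congr_fun (measurableSet_cell hK.isClosed p w i)
      (fun x hx => pot_eq_of_mem_cell hx)
  rw [h1, setIntegral_inner_sub hK hKi, hw i]
  ring

/-- Formula for the excess of non optimal weights `w` for the masses `m'`. -/
theorem excess_eq [Nonempty ι] {K : Set (EE d)} (hK : IsCompact K) (hKi : (interior K).Nonempty)
    {p : ι → EE d} (hp : Function.Injective p) {m' : ι → ℝ} {w' : ι → ℝ} (hw' : IsOpt K m' p w')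
    (w : ι → ℝ) :
    JJ K m' p w - JJ K m' p w'
      = ∑ i, ∫ x in cell K p w' i, (pot p w x + w i - ⟪x, p i⟫) ∂(unif K) := by
  have := unif_isProbabilityMeasure hK hKi
  rw [strong_duality hK hKi hp hw']
  unfold JJ
  rw [integral_eq_sum_cells hK hp w' (integrable_pot hK hKi p w), ← Finset.sum_add_distrib,
    ← Finset.sum_sub_distrib]
  refine Finset.sum_congr rfl fun i _ => ?_
  have h2 : ∫ x in cell K p w' i, (pot p w x + w i - ⟪x, p i⟫) ∂(unif K)
      = ∫ x in cell K p w' i, pot p w x ∂(unif K)
        - ∫ x in cell K p w' i, (⟪x, p i⟫ - w i) ∂(unif K) := by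
    have hI : Integrable (fun x : EE d => ⟪x, p i⟫ - w i) (unif K) :=
      (integrable_inner_unif hK hKi (p i)).sub (integrable_const _)
    rw [← integral_sub (integrable_pot hK hKi p w).integrableOn hI.integrableOn]
    refine integral_congr_ae (Filter.Eventually.of_forall fun x => ?_)
    simp only
    ring
  rw [h2, setIntegral_inner_sub hK hKi, hw' i]
  ring

end Vale.Agent.P074
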