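import Vale.Agent.P074.Third.Hell
import Vale.Agent.P074.Third.Duality

open MeasureTheory
open scoped ENNReal NNReal RealInnerProductSpace

namespace Vale.Agent.P074

variable {d : ℕ} {ι : Type} [Fintype ι]

/-- Hellinger-type quantity of the Gaussian masses of two families of cells. -/
noncomputable def hell (K : Set (EE d)) (lam : ℝ) (p : ι → EE d) (w0 w1 : ι → ℝ) : ℝ :=
  1 / 2 * ∑ i, (Real.sqrt (gmass K lam p w0 i) - Real.sqrt (gmass K lam p w1 i)) ^ 2

/-- A finite family of functions which are Lipschitz on the compact set `K` is uniformly bounded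
on `K`. -/
lemma exists_bound_of_lipschitzOn {K : Set (EE d)} (hK : IsCompact K) (ζ : ι → EE d → ℝ) {l : ℝ}
    (hζl : ∀ i, ∀ x ∈ K, ∀ x' ∈ K, |ζ i x - ζ i x'| ≤ l * ‖x - x'‖) :
    ∃ Z : ℝ, 0 ≤ Z ∧ ∀ i, ∀ x ∈ K, |ζ i x| ≤ Z := by
  rcases K.eq_empty_or_nonempty with rfl | ⟨x0, hx0⟩
  · exact ⟨0, le_rfl, fun i x hx => absurd hx (Set.notMem_empty x)⟩
  obtain ⟨r, hr⟩ := hK.isBounded.exists_norm_le
  have hr0 : 0 ≤ r := (norm_nonneg _).trans (hr x0 hx0)
  refine ⟨∑ i, |ζ i x0| + |l| * (2 * r), by positivity, fun i x hx => ?_⟩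
  have h1 := hζl i x hx x0 hx0
  have h2 : ‖x - x0‖ ≤ 2 * r := by
    have := norm_sub_le x x0
    have := hr x hx
    have := hr x0 hx0
    linarith
  have h3 : l * ‖x - x0‖ ≤ |l| * (2 * r) :=
    mul_le_mul (le_abs_self l) h2 (norm_nonneg _) (abs_nonneg _)
  have h4 : |ζ i x0| ≤ ∑ i, |ζ i x0| :=
    Finset.single_le_sum (f := fun i => |ζ i x0|) (fun j _ => abs_nonneg _) (Finset.mem_univ i)
  have h5 : |ζ i x| ≤ |ζ i x - ζ i x0| + |ζ i x0| := by
    have := abs_add_le (ζ i x - ζ i x0) (ζ i x0)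
    simpa using this
  linarith

/-- Test function lemma: `hellinger_cells` with `α_i = (-2 e_i ζ_i - e_i^2)/l^2`,
`β_i = 2 e_i ζ_i / l^2`, `e_i` = difference of the two averages. -/
theorem test_lipschitz [Nonempty ι] {K : Set (EE d)} (hK : IsCompact K) (hKc : Convex ℝ K)
    (hKi : (interior K).Nonempty) {p : ι → EE d} (hp : Function.Injective p) {lam : ℝ}
    (hlam : 0 ≤ lam) (w0 w1 : ι → ℝ) (ζ : ι → EE d → ℝ) (hζ : ∀ i, Measurable (ζ i)) {l : ℝ}
    (hl : 0 < l) (hζl : ∀ i, ∀ x ∈ K, ∀ x' ∈ K, |ζ i x - ζ i x'| ≤ l * ‖x - x'‖)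
    (h0 : ∀ i, 0 < gmass K lam p w0 i) (h1 : ∀ i, 0 < gmass K lam p w1 i) :
    lam / (8 * l ^ 2) * ∑ i, Real.sqrt (gmass K lam p w0 i * gmass K lam p w1 i) *
        ((∫ x in cell K p w1 i, ζ i x * gw lam x ∂(unif K)) / gmass K lam p w1 i
          - (∫ x in cell K p w0 i, ζ i x * gw lam x ∂(unif K)) / gmass K lam p w0 i) ^ 2
      ≤ hell K lam p w0 w1 := by
  obtain ⟨Z, hZ0, hZ⟩ := exists_bound_of_lipschitzOn hK ζ hζl
  set e : ι → ℝ := fun i => (∫ x in cell K p w1 i, ζ i x * gw lam x ∂(unif K)) / gmass K lam p w1 i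
          - (∫ x in cell K p w0 i, ζ i x * gw lam x ∂(unif K)) / gmass K lam p w0 i with he
  set E : ℝ := ∑ i, |e i| with hE
  have hE0 : 0 ≤ E := Finset.sum_nonneg fun i _ => abs_nonneg _
  have heE : ∀ i, |e i| ≤ E := fun i =>
    Finset.single_le_sum (f := fun i => |e i|) (fun j _ => abs_nonneg _) (Finset.mem_univ i)
  have hl2 : 0 < l ^ 2 := by positivity
  have hprod : ∀ i, ∀ x ∈ K, |e i * ζ i x| ≤ E * Z := fun i x hx => by
    rw [abs_mul]
    exact mul_le_mul (heE i) (hZ i x hx) (abs_nonneg _) hE0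
  have hsq : ∀ i, e i ^ 2 ≤ E ^ 2 := fun i => by
    rw [← sq_abs (e i)]
    exact pow_le_pow_left₀ (abs_nonneg _) (heE i) 2
  have key := hellinger_cells hK hKc hKi hp hlam w0 w1
    (fun i x => (-2 * e i * ζ i x - e i ^ 2) / l ^ 2) (fun i x => 2 * e i * ζ i x / l ^ 2)
    (fun i => by have := hζ i; fun_prop) (fun i => by have := hζ i; fun_prop)
    (B := (2 * (E * Z) + E ^ 2) / l ^ 2)
    (fun i x hx => by
      rw [abs_div, abs_of_pos hl2]
      refine div_le_div_of_nonneg_right ?_ hl2.le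
      have h := abs_le.mp (hprod i x hx)
      have h' := hsq i
      have h'' := sq_nonneg (e i)
      rw [abs_le]
      constructor <;> nlinarith [h.1, h.2])
    (fun i x hx => by
      rw [abs_div, abs_of_pos hl2]
      refine div_le_div_of_nonneg_right ?_ hl2.le
      have h := abs_le.mp (hprod i x hx)
      have h'' := sq_nonneg E
      rw [abs_le]
      constructor <;> nlinarith [h.1, h.2])
    (fun i x hx x' hx' => by
      have h := hζl i x hx.1 x' hx'.1
      have h2 : (ζ i x - ζ i x') ^ 2 ≤ (l * ‖x - x'‖) ^ 2 := by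
        rw [← sq_abs (ζ i x - ζ i x')]
        exact pow_le_pow_left₀ (abs_nonneg _) h 2
      have h3 : (-2 * e i * ζ i x - e i ^ 2) / l ^ 2 + 2 * e i * ζ i x' / l ^ 2
          = (2 * e i * (ζ i x' - ζ i x) - e i ^ 2) / l ^ 2 := by ring
      rw [h3, div_le_iff₀ hl2]
      nlinarith [sq_nonneg (e i - (ζ i x' - ζ i x))])
    h0 h1
  unfold hell
  refine le_trans (le_of_eq ?_) key
  have hterm : ∀ i,
      (∫ x in cell K p w0 i, (-2 * e i * ζ i x - e i ^ 2) / l ^ 2 * gw lam x ∂(unif K))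
          / gmass K lam p w0 i
        + (∫ x in cell K p w1 i, 2 * e i * ζ i x / l ^ 2 * gw lam x ∂(unif K)) / gmass K lam p w1 i
      = e i ^ 2 / l ^ 2 := by
    intro i
    have i0 : IntegrableOn (gw lam) (cell K p w0 i) (unif K) :=
      (integrable_gw hK hKi hlam).integrableOn
    have j0 : IntegrableOn (fun x => ζ i x * gw lam x) (cell K p w0 i) (unif K) :=
      (integrable_mul_gw hK hKi hlam (hζ i) (hZ i)).integrableOn
    have a1 : ∫ x in cell K p w0 i, (-2 * e i * ζ i x - e i ^ 2) / l ^ 2 * gw lam x ∂(unif K)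
        = (-2 * e i / l ^ 2) * (∫ x in cell K p w0 i, ζ i x * gw lam x ∂(unif K))
          - e i ^ 2 / l ^ 2 * gmass K lam p w0 i := by
      unfold gmass
      rw [← integral_const_mul, ← integral_const_mul, ← integral_sub (j0.const_mul _)
        (i0.const_mul _)]
      refine integral_congr_ae (Filter.Eventually.of_forall fun x => ?_)
      simp only
      ring
    have a2 : ∫ x in cell K p w1 i, 2 * e i * ζ i x / l ^ 2 * gw lam x ∂(unif K)
        = (2 * e i / l ^ 2) * (∫ x in cell K p w1 i, ζ i x * gw lam x ∂(unif K)) := by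
      rw [← integral_const_mul]
      refine integral_congr_ae (Filter.Eventually.of_forall fun x => ?_)
      simp only
      ring
    rw [a1, a2]
    have hei : e i = (∫ x in cell K p w1 i, ζ i x * gw lam x ∂(unif K)) / gmass K lam p w1 i
          - (∫ x in cell K p w0 i, ζ i x * gw lam x ∂(unif K)) / gmass K lam p w0 i := rfl
    generalize (∫ x in cell K p w1 i, ζ i x * gw lam x ∂(unif K)) = J1 at hei ⊢
    generalize (∫ x in cell K p w0 i, ζ i x * gw lam x ∂(unif K)) = J0 at hei ⊢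
    have n0 := (h0 i).ne'
    have n1 := (h1 i).ne'
    generalize e i = ei at hei ⊢
    subst hei
    field_simp
    ring
  simp only [hterm]
  rw [Finset.mul_sum, Finset.mul_sum]
  refine Finset.sum_congr rfl fun i _ => ?_
  change _ * (_ * e i ^ 2) = _
  field_simp

end Vale.Agent.P074
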