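import Vale.Agent.P074.Stability

open MeasureTheory
open scoped ENNReal NNReal RealInnerProductSpace

namespace Vale.Agent.P074

variable {d : ℕ}

/-- The body `K` shrunk towards `x0` by the factor `1 - a`. -/
def shrink (K : Set (EE d)) (x0 : EE d) (a : ℝ) : Set (EE d) :=
  AffineMap.homothety x0 (1 - a) '' K

lemma shrink_add_mem {K : Set (EE d)} (hKc : Convex ℝ K) {x0 : EE d} {r0 : ℝ} (hr0 : 0 < r0)
    (hball : Metric.closedBall x0 r0 ⊆ K) {t : ℝ} (ht : 0 < t) (htr : t ≤ r0) {x v : EE d}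
    (hx : x ∈ shrink K x0 (t / r0)) (hv : ‖v‖ ≤ t) : x + v ∈ K := by
  obtain ⟨k, hk, rfl⟩ := hx
  have ha0 : 0 ≤ t / r0 := by positivity
  have ha1 : t / r0 ≤ 1 := (div_le_one hr0).2 htr
  have hq : x0 + (r0 / t) • v ∈ K := by
    apply hball
    rw [Metric.mem_closedBall, dist_eq_norm, add_sub_cancel_left, norm_smul, Real.norm_eq_abs,
      abs_of_pos (by positivity)]
    calc r0 / t * ‖v‖ ≤ r0 / t * t := by gcongr
      _ = r0 := by field_simp
  have := hKc hk hq (sub_nonneg.2 ha1) ha0 (by ring)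
  have e : (AffineMap.homothety x0 (1 - t / r0)) k + v
      = (1 - t / r0) • k + (t / r0) • (x0 + (r0 / t) • v) := by
    rw [AffineMap.homothety_apply]
    simp only [vsub_eq_sub, vadd_eq_add, smul_add, smul_sub, smul_smul]
    have h1 : t / r0 * (r0 / t) = 1 := by field_simp
    rw [h1, one_smul]
    module
  rw [e]
  exact this

lemma shrink_subset {K : Set (EE d)} (hKc : Convex ℝ K) {x0 : EE d} {r0 : ℝ} (hr0 : 0 < r0)
    (hball : Metric.closedBall x0 r0 ⊆ K) {t : ℝ} (ht : 0 < t) (htr : t ≤ r0) :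
    shrink K x0 (t / r0) ⊆ K := by
  intro x hx
  have := shrink_add_mem hKc hr0 hball ht htr hx (v := 0) (by simpa using ht.le)
  simpa using this

lemma isCompact_shrink {K : Set (EE d)} (hK : IsCompact K) (x0 : EE d) (a : ℝ) :
    IsCompact (shrink K x0 a) :=
  hK.image (AffineMap.homothety_continuous x0 (1 - a))

lemma unif_shrink {K : Set (EE d)} (hK : IsCompact K) (hKi : (interior K).Nonempty)
    (hKc : Convex ℝ K) {x0 : EE d} {r0 : ℝ} (hr0 : 0 < r0)
    (hball : Metric.closedBall x0 r0 ⊆ K) {t : ℝ} (ht : 0 < t) (htr : t ≤ r0) :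
    (unif K).real (shrink K x0 (t / r0))ᶜ ≤ d * (t / r0) := by
  have := unif_isProbabilityMeasure hK hKi
  have hm := (isCompact_shrink hK x0 (t / r0)).measurableSet
  have ha0 : 0 ≤ t / r0 := by positivity
  have ha1 : t / r0 ≤ 1 := (div_le_one hr0).2 htr
  have h0 : volume K ≠ 0 := by
    have : 0 < volume (interior K) := isOpen_interior.measure_pos volume hKi
    exact (this.trans_le (measure_mono interior_subset)).ne'
  have h1 : volume K ≠ ∞ := hK.measure_lt_top.ne
  have e : unif K (shrink K x0 (t / r0)) = ENNReal.ofReal ((1 - t / r0) ^ d) := by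
    rw [unif_apply hm, Set.inter_eq_left.2 (shrink_subset hKc hr0 hball ht htr), shrink,
      Measure.addHaar_image_homothety, finrank_euclideanSpace_fin,
      abs_of_nonneg (pow_nonneg (sub_nonneg.2 ha1) d), mul_comm, mul_assoc,
      ENNReal.mul_inv_cancel h0 h1, mul_one]
  rw [measureReal_compl hm, probReal_univ, measureReal_def, e,
    ENNReal.toReal_ofReal (pow_nonneg (sub_nonneg.2 ha1) d)]
  have hb := one_add_mul_le_pow (a := -(t / r0)) (by linarith) d
  have : (1 + -(t / r0)) = 1 - t / r0 := by ring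
  rw [this] at hb
  linarith
lemma setIntegral_shift_le {K A : Set (EE d)} (hK : IsCompact K) (hA : IsCompact A) (hAK : A ⊆ K)
    {f : EE d → ℝ} (hf : Continuous f) (hf0 : ∀ x, 0 ≤ f x) {v : EE d} (hAv : ∀ x ∈ A, x + v ∈ K) :
    ∫ x in A, f (x + v) ∂(unif K) ≤ ∫ x, f x ∂(unif K) := by
  rw [integral_unif]
  have e : ∫ x in A, f (x + v) ∂(unif K) = (volume K).toReal⁻¹ * ∫ x in A, f (x + v) := by
    rw [unif, Measure.restrict_smul, integral_smul_measure,
      Measure.restrict_restrict hA.measurableSet, Set.inter_eq_left.2 hAK, ENNReal.toReal_inv,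
      smul_eq_mul]
  rw [e]
  refine mul_le_mul_of_nonneg_left ?_ (by positivity)
  have hc : Continuous fun x => f (x + v) := by fun_prop
  have i1 : Integrable (A.indicator fun x => f (x + v)) :=
    (integrable_indicator_iff hA.measurableSet).2 (hc.continuousOn.integrableOn_compact hA)
  have i2 : Integrable (K.indicator f) :=
    (integrable_indicator_iff hK.measurableSet).2 (hf.continuousOn.integrableOn_compact hK)
  calc ∫ x in A, f (x + v) = ∫ x, A.indicator (fun x => f (x + v)) x :=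
        (integral_indicator hA.measurableSet).symm
    _ ≤ ∫ x, K.indicator f (x + v) := by
        refine integral_mono i1 (i2.comp_add_right v) fun x => ?_
        by_cases hx : x ∈ A
        · simp only [Set.indicator_of_mem hx, Set.indicator_of_mem (hAv x hx), le_refl]
        · simp only [Set.indicator_of_notMem hx]
          exact Set.indicator_nonneg (fun y _ => hf0 y) _
    _ = ∫ x, K.indicator f x := integral_add_right_eq_self _ v
    _ = ∫ x in K, f x := integral_indicator hK.measurableSet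

/-- pointwise inequality behind the interpolation -/
lemma gn_pointwise {Y : Set (EE d)} {φ ψ φ' ψ' : EE d → ℝ}
    (h1 : ∀ z, ∀ y ∈ Y, ⟪z, y⟫ ≤ φ z + ψ y) (h2 : ∀ z, ∀ y ∈ Y, ⟪z, y⟫ ≤ φ' z + ψ' y)
    {x y y' : EE d} (hy : y ∈ Y) (hy' : y' ∈ Y) (e1 : ⟪x, y⟫ = φ x + ψ y)
    (e2 : ⟪x, y'⟫ = φ' x + ψ' y') (c : ℝ) (v : EE d) :
    |⟪y - y', v⟫| ≤ |φ (x + v) - φ' (x + v) - c| + |φ (x - v) - φ' (x - v) - c|
      + |φ x - φ' x - c| + (φ' (x + v) + φ' (x - v) - 2 * φ' x) := by
  have a1 := h1 (x + v) y hy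
  have a2 := h1 (x - v) y hy
  have a3 := h2 (x + v) y' hy'
  have a4 := h2 (x - v) y' hy'
  rw [inner_add_left] at a1 a3
  rw [inner_sub_left] at a2 a4
  rw [inner_sub_left, real_inner_comm v y, real_inner_comm v y']
  have b1 := le_abs_self (φ (x + v) - φ' (x + v) - c)
  have b2 := le_abs_self (φ (x - v) - φ' (x - v) - c)
  have b3 := neg_abs_le (φ x - φ' x - c)
  have n1 := abs_nonneg (φ (x + v) - φ' (x + v) - c)
  have n2 := abs_nonneg (φ (x - v) - φ' (x - v) - c)
  rw [abs_le]
  constructor <;> linarith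

lemma gn_young {t D a1 a2 a3 Δ R : ℝ} (ht : 0 < t) (hD : |D| ≤ 2 * R) (hΔ : 0 ≤ Δ)
    (h : t * |D| ≤ |a1| + |a2| + |a3| + Δ) :
    t / 2 * D ^ 2 ≤ 3 / (2 * t) * (a1 ^ 2 + a2 ^ 2 + a3 ^ 2) + 2 * R * Δ := by
  have key : ∀ a : ℝ, |D| * |a| ≤ t / 6 * D ^ 2 + 3 / (2 * t) * a ^ 2 := by
    intro a
    have h1 : 0 ≤ (t * |D| - 3 * |a|) ^ 2 := sq_nonneg _
    have h2 : t / 6 * D ^ 2 + 3 / (2 * t) * a ^ 2 - |D| * |a|
        = (t * |D| - 3 * |a|) ^ 2 / (6 * t) := by
      rw [← sq_abs D, ← sq_abs a]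
      field_simp
      ring
    have h3 : 0 ≤ (t * |D| - 3 * |a|) ^ 2 / (6 * t) := by positivity
    linarith
  have h0 : t * D ^ 2 ≤ |D| * (|a1| + |a2| + |a3| + Δ) := by
    rw [← sq_abs D]
    nlinarith [abs_nonneg D]
  have h4 : |D| * Δ ≤ 2 * R * Δ := mul_le_mul_of_nonneg_right hD hΔ
  have k1 := key a1
  have k2 := key a2
  have k3 := key a3
  nlinarith
lemma norm_sq_eq_sum_inner (w : EE d) :
    ‖w‖ ^ 2 = ∑ i, ⟪w, EuclideanSpace.single i (1 : ℝ)⟫ ^ 2 := by
  rw [EuclideanSpace.norm_sq_eq]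
  refine Finset.sum_congr rfl fun i _ => ?_
  rw [Real.norm_eq_abs, sq_abs]
  congr 1
  simp [EuclideanSpace.inner_single_right]

theorem gn_scale {K Y : Set (EE d)} (hK : IsCompact K) (hKc : Convex ℝ K)
    (hKi : (interior K).Nonempty) {x0 : EE d} {r0 : ℝ} (hr0 : 0 < r0)
    (hball : Metric.closedBall x0 r0 ⊆ K) {r R : ℝ} (hKr : ∀ x ∈ K, ‖x‖ ≤ r)
    (hYR : ∀ y ∈ Y, ‖y‖ ≤ R) {T S : EE d → EE d} (hT : Measurable T) (hS : Measurable S)
    (hTY : ∀ᵐ x ∂(unif K), T x ∈ Y) (hSY : ∀ᵐ x ∂(unif K), S x ∈ Y)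
    {φ ψ φ' ψ' : EE d → ℝ} (h1 : DualPair (unif K) Y T r R φ ψ)
    (h2 : DualPair (unif K) Y S r R φ' ψ') {c N : ℝ}
    (hN : ∫ x, (φ x - φ' x - c) ^ 2 ∂(unif K) ≤ N ^ 2) {t : ℝ} (ht : 0 < t) (htr : t ≤ r0) :
    ∫ x, ‖T x - S x‖ ^ 2 ∂(unif K) ≤ 9 * d * N ^ 2 / t ^ 2
      + (8 * R ^ 2 * d * (volume (Metric.closedBall (0 : EE d) (r + 1))).toReal / (volume K).toReal
          + 4 * R ^ 2 * d / r0) * t := by
  have hprob := unif_isProbabilityMeasure hK hKi
  have hR0 : 0 ≤ R := by
    obtain ⟨x, hx⟩ := hTY.exists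
    exact (norm_nonneg _).trans (hYR _ hx)
  have cont_of_lip : ∀ {c : ℝ} {f : EE d → ℝ}, (∀ x z, |f x - f z| ≤ c * ‖x - z‖) → Continuous f := by
    intro c f hf
    have : LipschitzWith (Real.toNNReal c) f := by
      refine LipschitzWith.of_dist_le_mul fun x z => ?_
      rw [Real.dist_eq, dist_eq_norm]
      exact (hf x z).trans (mul_le_mul_of_nonneg_right (Real.le_coe_toNNReal c) (norm_nonneg _))
    exact this.continuous
  have hφc : Continuous φ := cont_of_lip h1.lipφ
  have hφc' : Continuous φ' := cont_of_lip h2.lipφ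
  set A : Set (EE d) := shrink K x0 (t / r0) with hA
  have hAc : IsCompact A := isCompact_shrink hK x0 (t / r0)
  have hAm : MeasurableSet A := hAc.measurableSet
  have hAK : A ⊆ K := shrink_subset hKc hr0 hball ht htr
  set e : Fin d → EE d := fun k => EuclideanSpace.single k (1 : ℝ) with he
  have hev : ∀ k, ‖t • e k‖ ≤ t := by
    intro k
    rw [norm_smul, he]
    simp only [PiLp.norm_single, norm_one, mul_one, Real.norm_eq_abs, abs_of_pos ht,
      le_refl]
  set F : EE d → ℝ := fun x => (φ x - φ' x - c) ^ 2 with hF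
  have hFc : Continuous F := by fun_prop
  have hF0 : ∀ x, 0 ≤ F x := fun x => sq_nonneg _
  set Δ : Fin d → EE d → ℝ := fun k x => φ' (x + t • e k) + φ' (x - t • e k) - 2 * φ' x with hΔ
  have hΔ0 : ∀ k x, 0 ≤ Δ k x := fun k x => by
    have := h2.conv x (t • e k)
    simp only [hΔ]
    linarith
  have hΔc : ∀ k, Continuous (Δ k) := fun k => by simp only [hΔ]; fun_prop
  -- integrability on the probability space: continuous functions are bounded on `K`
  have int_cont : ∀ {f : EE d → ℝ}, Continuous f → Integrable f (unif K) := by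
    intro f hf
    have : IntegrableOn f K volume := hf.continuousOn.integrableOn_compact hK
    unfold unif
    exact Integrable.smul_measure this (by
      have h0 : volume K ≠ 0 := by
        have : 0 < volume (interior K) := isOpen_interior.measure_pos volume hKi
        exact (this.trans_le (measure_mono interior_subset)).ne'
      exact ENNReal.inv_ne_top.2 h0)
  have hbd : ∀ᵐ x ∂(unif K), ‖T x - S x‖ ≤ 2 * R := by
    filter_upwards [hTY, hSY] with x hx hx'
    have := (norm_sub_le (T x) (S x)).trans (add_le_add (hYR _ hx) (hYR _ hx'))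
    linarith
  have int_n : Integrable (fun x => ‖T x - S x‖ ^ 2) (unif K) := by
    refine Integrable.of_bound (C := (2 * R) ^ 2) ((hT.sub hS).norm.pow_const 2).aestronglyMeasurable ?_
    filter_upwards [hbd] with x hx
    rw [Real.norm_eq_abs, abs_of_nonneg (by positivity)]
    exact pow_le_pow_left₀ (norm_nonneg _) hx 2
  have hpt : ∀ᵐ x ∂(unif K), t / 2 * ‖T x - S x‖ ^ 2 ≤
      ∑ k, (3 / (2 * t) * (F (x + t • e k) + F (x - t • e k) + F x) + 2 * R * Δ k x) := by
    filter_upwards [hTY, hSY, h1.eq, h2.eq, hbd] with x hx hx' e1 e2 hb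
    rw [norm_sq_eq_sum_inner, Finset.mul_sum]
    refine Finset.sum_le_sum fun k _ => ?_
    have hp := gn_pointwise h1.ineq h2.ineq hx hx' e1 e2 c (t • e k)
    rw [inner_smul_right, abs_mul, abs_of_pos ht] at hp
    have hD : |⟪T x - S x, e k⟫| ≤ 2 * R := by
      refine (abs_real_inner_le_norm _ _).trans ?_
      simp only [he, PiLp.norm_single, norm_one, mul_one]
      exact hb
    exact gn_young ht hD (hΔ0 k x) hp
  have hm : 0 < (volume K).toReal := by
    have h0 : 0 < volume K :=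
      (isOpen_interior.measure_pos volume hKi).trans_le (measure_mono interior_subset)
    exact ENNReal.toReal_pos h0.ne' hK.measure_lt_top.ne
  set V : ℝ := (volume (Metric.closedBall (0 : EE d) (r + 1))).toReal / (volume K).toReal with hV
  have hDint : ∀ k, ∫ x in A, Δ k x ∂(unif K) ≤ 2 * R * V * t ^ 2 := by
    intro k
    refine (setIntegral_le_integral (int_cont (hΔc k))
      (Filter.Eventually.of_forall fun x => hΔ0 k x)).trans ?_
    rw [integral_unif]
    have := integral_second_difference_le hK hKr h2.lipφ h2.conv (t • e k)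
    have hn : ‖t • e k‖ = t := by
      rw [norm_smul, he]
      simp only [PiLp.norm_single, norm_one, mul_one, Real.norm_eq_abs, abs_of_pos ht]
    rw [hn] at this
    calc (volume K).toReal⁻¹ * _ ≤ (volume K).toReal⁻¹ *
          (2 * R * t ^ 2 * (volume (Metric.closedBall (0 : EE d) (r + 1))).toReal) :=
          mul_le_mul_of_nonneg_left this (inv_nonneg.2 hm.le)
      _ = _ := by rw [hV]; field_simp
  have hF1 : ∀ k, ∫ x in A, F (x + t • e k) ∂(unif K) ≤ N ^ 2 := fun k =>
    (setIntegral_shift_le hK hAc hAK hFc hF0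
      (fun x hx => shrink_add_mem hKc hr0 hball ht htr hx (hev k))).trans hN
  have hF2 : ∀ k, ∫ x in A, F (x - t • e k) ∂(unif K) ≤ N ^ 2 := fun k => by
    have := (setIntegral_shift_le hK hAc hAK hFc hF0 (v := -(t • e k))
      (fun x hx => shrink_add_mem hKc hr0 hball ht htr hx (by rw [norm_neg]; exact hev k))).trans hN
    simpa only [← sub_eq_add_neg] using this
  have hF3 : ∫ x in A, F x ∂(unif K) ≤ N ^ 2 :=
    (setIntegral_le_integral (int_cont hFc) (Filter.Eventually.of_forall hF0)).trans hN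
  have iF1 : ∀ k, Integrable (fun x => F (x + t • e k)) (unif K) := fun k =>
    int_cont (by fun_prop)
  have iF2 : ∀ k, Integrable (fun x => F (x - t • e k)) (unif K) := fun k =>
    int_cont (by fun_prop)
  have isum : ∀ k, Integrable (fun x => 3 / (2 * t) * (F (x + t • e k) + F (x - t • e k) + F x)
      + 2 * R * Δ k x) (unif K) := fun k =>
    ((((iF1 k).add (iF2 k)).add (int_cont hFc)).const_mul _).add ((int_cont (hΔc k)).const_mul _)
  have hAint : t / 2 * ∫ x in A, ‖T x - S x‖ ^ 2 ∂(unif K)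
      ≤ d * (3 / (2 * t) * (3 * N ^ 2) + 2 * R * (2 * R * V * t ^ 2)) := by
    calc t / 2 * ∫ x in A, ‖T x - S x‖ ^ 2 ∂(unif K)
        = ∫ x in A, t / 2 * ‖T x - S x‖ ^ 2 ∂(unif K) := (integral_const_mul _ _).symm
      _ ≤ ∫ x in A, ∑ k, (3 / (2 * t) * (F (x + t • e k) + F (x - t • e k) + F x)
            + 2 * R * Δ k x) ∂(unif K) :=
          integral_mono_ae (int_n.const_mul _).integrableOn
            (integrable_finsetSum _ fun k _ => isum k).integrableOn (ae_restrict_of_ae hpt)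
      _ = ∑ k, ∫ x in A, (3 / (2 * t) * (F (x + t • e k) + F (x - t • e k) + F x)
            + 2 * R * Δ k x) ∂(unif K) := integral_finsetSum _ fun k _ => (isum k).integrableOn
      _ ≤ ∑ _k : Fin d, (3 / (2 * t) * (3 * N ^ 2) + 2 * R * (2 * R * V * t ^ 2)) := by
          refine Finset.sum_le_sum fun k _ => ?_
          have i12 : Integrable (fun x => F (x + t • e k) + F (x - t • e k)) (unif K) :=
            (iF1 k).add (iF2 k)
          have i123 : Integrable (fun x => F (x + t • e k) + F (x - t • e k) + F x) (unif K) :=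
            i12.add (int_cont hFc)
          rw [integral_add (i123.const_mul _).integrableOn
            ((int_cont (hΔc k)).const_mul _).integrableOn, integral_const_mul, integral_const_mul,
            integral_add i12.integrableOn (int_cont hFc).integrableOn,
            integral_add (iF1 k).integrableOn (iF2 k).integrableOn]
          have a1 := hF1 k
          have a2 := hF2 k
          have a3 := hDint k
          gcongr
          linarith
      _ = _ := by
          simp only [Finset.sum_const, Finset.card_univ, Fintype.card_fin, nsmul_eq_mul]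
  have hAcint : ∫ x in Aᶜ, ‖T x - S x‖ ^ 2 ∂(unif K) ≤ (2 * R) ^ 2 * (d * (t / r0)) := by
    calc ∫ x in Aᶜ, ‖T x - S x‖ ^ 2 ∂(unif K) ≤ ∫ _x in Aᶜ, (2 * R) ^ 2 ∂(unif K) := by
          refine integral_mono_ae int_n.integrableOn (integrable_const _) (ae_restrict_of_ae ?_)
          filter_upwards [hbd] with x hx
          exact pow_le_pow_left₀ (norm_nonneg _) hx 2
      _ = (unif K).real Aᶜ * (2 * R) ^ 2 := by
          rw [setIntegral_const, smul_eq_mul]
      _ ≤ _ := by
          rw [mul_comm]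
          exact mul_le_mul_of_nonneg_left (unif_shrink hK hKi hKc hr0 hball ht htr) (by positivity)
  rw [← integral_add_compl hAm int_n]
  have h3 : ∫ x in A, ‖T x - S x‖ ^ 2 ∂(unif K)
      ≤ 2 / t * (d * (3 / (2 * t) * (3 * N ^ 2) + 2 * R * (2 * R * V * t ^ 2))) := by
    have : ∫ x in A, ‖T x - S x‖ ^ 2 ∂(unif K)
        = 2 / t * (t / 2 * ∫ x in A, ‖T x - S x‖ ^ 2 ∂(unif K)) := by field_simp
    rw [this]
    exact mul_le_mul_of_nonneg_left hAint (by positivity)
  have h4 : 2 / t * (d * (3 / (2 * t) * (3 * N ^ 2) + 2 * R * (2 * R * V * t ^ 2)))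
      + (2 * R) ^ 2 * (d * (t / r0))
      = 9 * d * N ^ 2 / t ^ 2 + (8 * R ^ 2 * d
          * (volume (Metric.closedBall (0 : EE d) (r + 1))).toReal / (volume K).toReal
          + 4 * R ^ 2 * d / r0) * t := by
    rw [hV]
    field_simp
    ring
  linarith
/-- Gagliardo-Nirenberg type interpolation for differences of convex potentials. -/
theorem gn_inequality {K Y : Set (EE d)} (hK : IsCompact K) (hKc : Convex ℝ K)
    (hKi : (interior K).Nonempty) {r R : ℝ} (hKr : ∀ x ∈ K, ‖x‖ ≤ r) (hYR : ∀ y ∈ Y, ‖y‖ ≤ R) :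
    ∃ C : ℝ, 0 ≤ C ∧ ∀ (T S : EE d → EE d) (φ ψ φ' ψ' : EE d → ℝ) (c N : ℝ),
      Measurable T → Measurable S →
      (∀ᵐ x ∂(unif K), T x ∈ Y) → (∀ᵐ x ∂(unif K), S x ∈ Y) →
      DualPair (unif K) Y T r R φ ψ → DualPair (unif K) Y S r R φ' ψ' → 0 ≤ N →
      ∫ x, (φ x - φ' x - c) ^ 2 ∂(unif K) ≤ N ^ 2 →
      ∫ x, ‖T x - S x‖ ^ 2 ∂(unif K) ≤ C * N ^ (2 / 3 : ℝ) := by
  have hprob := unif_isProbabilityMeasure hK hKi
  obtain ⟨x0, hx0⟩ := hKi
  obtain ⟨r0, hr0, hball⟩ : ∃ r0 > 0, Metric.closedBall x0 r0 ⊆ K :=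
    Metric.nhds_basis_closedBall.mem_iff.1 (mem_interior_iff_mem_nhds.1 hx0)
  set b : ℝ := 8 * R ^ 2 * d * (volume (Metric.closedBall (0 : EE d) (r + 1))).toReal
    / (volume K).toReal + 4 * R ^ 2 * d / r0 with hb
  have hb0 : 0 ≤ b := by positivity
  refine ⟨9 * d + b + 4 * R ^ 2 / r0, by positivity, ?_⟩
  intro T S φ ψ φ' ψ' c N hT hS hTY hSY h1 h2 hN0 hN
  have hsc := fun {t : ℝ} (ht : 0 < t) (htr : t ≤ r0) =>
    gn_scale hK hKc ⟨x0, hx0⟩ hr0 hball hKr hYR hT hS hTY hSY h1 h2 hN ht htr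
  rcases hN0.eq_or_lt with rfl | hNpos
  · rw [Real.zero_rpow (by norm_num), mul_zero]
    refine le_of_forall_pos_le_add fun ε hε => ?_
    have ht : 0 < min r0 (ε / (b + 1)) := lt_min hr0 (by positivity)
    have := hsc ht (min_le_left _ _)
    have h2 : b * min r0 (ε / (b + 1)) ≤ ε := by
      calc b * min r0 (ε / (b + 1)) ≤ b * (ε / (b + 1)) := by gcongr; exact min_le_right _ _
        _ ≤ (b + 1) * (ε / (b + 1)) := by gcongr; linarith
        _ = ε := by field_simp
    simp only [ne_eq, OfNat.ofNat_ne_zero, not_false_eq_true, zero_pow, mul_zero, zero_div,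
      zero_add] at this
    linarith
  · set t : ℝ := N ^ (2 / 3 : ℝ) with ht
    have htpos : 0 < t := Real.rpow_pos_of_pos hNpos _
    by_cases htr : t ≤ r0
    · have := hsc htpos htr
      have e : N ^ 2 / t ^ 2 = t := by
        rw [div_eq_iff (by positivity), ← pow_succ', ht, ← Real.rpow_natCast, ← Real.rpow_natCast,
          ← Real.rpow_mul hN0]
        norm_num
      have e2 : 9 * d * N ^ 2 / t ^ 2 = 9 * d * t := by
        rw [mul_div_assoc, e]
      rw [e2] at this
      have h3 : 0 ≤ 4 * R ^ 2 / r0 * t := by positivity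
      nlinarith
    · rw [not_le] at htr
      have hbd : ∀ᵐ x ∂(unif K), ‖T x - S x‖ ^ 2 ≤ 4 * R ^ 2 := by
        filter_upwards [hTY, hSY] with x hx hx'
        have h := (norm_sub_le (T x) (S x)).trans (add_le_add (hYR _ hx) (hYR _ hx'))
        nlinarith [norm_nonneg (T x - S x)]
      have h4 : ∫ x, ‖T x - S x‖ ^ 2 ∂(unif K) ≤ 4 * R ^ 2 := by
        have int_n : Integrable (fun x => ‖T x - S x‖ ^ 2) (unif K) := by
          refine Integrable.of_bound (C := 4 * R ^ 2)
            ((hT.sub hS).norm.pow_const 2).aestronglyMeasurable ?_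
          filter_upwards [hbd] with x hx
          rw [Real.norm_eq_abs, abs_of_nonneg (by positivity)]
          exact hx
        calc ∫ x, ‖T x - S x‖ ^ 2 ∂(unif K) ≤ ∫ _x, 4 * R ^ 2 ∂(unif K) :=
              integral_mono_ae int_n (integrable_const _) hbd
          _ = 4 * R ^ 2 := by simp
      have h5 : 4 * R ^ 2 ≤ 4 * R ^ 2 / r0 * t := by
        rw [div_mul_eq_mul_div, le_div_iff₀ hr0]
        have : 0 ≤ 4 * R ^ 2 := by positivity
        nlinarith
      have h6 : 0 ≤ (9 * d + b) * t := by positivity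
      nlinarith

end Vale.Agent.P074
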