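import Vale.Agent.P074.Third.Cells

open MeasureTheory
open scoped ENNReal NNReal RealInnerProductSpace

namespace Vale.Agent.P074

variable {d : ℕ}

/-- From the weights to the potentials. On `cell y wy i`:
`pot y wy - pot z wz ≤ ⟪x, y i - z i⟫ - D i`; on `cell z wz i` the reverse inequality. -/
theorem pot_l2_le {ι : Type} [Fintype ι] [Nonempty ι] {K : Set (EE d)} (hK : IsCompact K)
    (hKi : (interior K).Nonempty) {r : ℝ} (hKr : ∀ x ∈ K, ‖x‖ ≤ r)
    {m : ι → ℝ} {y z : ι → EE d} (hy : Function.Injective y) (hz : Function.Injective z)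
    {wy wz : ι → ℝ} (hwy : IsOpt K m y wy) (hwz : IsOpt K m z wz) :
    ∫ x, (pot y wy x - pot z wz x + ∑ j, m j * (wy j - wz j)) ^ 2 ∂(unif K)
      ≤ 4 * r ^ 2 * ∑ i, m i * ‖y i - z i‖ ^ 2
        + 4 * ∑ i, m i * ((wy i - wz i) - ∑ j, m j * (wy j - wz j)) ^ 2 := by
  have hprob := unif_isProbabilityMeasure hK hKi
  set Dbar := ∑ j, m j * (wy j - wz j) with hDbar
  set u : EE d → ℝ := fun x => pot y wy x - pot z wz x + Dbar with hu
  have hucont : Continuous u :=
    ((continuous_pot y wy).sub (continuous_pot z wz)).add continuous_const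
  set c : ι → ℝ := fun i => 2 * r ^ 2 * ‖y i - z i‖ ^ 2 + 2 * ((wy i - wz i) - Dbar) ^ 2 with hc
  have ha : ∀ i, ∀ x ∈ K, (⟪x, y i - z i⟫ - ((wy i - wz i) - Dbar)) ^ 2 ≤ c i := by
    intro i x hx
    have h1 : |⟪x, y i - z i⟫| ≤ r * ‖y i - z i‖ :=
      (abs_real_inner_le_norm _ _).trans
        (mul_le_mul_of_nonneg_right (hKr x hx) (norm_nonneg _))
    have h2 : ⟪x, y i - z i⟫ ^ 2 ≤ (r * ‖y i - z i‖) ^ 2 := by
      rw [← sq_abs]
      exact pow_le_pow_left₀ (abs_nonneg _) h1 2
    simp only [hc]
    nlinarith [sq_nonneg (⟪x, y i - z i⟫ + ((wy i - wz i) - Dbar))]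
  have hcnn : ∀ i, 0 ≤ c i := fun i => by
    simp only [hc]
    positivity
  -- positive part
  have hpos : ∫ x, (max (u x) 0) ^ 2 ∂(unif K) ≤ ∑ i, m i * c i := by
    have hint : Integrable (fun x => (max (u x) 0) ^ 2) (unif K) :=
      integrable_unif_of_continuous hK hKi (by fun_prop)
    rw [integral_eq_sum_cells hK hy wy hint]
    refine Finset.sum_le_sum fun i _ => ?_
    calc ∫ x in cell K y wy i, (max (u x) 0) ^ 2 ∂(unif K)
        ≤ ∫ _x in cell K y wy i, c i ∂(unif K) := by
          refine setIntegral_mono_on hint.integrableOn (integrable_const _).integrableOn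
            (measurableSet_cell hK.isClosed y wy i) fun x hx => ?_
          have h1 : u x ≤ ⟪x, y i - z i⟫ - ((wy i - wz i) - Dbar) := by
            have e1 := pot_eq_of_mem_cell hx
            have e2 := le_pot z wz x i
            simp only [hu, inner_sub_right]
            linarith
          have h2 := ha i x hx.1
          rcases le_total (u x) 0 with h0 | h0
          · rw [max_eq_right h0]
            simpa using hcnn i
          · rw [max_eq_left h0]
            exact (pow_le_pow_left₀ h0 h1 2).trans h2
      _ = m i * c i := by rw [setIntegral_const, hwy i, smul_eq_mul]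
  have hneg : ∫ x, (max (-u x) 0) ^ 2 ∂(unif K) ≤ ∑ i, m i * c i := by
    have hint : Integrable (fun x => (max (-u x) 0) ^ 2) (unif K) :=
      integrable_unif_of_continuous hK hKi (by fun_prop)
    rw [integral_eq_sum_cells hK hz wz hint]
    refine Finset.sum_le_sum fun i _ => ?_
    calc ∫ x in cell K z wz i, (max (-u x) 0) ^ 2 ∂(unif K)
        ≤ ∫ _x in cell K z wz i, c i ∂(unif K) := by
          refine setIntegral_mono_on hint.integrableOn (integrable_const _).integrableOn
            (measurableSet_cell hK.isClosed z wz i) fun x hx => ?_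
          have h1 : -u x ≤ -(⟪x, y i - z i⟫ - ((wy i - wz i) - Dbar)) := by
            have e1 := pot_eq_of_mem_cell hx
            have e2 := le_pot y wy x i
            simp only [hu, inner_sub_right]
            linarith
          have h2 := ha i x hx.1
          rcases le_total (-u x) 0 with h0 | h0
          · rw [max_eq_right h0]
            simpa using hcnn i
          · rw [max_eq_left h0]
            refine (pow_le_pow_left₀ h0 h1 2).trans ?_
            rw [neg_sq]
            exact h2
      _ = m i * c i := by rw [setIntegral_const, hwz i, smul_eq_mul]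
  have hsplit : ∫ x, (u x) ^ 2 ∂(unif K)
      = ∫ x, (max (u x) 0) ^ 2 ∂(unif K) + ∫ x, (max (-u x) 0) ^ 2 ∂(unif K) := by
    rw [← integral_add (integrable_unif_of_continuous hK hKi (by fun_prop))
      (integrable_unif_of_continuous hK hKi (by fun_prop))]
    refine integral_congr_ae (Filter.Eventually.of_forall fun x => ?_)
    simp only
    rcases le_total (u x) 0 with h0 | h0
    · rw [max_eq_right h0, max_eq_left (by linarith)]
      ring
    · rw [max_eq_left h0, max_eq_right (by linarith)]
      ring
  have hsum : ∑ i, m i * c i = 2 * r ^ 2 * ∑ i, m i * ‖y i - z i‖ ^ 2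
      + 2 * ∑ i, m i * ((wy i - wz i) - Dbar) ^ 2 := by
    rw [Finset.mul_sum, Finset.mul_sum, ← Finset.sum_add_distrib]
    refine Finset.sum_congr rfl fun i _ => ?_
    simp only [hc]
    ring
  change ∫ x, (u x) ^ 2 ∂(unif K) ≤ _
  rw [hsplit]
  linarith

end Vale.Agent.P074
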