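import Vale.Agent.P074.Third.PPrime
import Vale.Agent.P074.Third.PotL2
import Vale.Agent.P074.Third.GN

open MeasureTheory
open scoped ENNReal NNReal RealInnerProductSpace

namespace Vale.Agent.P074

variable {d : ℕ}

/-- Choice of the parameter `s`. -/
lemma core_exists_s {Cw η a : ℝ} (hCw : 0 ≤ Cw) (hη : 0 < η) (ha : 0 < a) :
    ∃ s : ℝ, 0 < s ∧ Cw * s ^ (1 / 4 : ℝ) ≤ η ^ 2 / 2 ∧ s * a ≤ 1 := by
  set b : ℝ := η ^ 2 / (2 * (Cw + 1)) with hb
  have hb0 : 0 < b := by positivity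
  refine ⟨min (b ^ 4) (1 / a), lt_min (by positivity) (by positivity), ?_, ?_⟩
  · have h1 : (min (b ^ 4) (1 / a)) ^ (1 / 4 : ℝ) ≤ (b ^ 4) ^ (1 / 4 : ℝ) :=
      Real.rpow_le_rpow (le_min (by positivity) (by positivity)) (min_le_left _ _) (by norm_num)
    have h2 : (b ^ 4) ^ (1 / 4 : ℝ) = b := by
      rw [← Real.rpow_natCast, ← Real.rpow_mul hb0.le]
      norm_num
    rw [h2] at h1
    have h3 : Cw * b ≤ η ^ 2 / 2 := by
      rw [hb]
      have : Cw * (η ^ 2 / (2 * (Cw + 1))) = (η ^ 2 / 2) * (Cw / (Cw + 1)) := by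
        field_simp
      rw [this]
      have h4 : Cw / (Cw + 1) ≤ 1 := by
        rw [div_le_one (by positivity)]
        linarith
      nlinarith [sq_nonneg η]
    exact (mul_le_mul_of_nonneg_left h1 hCw).trans h3
  · calc min (b ^ 4) (1 / a) * a ≤ (1 / a) * a :=
          mul_le_mul_of_nonneg_right (min_le_right _ _) ha.le
      _ = 1 := by field_simp

/-- Choice of the number of nodes `n`. -/
lemma core_exists_n {r R s η : ℝ} (hr : 0 < r) (hR : 0 < R) (hs : 0 < s) (hη : 0 < η) :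
    ∃ n : ℕ, 0 < n ∧ 2 * r / (n * s) * (2 * R) ≤ η ^ 2 / 2 := by
  obtain ⟨n, hn⟩ := exists_nat_gt (8 * r * R / (s * η ^ 2))
  have hpos : 0 < 8 * r * R / (s * η ^ 2) := by positivity
  have hn0 : (0 : ℝ) < n := hpos.trans hn
  refine ⟨n, by exact_mod_cast hn0, ?_⟩
  rw [div_lt_iff₀ (by positivity)] at hn
  rw [div_mul_eq_mul_div, div_le_iff₀ (by positivity)]
  nlinarith

/-- Solving the quadratic inequality. -/
lemma core_quadratic {G a η : ℝ} (hG : 0 ≤ G) (ha : 0 ≤ a) (hη : 0 < η)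
    (h : G ^ 2 ≤ a * G + η ^ 2) : G ≤ a + η := by
  by_contra hcon
  rw [not_le] at hcon
  nlinarith

/-- Discrete core theorem: exponent `1/3` for finitely supported targets with the same masses
(sites injective at the nodes `k/n`), up to an arbitrarily small error `η`.
Proof. `C_w` from `weights_lipschitz`, `C_g` from `gn_inequality` with `Y = closedBall 0 R`.
Given `η`, choose `s` with `C_w s^(1/4) ≤ η^2/2`, `s (8 r R) ≤ 1`, then `n` with
`2 r/(n s) (2 R) ≤ η^2/2`. Optimal weights from `exists_isOpt`, maps and dual pairs from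
`dualPair_of_isOpt`. With `G^2 = ∑ m (D - Dbar)^2`, `W^2 = ∑ m ‖y - z‖^2`:
`G^2 ≤ 100 r G W + η^2`, so `G ≤ 100 r W + η`; `pot_l2_le` gives `N ≤ 2 r W + 2 G`. -/
theorem core_discrete {K : Set (EE d)} (hK : IsCompact K) (hKc : Convex ℝ K)
    (hKi : (interior K).Nonempty) {r R : ℝ} (hr : 0 < r) (hR : 0 < R) (hKr : ∀ x ∈ K, ‖x‖ ≤ r) :
    ∃ C : ℝ, 0 ≤ C ∧ ∀ η : ℝ, 0 < η → ∃ n : ℕ, 0 < n ∧
      ∀ (ι : Type) [Fintype ι] [Nonempty ι] (m : ι → ℝ) (y z : ι → EE d),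
      (∀ i, 0 < m i) → ∑ i, m i = 1 → (∀ i, ‖y i‖ ≤ R) → (∀ i, ‖z i‖ ≤ R) →
      (∀ k ≤ n, Function.Injective fun i => z i + ((k : ℝ) / n) • (y i - z i)) →
      ∃ (T S : EE d → EE d) (φ ψ φ' ψ' : EE d → ℝ), Measurable T ∧ Measurable S ∧
        (∀ x, T x ∈ Metric.closedBall (0 : EE d) R) ∧ (∀ x, S x ∈ Metric.closedBall (0 : EE d) R) ∧
        DualPair (unif K) (Metric.closedBall (0 : EE d) R) T r R φ ψ ∧
        DualPair (unif K) (Metric.closedBall (0 : EE d) R) S r R φ' ψ' ∧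
        (unif K).map T = ∑ i, ENNReal.ofReal (m i) • Measure.dirac (y i) ∧
        (unif K).map S = ∑ i, ENNReal.ofReal (m i) • Measure.dirac (z i) ∧
        ∫ x, ‖T x - S x‖ ^ 2 ∂(unif K)
          ≤ C * (Real.sqrt (∑ i, m i * ‖y i - z i‖ ^ 2) + η) ^ (2 / 3 : ℝ) := by
  obtain ⟨Cw, hCw0, hCw⟩ := weights_lipschitz hK hKc hKi hr hR hKr
  have hYR : ∀ y ∈ Metric.closedBall (0 : EE d) R, ‖y‖ ≤ R := fun y hy => by
    simpa using hy
  obtain ⟨Cg, hCg0, hCg⟩ :=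
    gn_inequality (Y := Metric.closedBall (0 : EE d) R) hK hKc hKi hKr hYR
  refine ⟨Cg * (202 * r + 2) ^ (2 / 3 : ℝ), by positivity, ?_⟩
  intro η hη
  obtain ⟨s, hs0, hs1, hs2⟩ := core_exists_s (a := 8 * r * R) hCw0 hη (by positivity)
  obtain ⟨n, hn0, hn1⟩ := core_exists_n hr hR hs0 hη
  refine ⟨n, hn0, ?_⟩
  intro ι _ _ m y z hm hm1 hy hz hinj
  have hzinj : Function.Injective z := by
    have := hinj 0 (Nat.zero_le n)
    simpa using this
  have hyinj : Function.Injective y := by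
    have := hinj n le_rfl
    have hnn : ((n : ℝ) / n) = 1 := div_self (by positivity)
    simpa [hnn] using this
  obtain ⟨wy, hwy⟩ := exists_isOpt hK hKi hyinj hm hm1
  obtain ⟨wz, hwz⟩ := exists_isOpt hK hKi hzinj hm hm1
  obtain ⟨T, φ, ψ, hTm, hT1, -, hTd, hTφ, -, hTmap⟩ :=
    dualPair_of_isOpt hK hKi hKr hYR hyinj (fun i => by simpa using hy i) hm hwy
  obtain ⟨S, φ', ψ', hSm, hS1, -, hSd, hSφ, -, hSmap⟩ :=
    dualPair_of_isOpt hK hKi hKr hYR hzinj (fun i => by simpa using hz i) hm hwz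
  have hTY : ∀ x, T x ∈ Metric.closedBall (0 : EE d) R := by
    intro x
    obtain ⟨i, hi, -⟩ := hT1 x
    rw [hi]
    simpa using hy i
  have hSY : ∀ x, S x ∈ Metric.closedBall (0 : EE d) R := by
    intro x
    obtain ⟨i, hi, -⟩ := hS1 x
    rw [hi]
    simpa using hz i
  refine ⟨T, S, φ, ψ, φ', ψ', hTm, hSm, hTY, hSY, hTd, hSd, hTmap, hSmap, ?_⟩
  set Dbar : ℝ := ∑ j, m j * (wy j - wz j) with hDbar
  set G2 : ℝ := ∑ i, m i * ((wy i - wz i) - Dbar) ^ 2 with hG2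
  set W2' : ℝ := ∑ i, m i * ‖y i - z i‖ ^ 2 with hW2
  have hG2nn : 0 ≤ G2 := Finset.sum_nonneg fun i _ => mul_nonneg (hm i).le (sq_nonneg _)
  have hW2nn : 0 ≤ W2' := Finset.sum_nonneg fun i _ => mul_nonneg (hm i).le (sq_nonneg _)
  set G : ℝ := Real.sqrt G2 with hG
  set W : ℝ := Real.sqrt W2' with hW
  have hG0 : 0 ≤ G := Real.sqrt_nonneg _
  have hW0 : 0 ≤ W := Real.sqrt_nonneg _
  have hGsq : G ^ 2 = G2 := Real.sq_sqrt hG2nn
  have hWsq : W ^ 2 = W2' := Real.sq_sqrt hW2nn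
  have hsum : ∑ i, m i * ‖y i - z i‖ ≤ 2 * R := by
    calc ∑ i, m i * ‖y i - z i‖ ≤ ∑ i, m i * (2 * R) := by
          refine Finset.sum_le_sum fun i _ => mul_le_mul_of_nonneg_left ?_ (hm i).le
          calc ‖y i - z i‖ ≤ ‖y i‖ + ‖z i‖ := norm_sub_le _ _
            _ ≤ 2 * R := by linarith [hy i, hz i]
      _ = 2 * R := by rw [← Finset.sum_mul, hm1, one_mul]
  have hmain := hCw ι m y z wy wz n s hm hm1 hy hz hn0 hinj hwy hwz hs0 hs2
  have hcoef : 0 ≤ 2 * r / (n * s) := by positivity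
  have hq : G ^ 2 ≤ (100 * r * W) * G + η ^ 2 := by
    rw [hGsq]
    have h3 : 2 * r / (n * s) * ∑ i, m i * ‖y i - z i‖ ≤ η ^ 2 / 2 :=
      (mul_le_mul_of_nonneg_left hsum hcoef).trans hn1
    calc G2 ≤ 100 * r * G * W + Cw * s ^ (1 / 4 : ℝ)
            + 2 * r / (n * s) * ∑ i, m i * ‖y i - z i‖ := hmain
      _ ≤ 100 * r * G * W + η ^ 2 / 2 + η ^ 2 / 2 := by linarith
      _ = (100 * r * W) * G + η ^ 2 := by ring
  have hGle : G ≤ 100 * r * W + η := core_quadratic hG0 (by positivity) hη hq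
  have hpot := pot_l2_le hK hKi hKr hyinj hzinj hwy hwz
  set N : ℝ := 2 * r * W + 2 * G with hN
  have hN0 : 0 ≤ N := by positivity
  have hint : ∫ x, (φ x - φ' x - (-Dbar)) ^ 2 ∂(unif K) ≤ N ^ 2 := by
    have hcongr : ∫ x, (φ x - φ' x - (-Dbar)) ^ 2 ∂(unif K)
        = ∫ x, (pot y wy x - pot z wz x + Dbar) ^ 2 ∂(unif K) := by
      refine integral_congr_ae ?_
      filter_upwards [ae_mem_unif hK.measurableSet] with x hx
      rw [hTφ x hx, hSφ x hx, sub_neg_eq_add]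
    rw [hcongr]
    calc ∫ x, (pot y wy x - pot z wz x + Dbar) ^ 2 ∂(unif K)
        ≤ 4 * r ^ 2 * W2' + 4 * G2 := hpot
      _ = 4 * r ^ 2 * W ^ 2 + 4 * G ^ 2 := by rw [hGsq, hWsq]
      _ ≤ N ^ 2 := by
          rw [hN]
          nlinarith [mul_nonneg (mul_nonneg hr.le hW0) hG0]
  have hgn := hCg T S φ ψ φ' ψ' (-Dbar) N hTm hSm (Filter.Eventually.of_forall hTY)
    (Filter.Eventually.of_forall hSY) hTd hSd hN0 hint
  have hNle : N ≤ (202 * r + 2) * (W + η) := by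
    rw [hN]
    nlinarith [mul_pos hr hη, hW0]
  calc ∫ x, ‖T x - S x‖ ^ 2 ∂(unif K) ≤ Cg * N ^ (2 / 3 : ℝ) := hgn
    _ ≤ Cg * ((202 * r + 2) * (W + η)) ^ (2 / 3 : ℝ) :=
        mul_le_mul_of_nonneg_left (Real.rpow_le_rpow hN0 hNle (by norm_num)) hCg0
    _ = Cg * (202 * r + 2) ^ (2 / 3 : ℝ) * (W + η) ^ (2 / 3 : ℝ) := by
        rw [Real.mul_rpow (by positivity) (by positivity), mul_assoc]

end Vale.Agent.P074
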