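import Vale.Agent.P074.Stability
import Vale.Agent.P074.Rockafellar

open MeasureTheory
open scoped ENNReal NNReal RealInnerProductSpace

namespace Vale.Agent.P074

variable {d : ℕ} {ι : Type} [Fintype ι]

/-- Piecewise affine convex potential with sites `p i` and weights `w i`. -/
noncomputable def pot (p : ι → EE d) (w : ι → ℝ) (x : EE d) : ℝ := ⨆ i, (⟪x, p i⟫ - w i)

/-- Laguerre (power) cell of the site `p i` inside `K`. -/
def cell (K : Set (EE d)) (p : ι → EE d) (w : ι → ℝ) (i : ι) : Set (EE d) :=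
  {x | x ∈ K ∧ ∀ j, ⟪x, p j⟫ - w j ≤ ⟪x, p i⟫ - w i}

/-- Kantorovich functional for the masses `m`, the sites `p`, evaluated at the weights `w`. -/
noncomputable def JJ (K : Set (EE d)) (m : ι → ℝ) (p : ι → EE d) (w : ι → ℝ) : ℝ :=
  ∫ x, pot p w x ∂(unif K) + ∑ i, m i * w i

/-- The weights `w` are optimal for the masses `m`: every cell has the prescribed mass. -/
def IsOpt (K : Set (EE d)) (m : ι → ℝ) (p : ι → EE d) (w : ι → ℝ) : Prop :=
  ∀ i, (unif K).real (cell K p w i) = m i

/-- First moment of the cell `i`. -/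
noncomputable def mom (K : Set (EE d)) (p : ι → EE d) (w : ι → ℝ) (i : ι) : EE d :=
  ∫ x in cell K p w i, x ∂(unif K)

/-- Gaussian weight. -/
noncomputable def gw (lam : ℝ) (x : EE d) : ℝ := Real.exp (-(lam * ‖x‖ ^ 2 / 2))

/-- Gaussian mass of the cell `i`. -/
noncomputable def gmass (K : Set (EE d)) (lam : ℝ) (p : ι → EE d) (w : ι → ℝ) (i : ι) : ℝ :=
  ∫ x in cell K p w i, gw lam x ∂(unif K)

end Vale.Agent.P074
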