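import Vale.Agent.P074.Defs
import Vale.Agent.P074.Potential

open MeasureTheory
open scoped ENNReal NNReal RealInnerProductSpace

namespace Vale.Agent.P074

variable {d : ℕ}

lemma exists_meas_sel (y0 : EE d) (r : ℝ) (t : Finset (EE d)) :
    ∃ f : EE d → EE d, Measurable f ∧ (∀ x, f x ∈ insert y0 t) ∧
      ∀ x, (∃ c ∈ t, x ∈ Metric.ball c r) → dist x (f x) < r := by
  classical
  induction t using Finset.induction_on with
  | empty => exact ⟨fun _ => y0, measurable_const, by simp, by simp⟩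
  | insert c t _ ih =>
    obtain ⟨f, hf, hfT, hfd⟩ := ih
    refine ⟨fun x => if x ∈ Metric.ball c r then c else f x,
      Measurable.ite Metric.isOpen_ball.measurableSet measurable_const hf, ?_, ?_⟩
    · intro x
      by_cases hx : x ∈ Metric.ball c r
      · simp [hx]
      · simp only [hx, if_false]
        have := hfT x
        simp only [Finset.mem_insert] at this ⊢
        tauto
    · rintro x ⟨c', hc', hx'⟩
      by_cases hx : x ∈ Metric.ball c r
      · have hx2 := hx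
        rw [Metric.mem_ball] at hx2
        simpa [hx] using hx2
      · simp only [hx, if_false]
        apply hfd
        rcases Finset.mem_insert.1 hc' with rfl | h
        · exact absurd hx' hx
        · exact ⟨c', h, hx'⟩

lemma map_eq_sum_dirac {J : Type} [Fintype J] [MeasurableSpace J] [MeasurableSingletonClass J]
    (P : Measure J) (g : J → EE d) :
    P.map g = ∑ j, P {j} • Measure.dirac (g j) := by
  have hg : Measurable g := measurable_of_finite g
  conv_lhs => rw [← Measure.sum_smul_dirac P]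
  rw [Measure.map_sum hg.aemeasurable, Measure.sum_fintype]
  refine Finset.sum_congr rfl fun j _ => ?_
  rw [Measure.map_smul, Measure.map_dirac' hg]

lemma exists_generic_eps {J : Type} [Fintype J] (idx : J → ℕ) (hidx : Function.Injective idx)
    (A : ℕ → J → ℝ) (n : ℕ) {δ : ℝ} (hδ : 0 < δ) :
    ∃ ε : ℝ, 0 < ε ∧ ε < δ ∧ ∀ k ≤ n, ∀ i j : J, i ≠ j →
      A k i + ε * idx i ≠ A k j + ε * idx j := by
  classical
  let Bad : Set ℝ := Set.range (fun q : Fin (n+1) × J × J =>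
    (A q.1 q.2.1 - A q.1 q.2.2) / ((idx q.2.2 : ℝ) - idx q.2.1))
  have hfin : Bad.Finite := Set.finite_range _
  obtain ⟨ε, hε, hbad⟩ := (Set.Ioo_infinite hδ).exists_notMem_finite hfin
  refine ⟨ε, hε.1, hε.2, ?_⟩
  intro k hk i j hij heq
  apply hbad
  refine ⟨(⟨k, Nat.lt_succ_of_le hk⟩, i, j), ?_⟩
  have hne : ((idx j : ℝ) - idx i) ≠ 0 := by
    intro h
    apply hij
    apply hidx
    have : (idx j : ℝ) = idx i := by linarith
    exact_mod_cast this.symm
  simp only
  rw [div_eq_iff hne]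
  linarith

lemma ofReal_sq_rpow_half {r : ℝ} (hr : 0 ≤ r) :
    (ENNReal.ofReal (r ^ 2)) ^ (1 / 2 : ℝ) = ENNReal.ofReal r := by
  rw [ENNReal.ofReal_rpow_of_nonneg (by positivity) (by norm_num), ← Real.sqrt_eq_rpow,
    Real.sqrt_sq hr]

lemma W2_le_of_map {μ : Measure (EE d)} {π : Measure (EE d × EE d)} [IsProbabilityMeasure π]
    {pr : EE d × EE d → EE d} (hpr : Measurable pr) (hμ : π.map pr = μ)
    {G : EE d × EE d → EE d} (hG : Measurable G) {r : ℝ} (hr : 0 ≤ r)
    (hb : ∀ᵐ ω ∂π, ‖pr ω - G ω‖ ≤ r) :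
    W2 μ (π.map G) ≤ ENNReal.ofReal r := by
  have hm : Measurable fun ω => (pr ω, G ω) := hpr.prodMk hG
  have hc : IsCoupling μ (π.map G) (π.map fun ω => (pr ω, G ω)) := by
    constructor
    · rw [Measure.map_map measurable_fst hm, ← hμ]
      rfl
    · rw [Measure.map_map measurable_snd hm]
      rfl
  refine iInf₂_le_of_le _ hc ?_
  rw [lintegral_map (by fun_prop) hm]
  rw [← ofReal_sq_rpow_half hr]
  refine ENNReal.rpow_le_rpow ?_ (by norm_num)
  calc ∫⁻ ω, ENNReal.ofReal (‖pr ω - G ω‖ ^ 2) ∂π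
      ≤ ∫⁻ _, ENNReal.ofReal (r ^ 2) ∂π := by
        refine lintegral_mono_ae ?_
        filter_upwards [hb] with ω hω
        exact ENNReal.ofReal_le_ofReal (pow_le_pow_left₀ (norm_nonneg _) hω 2)
    _ = ENNReal.ofReal (r ^ 2) := by simp

lemma minkowski_step {π : Measure (EE d × EE d)} [IsProbabilityMeasure π]
    {F : EE d × EE d → ℝ} (hF0 : ∀ ω, 0 ≤ F ω) {r : ℝ} (hr : 0 ≤ r)
    (hb : ∀ᵐ ω ∂π, F ω ≤ ‖ω.1 - ω.2‖ + r) :
    (∫⁻ ω, ENNReal.ofReal (F ω ^ 2) ∂π) ^ (1 / 2 : ℝ)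
      ≤ (∫⁻ q, ENNReal.ofReal (‖q.1 - q.2‖ ^ 2) ∂π) ^ (1 / 2 : ℝ) + ENNReal.ofReal r := by
  have h1 := ENNReal.lintegral_Lp_add_le (μ := π) (p := 2)
    (f := fun q : EE d × EE d => ENNReal.ofReal ‖q.1 - q.2‖) (g := fun _ => ENNReal.ofReal r)
    (by fun_prop) (by fun_prop) (by norm_num)
  have e1 : ∀ x : ℝ, 0 ≤ x → ENNReal.ofReal x ^ (2 : ℝ) = ENNReal.ofReal (x ^ 2) := by
    intro x hx
    rw [ENNReal.ofReal_rpow_of_nonneg hx (by norm_num)]
    norm_num
  simp only [Pi.add_apply] at h1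
  have e2 : (∫⁻ _ : EE d × EE d, ENNReal.ofReal r ^ (2 : ℝ) ∂π) ^ (1 / 2 : ℝ) = ENNReal.ofReal r := by
    rw [e1 r hr, lintegral_const, measure_univ, mul_one, ofReal_sq_rpow_half hr]
  rw [e2] at h1
  have e3 : ∀ q : EE d × EE d, ENNReal.ofReal ‖q.1 - q.2‖ ^ (2 : ℝ)
      = ENNReal.ofReal (‖q.1 - q.2‖ ^ 2) := fun q => e1 _ (norm_nonneg _)
  simp only [e3] at h1
  refine le_trans ?_ h1
  refine ENNReal.rpow_le_rpow ?_ (by norm_num)
  refine lintegral_mono_ae ?_
  filter_upwards [hb] with ω hω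
  rw [← ENNReal.ofReal_add (norm_nonneg _) hr, e1 _ (by positivity)]
  exact ENNReal.ofReal_le_ofReal (pow_le_pow_left₀ (hF0 ω) hω 2)

/-- Discretisation of a coupling. Cover `Y` by finitely many balls of radius `η/4` with centres
`c_1, …, c_k ∈ Y`, `a y` = first index with `y ∈ ball (c_a) (η/4)`, `Q (y,z) = (a y, a z)`,
`ι` = indices of positive `π`-mass, `m i = π (Q = i)`, `y i = c_{i.1} + ε (idx i) e`,
`z i = c_{i.2} + ε (idx i) e` with `e` a unit vector, `idx` an injection into `ℕ`, and `ε > 0`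
small, outside the finite set of bad values for which some node map fails to be injective
(for each `k ≤ n`, `i ≠ j` at most one `ε` is bad). Couplings: `π.map (ω ↦ (ω.1, y (Q ω)))`. -/
theorem exists_discretization (hd : 0 < d) {Y : Set (EE d)} (hY : IsCompact Y) {R₀ : ℝ}
    (hYR : ∀ y ∈ Y, ‖y‖ ≤ R₀) {μ ν : Measure (EE d)} [IsProbabilityMeasure μ]
    [IsProbabilityMeasure ν] (hμY : μ Y = 1) (hνY : ν Y = 1)
    {π : Measure (EE d × EE d)} (hπ : IsCoupling μ ν π) {η : ℝ} (hη : 0 < η) (hη1 : η ≤ 1)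
    {n : ℕ} (hn : 0 < n) :
    ∃ (ι : Type) (_ : Fintype ι) (_ : Nonempty ι) (m : ι → ℝ) (y z : ι → EE d),
      (∀ i, 0 < m i) ∧ ∑ i, m i = 1 ∧ (∀ i, ‖y i‖ ≤ R₀ + 1) ∧ (∀ i, ‖z i‖ ≤ R₀ + 1) ∧
      (∀ k ≤ n, Function.Injective fun i => z i + ((k : ℝ) / n) • (y i - z i)) ∧
      W2 μ (∑ i, ENNReal.ofReal (m i) • Measure.dirac (y i)) ≤ ENNReal.ofReal η ∧
      W2 ν (∑ i, ENNReal.ofReal (m i) • Measure.dirac (z i)) ≤ ENNReal.ofReal η ∧
      ENNReal.ofReal (Real.sqrt (∑ i, m i * ‖y i - z i‖ ^ 2))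
        ≤ (∫⁻ q, ENNReal.ofReal (‖q.1 - q.2‖ ^ 2) ∂π) ^ (1 / 2 : ℝ) + ENNReal.ofReal η := by
  classical
  have : IsProbabilityMeasure π := by
    constructor
    have : (π.map Prod.fst) Set.univ = 1 := by rw [hπ.1]; exact measure_univ
    rwa [Measure.map_apply measurable_fst MeasurableSet.univ, Set.preimage_univ] at this
  obtain ⟨y0, hy0⟩ : Y.Nonempty := by
    by_contra h
    rw [Set.not_nonempty_iff_eq_empty] at h
    rw [h] at hμY
    simp at hμY
  obtain ⟨t, htY, htfin, hcov⟩ :=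
    finite_cover_balls_of_compact hY (e := η / 4) (by positivity)
  obtain ⟨f, hf, hfT, hfd⟩ := exists_meas_sel y0 (η / 4) htfin.toFinset
  set T : Finset (EE d) := insert y0 htfin.toFinset with hT
  have hTY : ∀ x ∈ T, x ∈ Y := by
    intro x hx
    rcases Finset.mem_insert.1 hx with rfl | h
    · exact hy0
    · exact htY (htfin.mem_toFinset.1 h)
  have hfY : ∀ x ∈ Y, dist x (f x) < η / 4 := by
    intro x hx
    apply hfd
    have := hcov hx
    simp only [Set.mem_iUnion, exists_prop] at this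
    obtain ⟨c, hc, hxc⟩ := this
    exact ⟨c, htfin.mem_toFinset.2 hc, hxc⟩
  have hae1 : ∀ᵐ ω ∂π, ω.1 ∈ Y := by
    have h0 : ∀ᵐ x ∂(π.map Prod.fst), x ∈ Y := by
      rw [hπ.1]
      exact (prob_compl_eq_zero_iff hY.measurableSet).2 hμY
    exact ae_of_ae_map measurable_fst.aemeasurable h0
  have hae2 : ∀ᵐ ω ∂π, ω.2 ∈ Y := by
    have h0 : ∀ᵐ x ∂(π.map Prod.snd), x ∈ Y := by
      rw [hπ.2]
      exact (prob_compl_eq_zero_iff hY.measurableSet).2 hνY
    exact ae_of_ae_map measurable_snd.aemeasurable h0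
  let J := {x // x ∈ T} × {x // x ∈ T}
  let a : EE d → {x // x ∈ T} := fun x => ⟨f x, hfT x⟩
  have ha : Measurable a := hf.subtype_mk
  let Q : EE d × EE d → J := fun ω => (a ω.1, a ω.2)
  have hQ : Measurable Q := (ha.comp measurable_fst).prodMk (ha.comp measurable_snd)
  let P : Measure J := π.map Q
  have : IsProbabilityMeasure P := Measure.isProbabilityMeasure_map hQ.aemeasurable
  let e : EE d := EuclideanSpace.single ⟨0, hd⟩ 1
  have he : ‖e‖ = 1 := by simp [e]
  let idx : J → ℕ := fun j => (Fintype.equivFin J j : ℕ)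
  have hidx : Function.Injective idx :=
    fun i j h => (Fintype.equivFin J).injective (Fin.ext h)
  let M : ℕ := Fintype.card J
  have hidxM : ∀ j, idx j < M := fun j => (Fintype.equivFin J j).2
  have hM : 0 < M := lt_of_le_of_lt (Nat.zero_le _) (hidxM (a y0, a y0))
  have hMR : (0 : ℝ) < M := by exact_mod_cast hM
  obtain ⟨ε, hε0, hεδ, hgen⟩ := exists_generic_eps idx hidx
    (fun k j => ⟪(j.2 : EE d) + ((k : ℝ) / n) • ((j.1 : EE d) - j.2), e⟫) n
    (δ := η / (4 * M)) (by positivity)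
  have hεidx : ∀ j, ε * idx j ≤ η / 4 := by
    intro j
    have h1 : (idx j : ℝ) ≤ M := by exact_mod_cast (hidxM j).le
    have h2 : ε * M ≤ η / 4 := by
      have := hεδ.le
      rw [le_div_iff₀ (by positivity)] at this
      linarith
    nlinarith
  have hεidx0 : ∀ j, 0 ≤ ε * idx j := fun j => by positivity
  have hnorme : ∀ j, ‖(ε * idx j) • e‖ ≤ η / 4 := by
    intro j
    rw [norm_smul, he, mul_one, Real.norm_eq_abs, abs_of_nonneg (hεidx0 j)]
    exact hεidx j
  let yy : J → EE d := fun j => (j.1 : EE d) + (ε * idx j) • e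
  let zz : J → EE d := fun j => (j.2 : EE d) + (ε * idx j) • e
  let S : Finset J := Finset.univ.filter fun j => 0 < P {j}
  have hconv : ∀ (β : Type) [AddCommMonoid β] (G : J → β), (∀ j, P {j} = 0 → G j = 0) →
      ∑ i : S, G i.1 = ∑ j, G j := by
    intro β _ G hG
    rw [Finset.sum_coe_sort S G]
    apply Finset.sum_subset (Finset.subset_univ _)
    intro j _ hj
    apply hG
    simpa [S] using hj
  have hsum : ∑ i : S, (P {i.1}).toReal = 1 := by
    rw [hconv ℝ (fun j => (P {j}).toReal) (fun j hj => by simp [hj])]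
    rw [← ENNReal.toReal_sum (fun j _ => measure_ne_top P _), sum_measure_singleton]
    simp
  have hmeas : ∀ g : J → EE d, ∑ i : S, ENNReal.ofReal ((P {i.1}).toReal) • Measure.dirac (g i.1)
      = π.map (fun ω => g (Q ω)) := by
    intro g
    rw [hconv (Measure (EE d)) (fun j => ENNReal.ofReal ((P {j}).toReal) • Measure.dirac (g j))
      (fun j hj => by simp [hj])]
    have h1 : π.map (fun ω => g (Q ω)) = P.map g :=
      (Measure.map_map (measurable_of_finite g) hQ).symm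
    rw [h1, map_eq_sum_dirac]
    refine Finset.sum_congr rfl fun j _ => ?_
    rw [ENNReal.ofReal_toReal (measure_ne_top P _)]
  have hηle : ENNReal.ofReal (η / 2) ≤ ENNReal.ofReal η :=
    ENNReal.ofReal_le_ofReal (by linarith)
  have hne : Nonempty S := by
    by_contra h
    rw [not_nonempty_iff] at h
    simp at hsum
  refine ⟨S, inferInstance, hne, fun i => (P {i.1}).toReal, fun i => yy i.1, fun i => zz i.1,
    ?_, hsum, ?_, ?_, ?_, ?_, ?_, ?_⟩
  · intro i
    have := (Finset.mem_filter.1 i.2).2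
    exact ENNReal.toReal_pos this.ne' (measure_ne_top P _)
  · intro i
    calc ‖yy i.1‖ ≤ ‖(i.1.1 : EE d)‖ + ‖(ε * idx i.1) • e‖ := norm_add_le _ _
      _ ≤ R₀ + 1 := by
        have h1 := hYR _ (hTY _ i.1.1.2)
        have h2 := hnorme i.1
        linarith
  · intro i
    calc ‖zz i.1‖ ≤ ‖(i.1.2 : EE d)‖ + ‖(ε * idx i.1) • e‖ := norm_add_le _ _
      _ ≤ R₀ + 1 := by
        have h1 := hYR _ (hTY _ i.1.2.2)
        have h2 := hnorme i.1
        linarith
  · intro k hk i j hij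
    by_contra hne'
    have hne2 : i.1 ≠ j.1 := fun h => hne' (Subtype.ext h)
    apply hgen k hk i.1 j.1 hne2
    have key : ∀ j : J, ⟪zz j + ((k : ℝ) / n) • (yy j - zz j), e⟫
        = ⟪(j.2 : EE d) + ((k : ℝ) / n) • ((j.1 : EE d) - j.2), e⟫ + ε * idx j := by
      intro j
      have h1 : zz j + ((k : ℝ) / n) • (yy j - zz j)
          = ((j.2 : EE d) + ((k : ℝ) / n) • ((j.1 : EE d) - j.2)) + (ε * idx j) • e := by
        simp only [yy, zz]
        module
      rw [h1, inner_add_left, real_inner_smul_left, real_inner_self_eq_norm_sq, he]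
      ring
    simp only at hij
    rw [← key, ← key, hij]
  · rw [hmeas yy]
    refine le_trans (W2_le_of_map measurable_fst hπ.1
      ((measurable_of_finite yy).comp hQ) (r := η / 2) (by positivity) ?_) hηle
    filter_upwards [hae1] with ω hω
    have h1 := hfY _ hω
    rw [dist_eq_norm] at h1
    have h2 := hnorme (Q ω)
    calc ‖ω.1 - yy (Q ω)‖ = ‖(ω.1 - f ω.1) - (ε * idx (Q ω)) • e‖ := by
          simp only [yy, Q, a]
          congr 1
          abel
      _ ≤ ‖ω.1 - f ω.1‖ + ‖(ε * idx (Q ω)) • e‖ := norm_sub_le _ _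
      _ ≤ η / 2 := by linarith
  · rw [hmeas zz]
    refine le_trans (W2_le_of_map measurable_snd hπ.2
      ((measurable_of_finite zz).comp hQ) (r := η / 2) (by positivity) ?_) hηle
    filter_upwards [hae2] with ω hω
    have h1 := hfY _ hω
    rw [dist_eq_norm] at h1
    have h2 := hnorme (Q ω)
    calc ‖ω.2 - zz (Q ω)‖ = ‖(ω.2 - f ω.2) - (ε * idx (Q ω)) • e‖ := by
          simp only [zz, Q, a]
          congr 1
          abel
      _ ≤ ‖ω.2 - f ω.2‖ + ‖(ε * idx (Q ω)) • e‖ := norm_sub_le _ _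
      _ ≤ η / 2 := by linarith
  · have hdiff : ∀ j : J, yy j - zz j = (j.1 : EE d) - j.2 := by
      intro j
      simp only [yy, zz]
      abel
    simp only [hdiff]
    rw [hconv ℝ (fun j => (P {j}).toReal * ‖(j.1 : EE d) - j.2‖ ^ 2) (fun j hj => by simp [hj])]
    have hnn : 0 ≤ ∑ j : J, (P {j}).toReal * ‖(j.1 : EE d) - j.2‖ ^ 2 :=
      Finset.sum_nonneg fun j _ => by positivity
    rw [Real.sqrt_eq_rpow, ← ENNReal.ofReal_rpow_of_nonneg hnn (by norm_num)]
    have h1 : ENNReal.ofReal (∑ j : J, (P {j}).toReal * ‖(j.1 : EE d) - j.2‖ ^ 2)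
        = ∫⁻ ω, ENNReal.ofReal (‖f ω.1 - f ω.2‖ ^ 2) ∂π := by
      rw [ENNReal.ofReal_sum_of_nonneg (fun j _ => by positivity)]
      have h2 : ∫⁻ ω, ENNReal.ofReal (‖f ω.1 - f ω.2‖ ^ 2) ∂π
          = ∫⁻ j, ENNReal.ofReal (‖(j.1 : EE d) - j.2‖ ^ 2) ∂P :=
        (lintegral_map (f := fun j : J => ENNReal.ofReal (‖(j.1 : EE d) - j.2‖ ^ 2))
          (measurable_of_finite _) hQ).symm
      rw [h2, lintegral_fintype]
      refine Finset.sum_congr rfl fun j _ => ?_
      rw [ENNReal.ofReal_mul ENNReal.toReal_nonneg, ENNReal.ofReal_toReal (measure_ne_top P _),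
        mul_comm]
    rw [h1]
    refine le_trans (minkowski_step (F := fun ω => ‖f ω.1 - f ω.2‖) (fun ω => norm_nonneg _)
      (r := η / 2) (by positivity) ?_) (add_le_add le_rfl hηle)
    filter_upwards [hae1, hae2] with ω hω1 hω2
    have h1 := hfY _ hω1
    have h2 := hfY _ hω2
    rw [dist_eq_norm] at h1 h2
    calc ‖f ω.1 - f ω.2‖ = ‖(ω.1 - ω.2) - (ω.1 - f ω.1) + (ω.2 - f ω.2)‖ := by
          congr 1
          abel
      _ ≤ ‖(ω.1 - ω.2) - (ω.1 - f ω.1)‖ + ‖ω.2 - f ω.2‖ := norm_add_le _ _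
      _ ≤ ‖ω.1 - ω.2‖ + ‖ω.1 - f ω.1‖ + ‖ω.2 - f ω.2‖ := by
          gcongr
          exact norm_sub_le _ _
      _ ≤ ‖ω.1 - ω.2‖ + η / 2 := by linarith

end Vale.Agent.P074
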