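import Vale.Agent.P074.Third.Duality

open MeasureTheory
open scoped ENNReal NNReal RealInnerProductSpace

namespace Vale.Agent.P074

variable {d : ℕ} {ι : Type} [Fintype ι]

/-- Measurable selection of a site realising the maximum in `pot`. -/
lemma exists_measurable_argmax [Nonempty ι] (p : ι → EE d) (w : ι → ℝ) :
    ∃ T : EE d → EE d, Measurable T ∧
      ∀ x, ∃ i, T x = p i ∧ ∀ j, ⟪x, p j⟫ - w j ≤ ⟪x, p i⟫ - w i := by
  classical
  let n := Fintype.card ι
  let e : ι ≃ Fin n := Fintype.equivFin ι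
  let P : EE d → ℕ → Prop := fun x k =>
    ∃ h : k < n, ∀ j, ⟪x, p j⟫ - w j ≤ ⟪x, p (e.symm ⟨k, h⟩)⟫ - w (e.symm ⟨k, h⟩)
  have hP : ∀ x, ∃ k, P x k := by
    intro x
    obtain ⟨i, -, hi⟩ := Finset.exists_max_image Finset.univ (fun i => ⟪x, p i⟫ - w i)
      Finset.univ_nonempty
    refine ⟨(e i : ℕ), (e i).2, fun j => ?_⟩
    simpa using hi j (Finset.mem_univ j)
  have hm : ∀ k, MeasurableSet {x | P x k} := by
    intro k
    by_cases h : k < n
    · have : {x | P x k} = ⋂ j, {x | ⟪x, p j⟫ - w j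
          ≤ ⟪x, p (e.symm ⟨k, h⟩)⟫ - w (e.symm ⟨k, h⟩)} := by
        ext x
        simp [P, h]
      rw [this]
      refine MeasurableSet.iInter fun j => ?_
      refine (isClosed_le ?_ ?_).measurableSet <;> fun_prop
    · have : {x | P x k} = ∅ := by
        ext x
        simp [P, h]
      rw [this]
      exact MeasurableSet.empty
  let g : ℕ → EE d := fun k => if h : k < n then p (e.symm ⟨k, h⟩) else 0
  refine ⟨fun x => g (Nat.find (hP x)),
    (measurable_from_nat (f := g)).comp (measurable_find hP hm), fun x => ?_⟩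
  obtain ⟨h, hx⟩ := Nat.find_spec (hP x)
  exact ⟨e.symm ⟨_, h⟩, by simp [g, h], hx⟩

/-- From optimal weights to an optimal map with a dual pair (in the sense of `DualPair`).
`T x` = site of a cell containing `x` (measurable selection: first index, in some enumeration of
`ι`, which realises the maximum), `ψ = supAff K (pot p w)`, `φ = supAff Y ψ` as in
`exists_dualPair_of_rockafellar`. -/
theorem dualPair_of_isOpt [Nonempty ι] {K Y : Set (EE d)} (hK : IsCompact K)
    (hKi : (interior K).Nonempty) {r R : ℝ} (hKr : ∀ x ∈ K, ‖x‖ ≤ r) (hYR : ∀ y ∈ Y, ‖y‖ ≤ R)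
    {p : ι → EE d} (hp : Function.Injective p) (hpY : ∀ i, p i ∈ Y) {m : ι → ℝ} (hm : ∀ i, 0 < m i)
    {w : ι → ℝ} (hw : IsOpt K m p w) :
    ∃ (T : EE d → EE d) (φ ψ : EE d → ℝ), Measurable T ∧
      (∀ x, ∃ i, T x = p i ∧ ∀ j, ⟪x, p j⟫ - w j ≤ ⟪x, p i⟫ - w i) ∧
      (∀ i, ∀ᵐ x ∂(unif K), x ∈ cell K p w i → T x = p i) ∧
      DualPair (unif K) Y T r R φ ψ ∧ (∀ x ∈ K, φ x = pot p w x) ∧ (∀ i, ψ (p i) = w i) ∧
      (unif K).map T = ∑ i, ENNReal.ofReal (m i) • Measure.dirac (p i) := by
  classical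
  have hprob := unif_isProbabilityMeasure hK hKi
  have hKae := ae_mem_unif (d := d) hK.measurableSet
  obtain ⟨T, hTm, hT⟩ := exists_measurable_argmax p w
  obtain ⟨x₀, hx₀i⟩ := hKi
  have hx₀ : x₀ ∈ K := interior_subset hx₀i
  have hKne : K.Nonempty := ⟨x₀, hx₀⟩
  obtain ⟨i₀⟩ := ‹Nonempty ι›
  have hYne : Y.Nonempty := ⟨p i₀, hpY i₀⟩
  have hr : 0 ≤ r := (norm_nonneg _).trans (hKr x₀ hx₀)
  have hR : 0 ≤ R := (norm_nonneg _).trans (hYR _ (hpY i₀))
  have hinner : ∀ x ∈ K, ∀ y ∈ Y, |⟪x, y⟫| ≤ r * R := fun x hx y hy =>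
    (abs_real_inner_le_norm _ _).trans (mul_le_mul (hKr x hx) (hYR y hy) (norm_nonneg _) hr)
  -- the cells are nonempty
  have hcell_ne : ∀ i, (cell K p w i).Nonempty := by
    intro i
    by_contra h
    rw [Set.not_nonempty_iff_eq_empty] at h
    have h1 := hw i
    rw [h] at h1
    simp only [measureReal_empty] at h1
    exact absurd (hm i) (by rw [← h1]; exact lt_irrefl 0)
  -- `pot` is bounded below on `K`
  have hpot_low : ∀ x ∈ K, -(r * R) - w i₀ ≤ pot p w x := by
    intro x hx
    have h1 := le_pot p w x i₀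
    have h2 := abs_le.1 (hinner x hx _ (hpY i₀))
    linarith [h2.1]
  set ψ : EE d → ℝ := supAff K (pot p w) with hψ
  have hψ_low : ∀ y ∈ Y, -(r * R) - pot p w x₀ ≤ ψ y := by
    intro y hy
    have h1 : ⟪y, x₀⟫ - pot p w x₀ ≤ ψ y := le_supAff hKr hpot_low y hx₀
    have h2 := abs_le.1 (hinner x₀ hx₀ y hy)
    rw [real_inner_comm] at h2
    linarith [h2.1]
  set φ : EE d → ℝ := supAff Y ψ with hφ
  have hψp : ∀ i, ψ (p i) = w i := by
    intro i
    apply le_antisymm
    · apply supAff_le hKne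
      intro x _
      have := le_pot p w x i
      rw [real_inner_comm]
      linarith
    · obtain ⟨x, hx⟩ := hcell_ne i
      have h1 : ⟪p i, x⟫ - pot p w x ≤ ψ (p i) := le_supAff hKr hpot_low (p i) hx.1
      rw [pot_eq_of_mem_cell hx, real_inner_comm] at h1
      linarith
  have hφK : ∀ x ∈ K, φ x = pot p w x := by
    intro x hx
    apply le_antisymm
    · apply supAff_le hYne
      intro y _
      have h1 : ⟪y, x⟫ - pot p w x ≤ ψ y := le_supAff hKr hpot_low y hx
      rw [real_inner_comm] at h1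
      linarith
    · apply pot_le
      intro i
      have h1 : ⟪x, p i⟫ - ψ (p i) ≤ φ x := le_supAff hYR hψ_low x (hpY i)
      rw [hψp i] at h1
      exact h1
  have hTcell : ∀ i, ∀ᵐ x ∂(unif K), x ∈ cell K p w i → T x = p i := by
    intro i
    have hnull : ∀ j, j ≠ i → ∀ᵐ x ∂(unif K), x ∉ cell K p w i ∩ cell K p w j := by
      intro j hj
      rw [← measure_eq_zero_iff_ae_notMem]
      exact unif_cell_inter_null hp w (Ne.symm hj)
    have hall : ∀ᵐ x ∂(unif K), ∀ j, j ≠ i → x ∉ cell K p w i ∩ cell K p w j := by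
      rw [ae_all_iff]
      intro j
      by_cases hj : j = i
      · exact Filter.Eventually.of_forall fun x h => absurd hj h
      · filter_upwards [hnull j hj] with x hx _ using hx
    filter_upwards [hall] with x hx hxi
    obtain ⟨j, hj, hjmax⟩ := hT x
    by_cases hji : j = i
    · rw [hj, hji]
    · exact absurd ⟨hxi, hxi.1, hjmax⟩ (hx j hji)
  refine ⟨T, φ, ψ, hTm, hT, hTcell, ⟨?_, ?_, ?_, ?_, ?_⟩, hφK, hψp, ?_⟩
  · intro z y hy
    have := le_supAff hYR hψ_low z hy
    change ⟪z, y⟫ - ψ y ≤ φ z at this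
    linarith
  · filter_upwards [hKae] with x hx
    obtain ⟨i, hi, himax⟩ := hT x
    have hxc : x ∈ cell K p w i := ⟨hx, himax⟩
    rw [hi, hψp i, hφK x hx, pot_eq_of_mem_cell hxc]
    ring
  · exact supAff_lip hYne hYR hψ_low
  · exact supAff_lip hKne hKr hpot_low
  · exact supAff_conv hYne hYR hψ_low
  · -- the push-forward
    ext B hB
    rw [Measure.map_apply hTm hB]
    have hTB : MeasurableSet (T ⁻¹' B) := hTm hB
    set f : EE d → ℝ := (T ⁻¹' B).indicator (fun _ => (1 : ℝ)) with hf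
    have hfi : Integrable f (unif K) := (integrable_const (1 : ℝ)).indicator hTB
    have h1 : ∫ x, f x ∂(unif K) = (unif K).real (T ⁻¹' B) := by
      rw [hf, integral_indicator hTB, setIntegral_const, smul_eq_mul, mul_one]
    have h2 : ∀ i, ∫ x in cell K p w i, f x ∂(unif K) = B.indicator (fun _ => (1 : ℝ)) (p i) * m i := by
      intro i
      have hmeas := measurableSet_cell hK.isClosed p w i
      have : ∫ x in cell K p w i, f x ∂(unif K)
          = ∫ x in cell K p w i, B.indicator (fun _ => (1 : ℝ)) (p i) ∂(unif K) := by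
        refine setIntegral_congr_ae hmeas ?_
        filter_upwards [hTcell i] with x hx hxi
        have hTx := hx hxi
        by_cases hpB : p i ∈ B
        · have : x ∈ T ⁻¹' B := by rw [Set.mem_preimage, hTx]; exact hpB
          rw [hf, Set.indicator_of_mem this, Set.indicator_of_mem hpB]
        · have : x ∉ T ⁻¹' B := by rw [Set.mem_preimage, hTx]; exact hpB
          rw [hf, Set.indicator_of_notMem this, Set.indicator_of_notMem hpB]
      rw [this, setIntegral_const, hw i, smul_eq_mul, mul_comm]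
    have h3 := integral_eq_sum_cells hK hp w hfi
    rw [h1] at h3
    simp_rw [h2] at h3
    rw [← ofReal_measureReal, h3, ENNReal.ofReal_sum_of_nonneg]
    · rw [Measure.finsetSum_apply]
      refine Finset.sum_congr rfl fun i _ => ?_
      rw [Measure.smul_apply, Measure.dirac_apply' _ hB, smul_eq_mul, mul_comm]
      by_cases hpB : p i ∈ B
      · simp [Set.indicator_of_mem hpB]
      · simp [Set.indicator_of_notMem hpB]
    · intro i _
      exact mul_nonneg (Set.indicator_nonneg (fun _ _ => zero_le_one) _) (hm i).le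

end Vale.Agent.P074
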