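import Vale.Agent.P074.Third.Fisher
import Vale.Agent.P074.Third.DualOpt

open MeasureTheory
open scoped ENNReal NNReal RealInnerProductSpace

namespace Vale.Agent.P074

variable {d : ℕ}

section EtermAux

variable {ι : Type} [Fintype ι]

lemma eterm_gw_pos (lam : ℝ) (x : EE d) : 0 < gw lam x := Real.exp_pos _

lemma eterm_gw_le_one {lam : ℝ} (hlam : 0 ≤ lam) (x : EE d) : gw lam x ≤ 1 := by
  unfold gw
  rw [Real.exp_le_one_iff]
  have : 0 ≤ lam * ‖x‖ ^ 2 / 2 := by positivity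
  linarith

lemma eterm_gw_ge {r : ℝ} (hr : 0 < r) {x : EE d} (hx : ‖x‖ ≤ r) :
    15 / 16 ≤ gw (1 / (8 * r ^ 2)) x := by
  unfold gw
  have h1 : 1 / (8 * r ^ 2) * ‖x‖ ^ 2 / 2 ≤ 1 / 16 := by
    have h2 : ‖x‖ ^ 2 ≤ r ^ 2 := by gcongr
    rw [div_mul_eq_mul_div, one_mul, div_div, div_le_div_iff₀ (by positivity) (by norm_num)]
    nlinarith
  have h3 := Real.add_one_le_exp (-(1 / (8 * r ^ 2) * ‖x‖ ^ 2 / 2))
  linarith

lemma eterm_continuous_gw (lam : ℝ) : Continuous (gw lam : EE d → ℝ) := by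
  unfold gw
  fun_prop

lemma eterm_integrable {K : Set (EE d)} (hK : IsCompact K) (hKi : (interior K).Nonempty)
    {f : EE d → ℝ} (hf : Measurable f) {B : ℝ} (hB : ∀ x ∈ K, |f x| ≤ B) :
    Integrable f (unif K) := by
  have := unif_isProbabilityMeasure hK hKi
  refine Integrable.of_bound hf.aestronglyMeasurable B ?_
  filter_upwards [ae_mem_unif (d := d) hK.measurableSet] with x hx
  rw [Real.norm_eq_abs]
  exact hB x hx

lemma eterm_gmass_le {K : Set (EE d)} (hK : IsCompact K) (hKi : (interior K).Nonempty)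
    {lam : ℝ} (hlam : 0 ≤ lam) {p : ι → EE d} {m w : ι → ℝ} (hw : IsOpt K m p w) (i : ι) :
    gmass K lam p w i ≤ m i := by
  have := unif_isProbabilityMeasure hK hKi
  have hint : Integrable (gw lam : EE d → ℝ) (unif K) :=
    eterm_integrable hK hKi (eterm_continuous_gw lam).measurable (B := 1) fun x _ => by
      rw [abs_of_pos (eterm_gw_pos lam x)]
      exact eterm_gw_le_one hlam x
  calc gmass K lam p w i ≤ ∫ _x in cell K p w i, (1 : ℝ) ∂(unif K) :=
        setIntegral_mono_on hint.integrableOn (integrable_const _).integrableOn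
          (measurableSet_cell hK.isClosed p w i) fun x _ => eterm_gw_le_one hlam x
    _ = m i := by
        rw [setIntegral_const, smul_eq_mul, mul_one]
        exact hw i

lemma eterm_gmass_ge {K : Set (EE d)} (hK : IsCompact K) (hKi : (interior K).Nonempty)
    {r : ℝ} (hr : 0 < r) (hKr : ∀ x ∈ K, ‖x‖ ≤ r) {p : ι → EE d} {m w : ι → ℝ}
    (hw : IsOpt K m p w) (i : ι) :
    15 / 16 * m i ≤ gmass K (1 / (8 * r ^ 2)) p w i := by
  have := unif_isProbabilityMeasure hK hKi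
  have hlam : (0 : ℝ) ≤ 1 / (8 * r ^ 2) := by positivity
  have hint : Integrable (gw (1 / (8 * r ^ 2)) : EE d → ℝ) (unif K) :=
    eterm_integrable hK hKi (eterm_continuous_gw _).measurable (B := 1) fun x _ => by
      rw [abs_of_pos (eterm_gw_pos _ x)]
      exact eterm_gw_le_one hlam x
  calc 15 / 16 * m i = ∫ _x in cell K p w i, (15 / 16 : ℝ) ∂(unif K) := by
        rw [setIntegral_const, smul_eq_mul, mul_comm]
        congr 1
        exact (hw i).symm
    _ ≤ gmass K (1 / (8 * r ^ 2)) p w i :=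
        setIntegral_mono_on (integrable_const _).integrableOn hint.integrableOn
          (measurableSet_cell hK.isClosed p w i) fun x hx => eterm_gw_ge hr (hKr x hx.1)

/-- Decomposition over the cells of an integral involving the map of the cells. -/
lemma eterm_sum_cells [Nonempty ι] {K : Set (EE d)} (hK : IsCompact K) {p : ι → EE d}
    (hp : Function.Injective p) (w : ι → ℝ) {T : EE d → EE d}
    (hTc : ∀ i, ∀ᵐ x ∂(unif K), x ∈ cell K p w i → T x = p i) (F : EE d → EE d → ℝ)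
    (hint : Integrable (fun x => F x (T x)) (unif K)) :
    ∫ x, F x (T x) ∂(unif K) = ∑ i, ∫ x in cell K p w i, F x (p i) ∂(unif K) := by
  rw [integral_eq_sum_cells hK hp w hint]
  refine Finset.sum_congr rfl fun i _ => ?_
  refine setIntegral_congr_ae (measurableSet_cell hK.isClosed p w i) ?_
  filter_upwards [hTc i] with x hx hxc
  rw [hx hxc]


lemma eterm_gap_nonneg (p : ι → EE d) (w : ι → ℝ) (i : ι) (x : EE d) :
    0 ≤ pot p w x + w i - ⟪x, p i⟫ := by
  have := le_pot p w x i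
  linarith

lemma eterm_gap_le [Nonempty ι] {K : Set (EE d)} {p : ι → EE d} {w : ι → ℝ} {T : EE d → EE d}
    (hTs : ∀ x, ∃ i, T x = p i ∧ ∀ j, ⟪x, p j⟫ - w j ≤ ⟪x, p i⟫ - w i)
    {i : ι} {x : EE d} (hx : x ∈ cell K p w i) (x' : EE d) :
    pot p w x' + w i - ⟪x', p i⟫ ≤ ‖T x' - p i‖ * ‖x - x'‖ := by
  obtain ⟨j, hj, hjm⟩ := hTs x'
  have hpot : pot p w x' = ⟪x', p j⟫ - w j := le_antisymm (pot_le hjm) (le_pot p w x' j)
  have h1 := hx.2 j
  have h2 : pot p w x' + w i - ⟪x', p i⟫ ≤ ⟪x' - x, p j - p i⟫ := by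
    rw [hpot, inner_sub_left, inner_sub_right, inner_sub_right]
    linarith
  have h3 : ⟪x' - x, p j - p i⟫ ≤ ‖x' - x‖ * ‖p j - p i‖ := real_inner_le_norm _ _
  rw [hj, norm_sub_rev x x', mul_comm]
  exact h2.trans h3

lemma eterm_gap_bound [Nonempty ι] {K : Set (EE d)} {r R : ℝ} (hKr : ∀ x ∈ K, ‖x‖ ≤ r)
    {p : ι → EE d} (hpR : ∀ i, ‖p i‖ ≤ R) {m : ι → ℝ} (hm : ∀ i, 0 < m i) {w : ι → ℝ}
    (hw : IsOpt K m p w) (i : ι) {x : EE d} (hx : x ∈ K) :
    pot p w x + w i - ⟪x, p i⟫ ≤ 4 * r * R := by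
  obtain ⟨j, hj⟩ := exists_mem_cell p w hx
  rw [pot_eq_of_mem_cell hj]
  have h1 := (abs_le.1 (weights_osc hKr hpR hm hw i j)).2
  have h2 : ⟪x, p j - p i⟫ ≤ ‖x‖ * ‖p j - p i‖ := real_inner_le_norm _ _
  have h3 : ‖p j - p i‖ ≤ R + R := (norm_sub_le _ _).trans (add_le_add (hpR j) (hpR i))
  have h4 : ‖x‖ * ‖p j - p i‖ ≤ r * (R + R) :=
    mul_le_mul (hKr x hx) h3 (norm_nonneg _) ((norm_nonneg _).trans (hKr x hx))
  rw [inner_sub_right] at h2
  linarith


/-- real-number core of the cellwise lower bound -/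
lemma eterm_cell_real {M0 M1 m m' A B a b τ : ℝ} (hm : 0 < m) (hm1 : m / 2 ≤ m') (hm2 : m' ≤ 2 * m)
    (h0l : 15 / 16 * m ≤ M0) (h0u : M0 ≤ m) (h1l : 15 / 16 * m' ≤ M1) (h1u : M1 ≤ m')
    (hτ : 0 ≤ τ) (ha : 0 ≤ a) (hb : 0 ≤ b) (hA : 15 / 16 * a ≤ A) (hB : B ≤ b) :
    τ * a - 2 * τ ^ 2 * b ≤ Real.sqrt (M0 * M1) * (0 / M0 + (2 * τ * A - τ ^ 2 * B) / M1) := by
  have hM1 : 0 < M1 := by linarith
  have hM0 : 0 < M0 := by linarith
  set q := Real.sqrt (M0 * M1) / M1 with hq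
  have hql : 17 / 25 ≤ q := by
    rw [hq, le_div_iff₀ hM1]
    apply Real.le_sqrt_of_sq_le
    nlinarith
  have hqu : q ≤ 2 := by
    rw [hq, div_le_iff₀ hM1, Real.sqrt_le_left (by positivity)]
    nlinarith
  have e : Real.sqrt (M0 * M1) * (0 / M0 + (2 * τ * A - τ ^ 2 * B) / M1)
      = 2 * τ * (q * A) - τ ^ 2 * (q * B) := by
    rw [hq]
    field_simp
    ring
  rw [e]
  have hA0 : 0 ≤ A := by linarith
  have h1 : a / 2 ≤ q * A := by nlinarith
  have h2 : q * B ≤ 2 * b := by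
    rcases le_total 0 B with hB0 | hB0
    · nlinarith
    · have : q * B ≤ 0 := mul_nonpos_of_nonneg_of_nonpos (by linarith) hB0
      linarith
  have h3 : τ * a ≤ 2 * τ * (q * A) := by nlinarith
  have h4 : τ ^ 2 * (q * B) ≤ 2 * τ ^ 2 * b := by nlinarith [sq_nonneg τ]
  linarith


/-- Consequence of `hellinger_cells` and `hell_le_fisher` for the gap functions. -/
lemma eterm_key [Nonempty ι] {K : Set (EE d)} (hK : IsCompact K) (hKc : Convex ℝ K)
    (hKi : (interior K).Nonempty) {r R : ℝ} (hr : 0 < r) (hR : 0 < R) (hKr : ∀ x ∈ K, ‖x‖ ≤ r)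
    {p : ι → EE d} (hp : Function.Injective p) (hpR : ∀ i, ‖p i‖ ≤ R) {m m' w w' : ι → ℝ}
    (hm : ∀ i, 0 < m i) (hm1 : ∀ i, m i / 2 ≤ m' i) (hm2 : ∀ i, m' i ≤ 2 * m i)
    (hw : IsOpt K m p w) (hw' : IsOpt K m' p w') {T : EE d → EE d} (hTm : Measurable T)
    (hTs : ∀ x, ∃ i, T x = p i ∧ ∀ j, ⟪x, p j⟫ - w j ≤ ⟪x, p i⟫ - w i) {τ : ℝ} (hτ : 0 ≤ τ) :
    τ * (∑ i, ∫ x in cell K p w' i, (pot p w x + w i - ⟪x, p i⟫) ∂(unif K))
      ≤ 256 * r ^ 2 * ∑ i, (m' i - m i) ^ 2 / m i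
        + 2 * τ ^ 2 * ∑ i, ∫ x in cell K p w' i, ‖T x - p i‖ ^ 2 ∂(unif K) := by
  have hprob := unif_isProbabilityMeasure hK hKi
  have hlam : (0 : ℝ) ≤ 1 / (8 * r ^ 2) := by positivity
  set lam : ℝ := 1 / (8 * r ^ 2) with hlamdef
  have hm' : ∀ i, 0 < m' i := fun i => by linarith [hm i, hm1 i]
  set gap : ι → EE d → ℝ := fun i x => pot p w x + w i - ⟪x, p i⟫ with hgap
  set nn : ι → EE d → ℝ := fun i x => ‖T x - p i‖ ^ 2 with hnn
  set β : ι → EE d → ℝ := fun i x => 2 * τ * gap i x - τ ^ 2 * nn i x with hβ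
  have hgapm : ∀ i, Measurable (gap i) := fun i => by
    have := continuous_pot p w
    have hc : Continuous (gap i) := by
      rw [hgap]
      fun_prop
    exact hc.measurable
  have hnnm : ∀ i, Measurable (nn i) := fun i => (hTm.sub_const _).norm.pow_const 2
  have hgwm : Measurable (gw lam : EE d → ℝ) := (eterm_continuous_gw lam).measurable
  have hgap0 : ∀ i x, 0 ≤ gap i x := fun i x => eterm_gap_nonneg p w i x
  have hgapB : ∀ i, ∀ x ∈ K, |gap i x| ≤ 4 * r * R := fun i x hx => by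
    rw [abs_of_nonneg (hgap0 i x)]
    exact eterm_gap_bound hKr hpR hm hw i hx
  have hnn0 : ∀ i x, 0 ≤ nn i x := fun i x => by positivity
  have hnnB : ∀ i x, |nn i x| ≤ 4 * R ^ 2 := fun i x => by
    rw [abs_of_nonneg (hnn0 i x)]
    obtain ⟨j, hj, -⟩ := hTs x
    have h3 : ‖p j - p i‖ ≤ R + R := (norm_sub_le _ _).trans (add_le_add (hpR j) (hpR i))
    have h4 : ‖p j - p i‖ ^ 2 ≤ (R + R) ^ 2 := by gcongr
    simp only [hnn, hj]
    nlinarith
  have hgw1 : ∀ x : EE d, |gw lam x| ≤ 1 := fun x => by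
    rw [abs_of_pos (eterm_gw_pos lam x)]
    exact eterm_gw_le_one hlam x
  have i_gap : ∀ i, Integrable (gap i) (unif K) := fun i =>
    eterm_integrable hK hKi (hgapm i) (hgapB i)
  have i_nn : ∀ i, Integrable (nn i) (unif K) := fun i =>
    eterm_integrable hK hKi (hnnm i) fun x _ => hnnB i x
  have i_gapg : ∀ i, Integrable (fun x => gap i x * gw lam x) (unif K) := fun i =>
    eterm_integrable hK hKi ((hgapm i).mul hgwm) (B := 4 * r * R * 1) fun x hx => by
      rw [abs_mul]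
      exact mul_le_mul (hgapB i x hx) (hgw1 x) (abs_nonneg _) (by positivity)
  have i_nng : ∀ i, Integrable (fun x => nn i x * gw lam x) (unif K) := fun i =>
    eterm_integrable hK hKi ((hnnm i).mul hgwm) (B := 4 * R ^ 2 * 1) fun x _ => by
      rw [abs_mul]
      exact mul_le_mul (hnnB i x) (hgw1 x) (abs_nonneg _) (by positivity)
  have hβm : ∀ i, Measurable (β i) := fun i =>
    ((hgapm i).const_mul _).sub ((hnnm i).const_mul _)
  have hβB : ∀ i, ∀ x ∈ K, |β i x| ≤ 2 * τ * (4 * r * R) + τ ^ 2 * (4 * R ^ 2) := fun i x hx => by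
    have h1 := hgapB i x hx
    have h2 := hnnB i x
    calc |β i x| ≤ |2 * τ * gap i x| + |τ ^ 2 * nn i x| := abs_sub _ _
      _ = 2 * τ * |gap i x| + τ ^ 2 * |nn i x| := by
          rw [abs_mul (2 * τ), abs_mul (τ ^ 2), abs_of_nonneg (by positivity : 0 ≤ 2 * τ),
            abs_of_nonneg (by positivity : 0 ≤ τ ^ 2)]
      _ ≤ _ := by gcongr
  have hBnn : 0 ≤ 2 * τ * (4 * r * R) + τ ^ 2 * (4 * R ^ 2) := by positivity
  have hab : ∀ i, ∀ x ∈ cell K p w i, ∀ x' ∈ cell K p w' i,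
      (fun (_ : ι) (_ : EE d) => (0 : ℝ)) i x + β i x' ≤ ‖x - x'‖ ^ 2 := by
    intro i x hx x' _
    have h1 : gap i x' ≤ ‖T x' - p i‖ * ‖x - x'‖ := eterm_gap_le hTs hx x'
    have h2 : 2 * τ * gap i x' ≤ 2 * τ * (‖T x' - p i‖ * ‖x - x'‖) := by gcongr
    simp only [hβ, hnn, zero_add]
    nlinarith [sq_nonneg (τ * ‖T x' - p i‖ - ‖x - x'‖)]
  have g0l := fun i => eterm_gmass_ge hK hKi hr hKr hw i
  have g0u := fun i => eterm_gmass_le hK hKi hlam hw i
  have g1l := fun i => eterm_gmass_ge hK hKi hr hKr hw' i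
  have g1u := fun i => eterm_gmass_le hK hKi hlam hw' i
  have h0 : ∀ i, 0 < gmass K lam p w i := fun i => by linarith [g0l i, hm i]
  have h1 : ∀ i, 0 < gmass K lam p w' i := fun i => by linarith [g1l i, hm' i]
  have H := hellinger_cells hK hKc hKi hp hlam w w' (fun _ _ => 0) β (fun _ => measurable_const) hβm
    (B := 2 * τ * (4 * r * R) + τ ^ 2 * (4 * R ^ 2)) (fun i x _ => by simpa using hBnn) hβB hab h0 h1
  have F := hell_le_fisher hK hKc hKi hr hKr hp hm hm1 hm2 hw hw'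
  unfold hell at F
  have hcell : ∀ i, τ * (∫ x in cell K p w' i, gap i x ∂(unif K))
      - 2 * τ ^ 2 * (∫ x in cell K p w' i, nn i x ∂(unif K))
      ≤ Real.sqrt (gmass K lam p w i * gmass K lam p w' i) *
        ((∫ x in cell K p w i, (fun (_ : ι) (_ : EE d) => (0 : ℝ)) i x * gw lam x ∂(unif K))
            / gmass K lam p w i
          + (∫ x in cell K p w' i, β i x * gw lam x ∂(unif K)) / gmass K lam p w' i) := by
    intro i
    have hms := measurableSet_cell hK.isClosed p w' i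
    have e0 : (∫ x in cell K p w i, (fun (_ : ι) (_ : EE d) => (0 : ℝ)) i x * gw lam x ∂(unif K))
        = 0 := by simp
    have e1 : (∫ x in cell K p w' i, β i x * gw lam x ∂(unif K))
        = 2 * τ * (∫ x in cell K p w' i, gap i x * gw lam x ∂(unif K))
          - τ ^ 2 * (∫ x in cell K p w' i, nn i x * gw lam x ∂(unif K)) := by
      rw [← integral_const_mul, ← integral_const_mul, ← integral_sub
        ((i_gapg i).integrableOn.const_mul _) ((i_nng i).integrableOn.const_mul _)]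
      refine integral_congr_ae (Filter.Eventually.of_forall fun x => ?_)
      simp only [hβ]
      ring
    rw [e0, e1]
    refine eterm_cell_real (hm i) (hm1 i) (hm2 i) (g0l i) (g0u i) (g1l i) (g1u i) hτ
      (integral_nonneg fun x => hgap0 i x) (integral_nonneg fun x => hnn0 i x) ?_ ?_
    · rw [← integral_const_mul]
      refine setIntegral_mono_on ((i_gap i).integrableOn.const_mul _) (i_gapg i).integrableOn hms ?_
      intro x hx
      have := eterm_gw_ge hr (hKr x hx.1)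
      rw [mul_comm]
      exact mul_le_mul_of_nonneg_left this (hgap0 i x)
    · refine setIntegral_mono_on (i_nng i).integrableOn (i_nn i).integrableOn hms ?_
      intro x _
      have := eterm_gw_le_one hlam x
      calc nn i x * gw lam x ≤ nn i x * 1 := mul_le_mul_of_nonneg_left this (hnn0 i x)
        _ = nn i x := mul_one _
  have hsum := Finset.sum_le_sum fun i (_ : i ∈ Finset.univ) => hcell i
  rw [Finset.sum_sub_distrib, ← Finset.mul_sum, ← Finset.mul_sum] at hsum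
  have hl8 : lam / 8 = 1 / (64 * r ^ 2) := by
    rw [hlamdef]
    field_simp
    norm_num
  have h5 := (mul_le_mul_of_nonneg_left hsum (by positivity : 0 ≤ lam / 8)).trans (H.trans F)
  rw [hl8] at h5
  have hr2 : 0 < 64 * r ^ 2 := by positivity
  rw [div_mul_eq_mul_div, one_mul, div_le_iff₀ hr2] at h5
  linarith


/-- The integral of the gap of the pair `(φ, ψ)` of `w` along the map of `w'` is the excess. -/
lemma eterm_gap_integral [Nonempty ι] {K : Set (EE d)} (hK : IsCompact K)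
    (hKi : (interior K).Nonempty) {r R : ℝ} (hKr : ∀ x ∈ K, ‖x‖ ≤ r)
    {p : ι → EE d} (hp : Function.Injective p) (hpR : ∀ i, ‖p i‖ ≤ R) {m m' w w' : ι → ℝ}
    (hm : ∀ i, 0 < m i) (hw : IsOpt K m p w) (hw' : IsOpt K m' p w') {T' : EE d → EE d}
    (hTm' : Measurable T') (hTs' : ∀ x, ∃ i, T' x = p i)
    (hTc' : ∀ i, ∀ᵐ x ∂(unif K), x ∈ cell K p w' i → T' x = p i) {φ ψ : EE d → ℝ}
    (hφ : ∀ x ∈ K, φ x = pot p w x) (hψ : ∀ i, ψ (p i) = w i) (hψc : Continuous ψ) :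
    Integrable (fun x => φ x + ψ (T' x) - ⟪x, T' x⟫) (unif K) ∧
      ∫ x, (φ x + ψ (T' x) - ⟪x, T' x⟫) ∂(unif K) = JJ K m' p w - JJ K m' p w' := by
  have hae : (fun x => pot p w x + ψ (T' x) - ⟪x, T' x⟫) =ᵐ[unif K]
      fun x => φ x + ψ (T' x) - ⟪x, T' x⟫ := by
    filter_upwards [ae_mem_unif (d := d) hK.measurableSet] with x hx
    rw [hφ x hx]
  have hint : Integrable (fun x => pot p w x + ψ (T' x) - ⟪x, T' x⟫) (unif K) := by
    refine eterm_integrable hK hKi (B := 4 * r * R) ?_ ?_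
    · exact ((continuous_pot p w).measurable.add (hψc.measurable.comp hTm')).sub
        (measurable_id.inner hTm')
    · intro x hx
      obtain ⟨j, hj⟩ := hTs' x
      rw [hj, hψ j, abs_of_nonneg (eterm_gap_nonneg p w j x)]
      exact eterm_gap_bound hKr hpR hm hw j hx
  refine ⟨hint.congr hae, ?_⟩
  rw [← integral_congr_ae hae, excess_eq hK hKi hp hw' w,
    eterm_sum_cells hK hp w' hTc' (fun x y => pot p w x + ψ y - ⟪x, y⟫) hint]
  simp only [hψ]

/-- The sum of the two excesses is of first order. -/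
lemma eterm_GG_le [Nonempty ι] {K : Set (EE d)} {r R : ℝ} (hr : 0 < r) (hR : 0 < R)
    (hKr : ∀ x ∈ K, ‖x‖ ≤ r) {p : ι → EE d} (hpR : ∀ i, ‖p i‖ ≤ R) {m m' w w' : ι → ℝ}
    (hm : ∀ i, 0 < m i) (hm' : ∀ i, 0 < m' i) (hms : ∑ i, m i = 1) (hms' : ∑ i, m' i = 1)
    (hw : IsOpt K m p w) (hw' : IsOpt K m' p w') :
    (JJ K m' p w - JJ K m' p w') + (JJ K m p w' - JJ K m p w)
      ≤ 4 * r * R * Real.sqrt (∑ i, (m' i - m i) ^ 2 / m i) := by
  obtain ⟨i0⟩ := ‹Nonempty ι›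
  set c : ℝ := w i0 - w' i0 with hc
  have e1 : (JJ K m' p w - JJ K m' p w') + (JJ K m p w' - JJ K m p w)
      = ∑ i, (m' i - m i) * (w i - w' i - c) := by
    have e2 : ∑ i, (m' i - m i) * (w i - w' i - c)
        = ∑ i, m' i * w i - ∑ i, m' i * w' i + (∑ i, m i * w' i - ∑ i, m i * w i)
          - c * (∑ i, m' i - ∑ i, m i) := by
      rw [mul_sub, Finset.mul_sum, Finset.mul_sum]
      simp only [← Finset.sum_sub_distrib, ← Finset.sum_add_distrib]
      refine Finset.sum_congr rfl fun i _ => ?_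
      ring
    rw [e2, hms, hms']
    unfold JJ
    ring
  have h1 : ∀ i, (m' i - m i) * (w i - w' i - c) ≤ |m' i - m i| * (4 * r * R) := by
    intro i
    have a1 := weights_osc hKr hpR hm hw i i0
    have a2 := weights_osc hKr hpR hm' hw' i i0
    have a3 : |w i - w' i - c| ≤ 4 * r * R := by
      have : w i - w' i - c = (w i - w i0) - (w' i - w' i0) := by
        rw [hc]
        ring
      rw [this]
      exact (abs_sub _ _).trans (by linarith)
    calc (m' i - m i) * (w i - w' i - c) ≤ |(m' i - m i) * (w i - w' i - c)| := le_abs_self _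
      _ = |m' i - m i| * |w i - w' i - c| := abs_mul _ _
      _ ≤ _ := mul_le_mul_of_nonneg_left a3 (abs_nonneg _)
  have h2 : ∑ i, |m' i - m i| ≤ Real.sqrt (∑ i, (m' i - m i) ^ 2 / m i) := by
    apply Real.le_sqrt_of_sq_le
    have := Finset.sq_sum_div_le_sum_sq_div Finset.univ (fun i => |m' i - m i|)
      (g := m) fun i _ => hm i
    rw [hms, div_one] at this
    simpa only [sq_abs] using this
  rw [e1]
  calc ∑ i, (m' i - m i) * (w i - w' i - c) ≤ ∑ i, |m' i - m i| * (4 * r * R) :=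
        Finset.sum_le_sum fun i _ => h1 i
    _ = 4 * r * R * ∑ i, |m' i - m i| := by rw [← Finset.sum_mul, mul_comm]
    _ ≤ _ := mul_le_mul_of_nonneg_left h2 (by positivity)


/-- real-number core of the final optimisation -/
lemma eterm_final_real {E θ a b V : ℝ} (hθ : 0 ≤ θ) (_ha : 0 ≤ a) (_hb : 0 ≤ b)
    (hV : V ≤ b * Real.sqrt θ)
    (h : ∀ τ : ℝ, 0 ≤ τ → τ * E ≤ a * θ ^ 2 + 2 * τ ^ 2 * V) :
    E ≤ (a + 2 * b) * θ ^ (5 / 4 : ℝ) := by
  rcases hθ.eq_or_lt with rfl | hθ'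
  · have h1 := h 1 zero_le_one
    rw [Real.sqrt_zero, mul_zero] at hV
    rw [Real.zero_rpow (by norm_num), mul_zero]
    nlinarith
  · set τ : ℝ := θ ^ (3 / 4 : ℝ) with hτ
    have hτ0 : 0 < τ := Real.rpow_pos_of_pos hθ' _
    have h1 := h τ hτ0.le
    have e1 : θ ^ 2 = τ * θ ^ (5 / 4 : ℝ) := by
      rw [hτ, ← Real.rpow_add hθ', ← Real.rpow_natCast]
      norm_num
    have e2 : τ * Real.sqrt θ = θ ^ (5 / 4 : ℝ) := by
      rw [hτ, Real.sqrt_eq_rpow, ← Real.rpow_add hθ']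
      norm_num
    have h2 : 2 * τ ^ 2 * V ≤ 2 * τ ^ 2 * (b * Real.sqrt θ) :=
      mul_le_mul_of_nonneg_left hV (by positivity)
    have h3 : τ * E ≤ τ * ((a + 2 * b) * θ ^ (5 / 4 : ℝ)) := by
      calc τ * E ≤ a * θ ^ 2 + 2 * τ ^ 2 * (b * Real.sqrt θ) := by linarith
        _ = a * (τ * θ ^ (5 / 4 : ℝ)) + 2 * τ * b * (τ * Real.sqrt θ) := by
            rw [e1]
            ring
        _ = _ := by
            rw [e2]
            ring
    exact le_of_mul_le_mul_left h3 hτ0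

lemma eterm_aux [Nonempty ι] {K : Set (EE d)} (hK : IsCompact K) (hKc : Convex ℝ K)
    (hKi : (interior K).Nonempty) {r R : ℝ} (hr : 0 < r) (hR : 0 < R) (hKr : ∀ x ∈ K, ‖x‖ ≤ r)
    {p : ι → EE d} (hp : Function.Injective p) (hpR : ∀ i, ‖p i‖ ≤ R) {m m' w w' : ι → ℝ}
    (hm : ∀ i, 0 < m i) (hms : ∑ i, m i = 1) (hms' : ∑ i, m' i = 1)
    (hm1 : ∀ i, m i / 2 ≤ m' i) (hm2 : ∀ i, m' i ≤ 2 * m i)
    (hw : IsOpt K m p w) (hw' : IsOpt K m' p w') :
    JJ K m' p w - JJ K m' p w' ≤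
      (256 * r ^ 2 + 2 * (2 * R * (d * (2 * R * (volume (Metric.closedBall (0 : EE d) (r + 1))).toReal
        / (volume K).toReal) + d * (4 * r * R)))) *
        (Real.sqrt (∑ i, (m' i - m i) ^ 2 / m i)) ^ (5 / 4 : ℝ) := by
  have hprob := unif_isProbabilityMeasure hK hKi
  have hm' : ∀ i, 0 < m' i := fun i => by linarith [hm i, hm1 i]
  have hYR : ∀ y ∈ Metric.closedBall (0 : EE d) R, ‖y‖ ≤ R := fun y hy => by
    simpa using hy
  have hpY : ∀ i, p i ∈ Metric.closedBall (0 : EE d) R := fun i => by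
    simpa using hpR i
  obtain ⟨T, φ, ψ, hTm, hTs, hTc, hD, hφ, hψ, -⟩ :=
    dualPair_of_isOpt hK hKi hKr hYR hp hpY hm hw
  obtain ⟨T', φ', ψ', hTm', hTs', hTc', hD', hφ', hψ', -⟩ :=
    dualPair_of_isOpt hK hKi hKr hYR hp hpY hm' hw'
  have hTY : ∀ x, T x ∈ Metric.closedBall (0 : EE d) R := fun x => by
    obtain ⟨i, hi, -⟩ := hTs x
    rw [hi]
    exact hpY i
  have hTY' : ∀ x, T' x ∈ Metric.closedBall (0 : EE d) R := fun x => by
    obtain ⟨i, hi, -⟩ := hTs' x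
    rw [hi]
    exact hpY i
  set θ : ℝ := Real.sqrt (∑ i, (m' i - m i) ^ 2 / m i) with hθ
  have hS0 : 0 ≤ ∑ i, (m' i - m i) ^ 2 / m i :=
    Finset.sum_nonneg fun i _ => div_nonneg (sq_nonneg _) (hm i).le
  have hθ2 : θ ^ 2 = ∑ i, (m' i - m i) ^ 2 / m i := Real.sq_sqrt hS0
  set A : ℝ := d * (2 * R * (volume (Metric.closedBall (0 : EE d) (r + 1))).toReal
    / (volume K).toReal) with hA
  have hA0 : 0 ≤ A := by positivity
  obtain ⟨i1, e1⟩ := eterm_gap_integral hK hKi hKr hp hpR hm hw hw' hTm'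
    (fun x => (hTs' x).imp fun _ h => h.1) hTc' hφ hψ (continuous_of_lip hD.lipψ)
  obtain ⟨i2, e2⟩ := eterm_gap_integral hK hKi hKr hp hpR hm' hw' hw hTm
    (fun x => (hTs x).imp fun _ h => h.1) hTc hφ' hψ' (continuous_of_lip hD'.lipψ)
  have hbd : ∀ x, ‖T x - T' x‖ ≤ 2 * R := fun x => by
    have := (norm_sub_le (T x) (T' x)).trans (add_le_add (hYR _ (hTY x)) (hYR _ (hTY' x)))
    linarith
  have int_n : Integrable (fun x => ‖T x - T' x‖) (unif K) :=
    eterm_integrable hK hKi (hTm.sub hTm').norm (B := 2 * R) fun x _ => by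
      rw [abs_of_nonneg (norm_nonneg _)]
      exact hbd x
  have int_n2 : Integrable (fun x => ‖T x - T' x‖ ^ 2) (unif K) :=
    eterm_integrable hK hKi ((hTm.sub hTm').norm.pow_const 2) (B := (2 * R) ^ 2) fun x _ => by
      rw [abs_of_nonneg (by positivity)]
      have := hbd x
      gcongr
  set L : ℝ := ∫ x, ‖T x - T' x‖ ∂(unif K) with hL
  set V : ℝ := ∫ x, ‖T x - T' x‖ ^ 2 ∂(unif K) with hV
  have hL0 : 0 ≤ L := integral_nonneg fun x => norm_nonneg _
  have hGG := eterm_GG_le hr hR hKr hpR hm hm' hms hms' hw hw'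
  have hLle : L ≤ (A + d * (4 * r * R)) * Real.sqrt θ := by
    refine l1_le_of_scale
      (G := d * ((JJ K m' p w - JJ K m' p w') + (JJ K m p w' - JJ K m p w)))
      hL0 hA0 (Real.sqrt_nonneg _) ?_ ?_
    · rw [mul_assoc]
      exact mul_le_mul_of_nonneg_left hGG (Nat.cast_nonneg d)
    · intro s hs
      have := l1_scale_inequality hK hKi hKr hYR hTm hTm' (Filter.Eventually.of_forall hTY)
        (Filter.Eventually.of_forall hTY') hD hD' hs
      rwa [integral_add i1 i2, e1, e2] at this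
  have hVle : V ≤ 2 * R * (A + d * (4 * r * R)) * Real.sqrt θ := by
    have h1 : V ≤ 2 * R * L := by
      rw [hV, hL, ← integral_const_mul]
      refine integral_mono int_n2 (int_n.const_mul _) fun x => ?_
      show ‖T x - T' x‖ ^ 2 ≤ 2 * R * ‖T x - T' x‖
      rw [sq]
      exact mul_le_mul_of_nonneg_right (hbd x) (norm_nonneg _)
    calc V ≤ 2 * R * L := h1
      _ ≤ 2 * R * ((A + d * (4 * r * R)) * Real.sqrt θ) :=
          mul_le_mul_of_nonneg_left hLle (by positivity)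
      _ = _ := by ring
  have hVeq : V = ∑ i, ∫ x in cell K p w' i, ‖T x - p i‖ ^ 2 ∂(unif K) :=
    eterm_sum_cells hK hp w' hTc' (fun x y => ‖T x - y‖ ^ 2) int_n2
  refine eterm_final_real (Real.sqrt_nonneg _) (by positivity) (by positivity) hVle ?_
  intro τ hτ
  have := eterm_key hK hKc hKi hr hR hKr hp hpR hm hm1 hm2 hw hw' hTm hTs hτ
  rw [← excess_eq hK hKi hp hw' w, ← hVeq, ← hθ2] at this
  exact this

end EtermAux

/-- The excess `E = JJ m' p w - JJ m' p w'` of the weights `w` (optimal for `m`) for the perturbed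
masses `m'` is of higher order: `E ≤ C θ^(5/4)`, `θ^2 = ∑ (m'-m)^2/m`.
Proof. `E = ∑ ∫_{cell w' i} gap_i`, `gap_i x = pot p w x + w i - ⟪x, p i⟫ ≥ 0` (`excess_eq`).
For `x ∈ cell w i`, `x' ∈ K`: `gap_i x' ≤ ⟪T x' - p i, x' - x⟫ ≤ ‖T x' - p i‖ ‖x - x'‖`, hence
`α_i = 0`, `β_i = 2 τ gap_i - τ^2 ‖T - p i‖^2` is admissible in `hellinger_cells` (`T` the map of
`w` from `dualPair_of_isOpt`). With `hell_le_fisher`, `lam = 1/(8 r^2)`, and the two-sided bounds
on `gw` and on `gmass w i / gmass w' i`:  `τ E ≤ 256 r^2 θ^2 + 2 τ^2 ∫ ‖T - T'‖^2`.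
Moreover `∫ ‖T - T'‖^2 ≤ 2 R ∫ ‖T - T'‖`, and by `l1_scale_inequality`
`t ∫ ‖T - T'‖ ≤ A t^2 + d GG` for all `t ≥ 0`, where
`GG = E + E' = ∑ (w i - w' i) (m' i - m i) ≤ 4 r R ∑ |m' i - m i| ≤ 4 r R θ` (`weights_osc`).
Choose `t`, then `τ = θ^(3/4)`. -/
theorem eterm_le {K : Set (EE d)} (hK : IsCompact K) (hKc : Convex ℝ K)
    (hKi : (interior K).Nonempty) {r R : ℝ} (hr : 0 < r) (hR : 0 < R) (hKr : ∀ x ∈ K, ‖x‖ ≤ r) :
    ∃ C : ℝ, 0 ≤ C ∧ ∀ (ι : Type) [Fintype ι] [Nonempty ι] (p : ι → EE d) (m m' w w' : ι → ℝ),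
      Function.Injective p → (∀ i, ‖p i‖ ≤ R) → (∀ i, 0 < m i) → ∑ i, m i = 1 → ∑ i, m' i = 1 →
      (∀ i, m i / 2 ≤ m' i) → (∀ i, m' i ≤ 2 * m i) → IsOpt K m p w → IsOpt K m' p w' →
      JJ K m' p w - JJ K m' p w' ≤ C * (Real.sqrt (∑ i, (m' i - m i) ^ 2 / m i)) ^ (5 / 4 : ℝ) := by
  refine ⟨256 * r ^ 2 + 2 * (2 * R * (d * (2 * R *
    (volume (Metric.closedBall (0 : EE d) (r + 1))).toReal / (volume K).toReal)
    + d * (4 * r * R))), by positivity, ?_⟩
  intro ι _ _ p m m' w w' hp hpR hm hms hms' hm1 hm2 hw hw'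
  exact eterm_aux hK hKc hKi hr hR hKr hp hpR hm hms hms' hm1 hm2 hw hw'

end Vale.Agent.P074
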