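import Vale.Agent.P074.Third.Cells

open MeasureTheory
open scoped ENNReal NNReal RealInnerProductSpace

namespace Vale.Agent.P074

variable {d : ℕ} {ι : Type} [Fintype ι]

/-- `JJ` is Lipschitz for the sup distance of the weights. -/
lemma JJ_sub_le [Nonempty ι] {K : Set (EE d)} (hK : IsCompact K) (hKi : (interior K).Nonempty)
    (p : ι → EE d) {m : ι → ℝ} (hm : ∀ i, 0 < m i) (hm1 : ∑ i, m i = 1) (w w' : ι → ℝ) {c : ℝ}
    (h : ∀ i, |w i - w' i| ≤ c) : |JJ K m p w - JJ K m p w'| ≤ 2 * c := by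
  have := unif_isProbabilityMeasure hK hKi
  have h1 : |∫ x, pot p w x ∂(unif K) - ∫ x, pot p w' x ∂(unif K)| ≤ c := by
    rw [← integral_sub (integrable_pot hK hKi p w) (integrable_pot hK hKi p w')]
    calc |∫ x, (pot p w x - pot p w' x) ∂(unif K)|
        ≤ ∫ x, |pot p w x - pot p w' x| ∂(unif K) := abs_integral_le_integral_abs
      _ ≤ ∫ _, c ∂(unif K) :=
          integral_mono ((integrable_pot hK hKi p w).sub (integrable_pot hK hKi p w')).abs
            (integrable_const c) (fun x => pot_sub_le p w w' h x)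
      _ = c := by simp
  have h2 : |∑ i, m i * w i - ∑ i, m i * w' i| ≤ c := by
    rw [← Finset.sum_sub_distrib]
    calc |∑ i, (m i * w i - m i * w' i)| ≤ ∑ i, |m i * w i - m i * w' i| :=
          Finset.abs_sum_le_sum_abs _ _
      _ ≤ ∑ i, m i * c := Finset.sum_le_sum fun i _ => by
          rw [← mul_sub, abs_mul, abs_of_pos (hm i)]
          exact mul_le_mul_of_nonneg_left (h i) (hm i).le
      _ = c := by rw [← Finset.sum_mul, hm1, one_mul]
  unfold JJ
  rw [abs_le] at h1 h2 ⊢
  constructor <;> linarith [h1.1, h1.2, h2.1, h2.2]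

lemma continuous_JJ [Nonempty ι] {K : Set (EE d)} (hK : IsCompact K) (hKi : (interior K).Nonempty)
    (p : ι → EE d) {m : ι → ℝ} (hm : ∀ i, 0 < m i) (hm1 : ∑ i, m i = 1) :
    Continuous (JJ K m p) := by
  have hl : LipschitzWith 2 (JJ K m p) := by
    refine LipschitzWith.of_dist_le_mul fun w w' => ?_
    rw [Real.dist_eq]
    refine JJ_sub_le hK hKi p hm hm1 w w' fun i => ?_
    rw [← Real.dist_eq]
    exact dist_le_pi_dist w w' i
  exact hl.continuous

lemma pot_shift [Nonempty ι] (p : ι → EE d) (w : ι → ℝ) (c : ℝ) (x : EE d) :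
    pot p (fun i => w i + c) x = pot p w x - c := by
  apply le_antisymm
  · refine pot_le fun i => ?_
    have := le_pot p w x i
    linarith
  · have : pot p w x ≤ pot p (fun i => w i + c) x + c := by
      refine pot_le fun i => ?_
      have := le_pot p (fun i => w i + c) x i
      linarith
    linarith

lemma JJ_shift [Nonempty ι] {K : Set (EE d)} (hK : IsCompact K) (hKi : (interior K).Nonempty)
    (p : ι → EE d) {m : ι → ℝ} (hm1 : ∑ i, m i = 1) (w : ι → ℝ) (c : ℝ) :
    JJ K m p (fun i => w i + c) = JJ K m p w := by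
  have := unif_isProbabilityMeasure hK hKi
  unfold JJ
  have h1 : ∫ x, pot p (fun i => w i + c) x ∂(unif K) = ∫ x, pot p w x ∂(unif K) - c := by
    simp_rw [pot_shift]
    rw [integral_sub (integrable_pot hK hKi p w) (integrable_const c)]
    simp
  have h2 : ∑ i, m i * (w i + c) = ∑ i, m i * w i + c := by
    simp_rw [mul_add]
    rw [Finset.sum_add_distrib, ← Finset.sum_mul, hm1, one_mul]
  rw [h1, h2]
  ring

/-- Coercivity for normalised weights. -/
lemma JJ_lower [Nonempty ι] {K : Set (EE d)} (hK : IsCompact K) (hKi : (interior K).Nonempty)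
    {p : ι → EE d} {m : ι → ℝ} (hm : ∀ i, 0 < m i) {r R : ℝ} (hKr : ∀ x ∈ K, ‖x‖ ≤ r)
    (hpR : ∀ i, ‖p i‖ ≤ R) {w : ι → ℝ} (hw : ∀ i, 0 ≤ w i) {i0 : ι} (hi0 : w i0 = 0) (j : ι) :
    -(r * R) + m j * w j ≤ JJ K m p w := by
  have := unif_isProbabilityMeasure hK hKi
  have h1 : -(r * R) ≤ ∫ x, pot p w x ∂(unif K) := by
    have : ∫ _, -(r * R) ∂(unif K) ≤ ∫ x, pot p w x ∂(unif K) := by
      refine integral_mono_ae (integrable_const _) (integrable_pot hK hKi p w) ?_
      filter_upwards [ae_mem_unif (d := d) hK.measurableSet] with x hx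
      have h2 := le_pot p w x i0
      rw [hi0, sub_zero] at h2
      have h3 : |⟪x, p i0⟫| ≤ r * R :=
        (abs_real_inner_le_norm _ _).trans
          (mul_le_mul (hKr x hx) (hpR i0) (norm_nonneg _) ((norm_nonneg _).trans (hKr x hx)))
      have := (abs_le.1 h3).1
      linarith
    simpa using this
  have h2 : m j * w j ≤ ∑ i, m i * w i :=
    Finset.single_le_sum (f := fun i => m i * w i) (fun i _ => mul_nonneg (hm i).le (hw i))
      (Finset.mem_univ j)
  unfold JJ
  linarith

/-- Existence of a global minimiser of the Kantorovich functional. -/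
lemma exists_min_JJ [Nonempty ι] {K : Set (EE d)} (hK : IsCompact K)
    (hKi : (interior K).Nonempty) (p : ι → EE d) {m : ι → ℝ} (hm : ∀ i, 0 < m i)
    (hm1 : ∑ i, m i = 1) : ∃ w : ι → ℝ, ∀ w', JJ K m p w ≤ JJ K m p w' := by
  obtain ⟨r, hr⟩ := hK.isBounded.exists_norm_le
  obtain ⟨R, hR⟩ : ∃ R, ∀ i, ‖p i‖ ≤ R :=
    ⟨∑ j, ‖p j‖, fun i => Finset.single_le_sum (f := fun j => ‖p j‖)
      (fun j _ => norm_nonneg _) (Finset.mem_univ i)⟩
  set J0 := JJ K m p 0 with hJ0
  have hJ0' : 0 ≤ J0 + r * R := by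
    obtain ⟨i0⟩ := ‹Nonempty ι›
    have := JJ_lower hK hKi hm hr hR (w := 0) (fun _ => le_rfl) (i0 := i0) rfl i0
    simp only [Pi.zero_apply, mul_zero, add_zero] at this
    linarith
  set D : ι → ℝ := fun j => (J0 + r * R) / m j with hD
  have hD0 : (0 : ι → ℝ) ≤ D := fun j => div_nonneg hJ0' (hm j).le
  have hcomp : IsCompact (Set.Icc (0 : ι → ℝ) D) := isCompact_Icc
  obtain ⟨w, hwB, hw⟩ := hcomp.exists_isMinOn ⟨0, le_rfl, hD0⟩
    (continuous_JJ hK hKi p hm hm1).continuousOn
  refine ⟨w, fun w' => ?_⟩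
  obtain ⟨i0, hi0⟩ := Finite.exists_min w'
  set v : ι → ℝ := fun i => w' i + -(w' i0) with hv
  have hJv : JJ K m p v = JJ K m p w' := JJ_shift hK hKi p hm1 w' _
  have hv0 : ∀ i, 0 ≤ v i := fun i => by
    have := hi0 i
    simp only [hv]
    linarith
  have hvi0 : v i0 = 0 := by simp [hv]
  rw [← hJv]
  by_cases hvB : v ∈ Set.Icc (0 : ι → ℝ) D
  · exact hw hvB
  · have : ∃ j, D j < v j := by
      by_contra hcon
      simp only [not_exists, not_lt] at hcon
      exact hvB ⟨hv0, hcon⟩
    obtain ⟨j, hj⟩ := this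
    have h1 := JJ_lower hK hKi hm hr hR hv0 hvi0 j
    have h2 : J0 + r * R < m j * v j := by
      have := (div_lt_iff₀ (hm j)).1 hj
      linarith
    have h3 : JJ K m p w ≤ J0 := hw (⟨le_rfl, hD0⟩ : (0 : ι → ℝ) ∈ Set.Icc (0 : ι → ℝ) D)
    linarith

/-- The set where the site `i` beats all the others by `ε`. -/
def winSet (K : Set (EE d)) (p : ι → EE d) (w : ι → ℝ) (i : ι) (ε : ℝ) : Set (EE d) :=
  {x | x ∈ K ∧ ∀ j, j ≠ i → ⟪x, p j⟫ - w j + ε ≤ ⟪x, p i⟫ - w i}

omit [Fintype ι] in
lemma measurableSet_winSet {K : Set (EE d)} (hK : IsClosed K) (p : ι → EE d) (w : ι → ℝ) (i : ι)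
    (ε : ℝ) : MeasurableSet (winSet K p w i ε) := by
  have h : winSet K p w i ε
      = K ∩ ⋂ j, ⋂ (_ : j ≠ i), {x | ⟪x, p j⟫ - w j + ε ≤ ⟪x, p i⟫ - w i} := by
    ext x
    simp [winSet]
  rw [h]
  exact (hK.inter (isClosed_iInter fun j => isClosed_iInter fun _ =>
    isClosed_le (by fun_prop) (by fun_prop))).measurableSet

lemma winSet_le_of_min [Nonempty ι] {K : Set (EE d)} (hK : IsCompact K)
    (hKi : (interior K).Nonempty) (p : ι → EE d) {m : ι → ℝ} {w : ι → ℝ}
    (hw : ∀ w', JJ K m p w ≤ JJ K m p w') (i : ι) {ε : ℝ} (hε : 0 < ε) :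
    (unif K).real (winSet K p w i ε) ≤ m i := by
  classical
  have := unif_isProbabilityMeasure hK hKi
  set A := winSet K p w i ε with hA
  have hAm : MeasurableSet A := measurableSet_winSet hK.isClosed p w i ε
  set w' : ι → ℝ := fun j => w j + if j = i then ε else 0 with hw'
  have hpt : ∀ x, pot p w' x ≤ pot p w x - A.indicator (fun _ => ε) x := by
    intro x
    by_cases hx : x ∈ A
    · rw [Set.indicator_of_mem hx]
      refine pot_le fun j => ?_
      have h1 := le_pot p w x i
      by_cases hj : j = i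
      · subst hj
        simp only [hw', if_true]
        linarith
      · have h2 := hx.2 j hj
        simp only [hw', if_neg hj]
        linarith
    · rw [Set.indicator_of_notMem hx]
      refine pot_le fun j => ?_
      have h1 := le_pot p w x j
      have h2 : (0 : ℝ) ≤ if j = i then ε else 0 := by
        split_ifs
        · exact hε.le
        · exact le_rfl
      simp only [hw']
      linarith
  have hind : Integrable (A.indicator (fun _ => ε)) (unif K) :=
    (integrable_const ε).indicator hAm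
  have h1 : ∫ x, pot p w' x ∂(unif K) ≤ ∫ x, pot p w x ∂(unif K) - (unif K).real A * ε := by
    calc ∫ x, pot p w' x ∂(unif K)
        ≤ ∫ x, (pot p w x - A.indicator (fun _ => ε) x) ∂(unif K) :=
          integral_mono (integrable_pot hK hKi p w') ((integrable_pot hK hKi p w).sub hind) hpt
      _ = ∫ x, pot p w x ∂(unif K) - (unif K).real A * ε := by
          rw [integral_sub (integrable_pot hK hKi p w) hind, integral_indicator_const _ hAm,
            smul_eq_mul]
  have h2 : ∑ j, m j * w' j = ∑ j, m j * w j + m i * ε := by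
    simp only [hw', mul_add, Finset.sum_add_distrib, mul_ite, mul_zero, Finset.sum_ite_eq',
      Finset.mem_univ, if_true]
  have h3 := hw w'
  unfold JJ at h3
  rw [h2] at h3
  have h4 : (unif K).real A * ε ≤ m i * ε := by linarith
  exact le_of_mul_le_mul_right h4 hε

lemma cell_subset_win (K : Set (EE d)) (p : ι → EE d) (w : ι → ℝ) (i : ι) :
    cell K p w i ⊆ (⋃ n : ℕ, winSet K p w i (1 / ((n : ℝ) + 1)))
      ∪ ⋃ j : {j // j ≠ i}, cell K p w i ∩ cell K p w j.1 := by
  classical
  intro x hx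
  by_cases htie : ∃ j, j ≠ i ∧ ⟪x, p i⟫ - w i ≤ ⟪x, p j⟫ - w j
  · obtain ⟨j, hj, hle⟩ := htie
    right
    refine Set.mem_iUnion.2 ⟨⟨j, hj⟩, hx, hx.1, fun k => (hx.2 k).trans hle⟩
  · left
    simp only [not_exists, not_and, not_le] at htie
    have hex : ∀ j, ∃ n : ℕ, j ≠ i → 1 / ((n : ℝ) + 1) < (⟪x, p i⟫ - w i) - (⟪x, p j⟫ - w j) := by
      intro j
      by_cases hj : j = i
      · exact ⟨0, fun h => absurd hj h⟩
      · obtain ⟨n, hn⟩ := exists_nat_one_div_lt (sub_pos.2 (htie j hj))
        exact ⟨n, fun _ => hn⟩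
    choose N hN using hex
    refine Set.mem_iUnion.2 ⟨Finset.univ.sup N, hx.1, fun j hj => ?_⟩
    have h1 := hN j hj
    have h2 : N j ≤ Finset.univ.sup N := Finset.le_sup (Finset.mem_univ j)
    have h3 : 1 / (((Finset.univ.sup N : ℕ) : ℝ) + 1) ≤ 1 / ((N j : ℝ) + 1) := by
      apply one_div_le_one_div_of_le (by positivity)
      have : (N j : ℝ) ≤ ((Finset.univ.sup N : ℕ) : ℝ) := by exact_mod_cast h2
      linarith
    linarith

lemma cell_le_of_min [Nonempty ι] {K : Set (EE d)} (hK : IsCompact K)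
    (hKi : (interior K).Nonempty) {p : ι → EE d} (hp : Function.Injective p) {m : ι → ℝ}
    (hm : ∀ i, 0 < m i) {w : ι → ℝ}
    (hw : ∀ w', JJ K m p w ≤ JJ K m p w') (i : ι) :
    (unif K).real (cell K p w i) ≤ m i := by
  have := unif_isProbabilityMeasure hK hKi
  have hmono : Monotone fun n : ℕ => winSet K p w i (1 / ((n : ℝ) + 1)) := by
    intro a b hab x hx
    refine ⟨hx.1, fun j hj => ?_⟩
    have h1 := hx.2 j hj
    have h3 : 1 / ((b : ℝ) + 1) ≤ 1 / ((a : ℝ) + 1) := by
      apply one_div_le_one_div_of_le (by positivity)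
      have : (a : ℝ) ≤ (b : ℝ) := by exact_mod_cast hab
      linarith
    linarith
  have h1 : unif K (⋃ n : ℕ, winSet K p w i (1 / ((n : ℝ) + 1))) ≤ ENNReal.ofReal (m i) := by
    rw [hmono.measure_iUnion]
    refine iSup_le fun n => ?_
    rw [ENNReal.le_ofReal_iff_toReal_le (measure_ne_top _ _) (hm i).le]
    exact winSet_le_of_min hK hKi p hw i (by positivity)
  have h2 : unif K (⋃ j : {j // j ≠ i}, cell K p w i ∩ cell K p w j.1) = 0 :=
    measure_iUnion_null fun j => unif_cell_inter_null hp w j.2.symm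
  have h3 : unif K (cell K p w i) ≤ ENNReal.ofReal (m i) := by
    calc unif K (cell K p w i) ≤ _ := measure_mono (cell_subset_win K p w i)
      _ ≤ _ := measure_union_le _ _
      _ ≤ ENNReal.ofReal (m i) := by rw [h2, add_zero]; exact h1
  exact (ENNReal.le_ofReal_iff_toReal_le (measure_ne_top _ _) (hm i).le).1 h3

/-- Existence of optimal weights for semi-discrete optimal transport.
Proof: minimise `w ↦ JJ K m p w` (continuous, invariant under adding constants, coercive modulo
constants since `JJ K m p w ≥ - r R + (min m) (max w - min w)`); at a minimiser, comparing with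
`w + ε e_i` gives `unif K {x ∈ K | i beats all the others by ε} ≤ m i`; let `ε → 0`, use that ties
are null sets, so `unif K (cell i) ≤ m i`, and the cells cover `K`, `∑ m = 1`. -/
theorem exists_isOpt [Nonempty ι] {K : Set (EE d)} (hK : IsCompact K) (hKi : (interior K).Nonempty)
    {p : ι → EE d} (hp : Function.Injective p) {m : ι → ℝ} (hm : ∀ i, 0 < m i)
    (hm1 : ∑ i, m i = 1) : ∃ w : ι → ℝ, IsOpt K m p w := by
  have := unif_isProbabilityMeasure hK hKi
  obtain ⟨w, hw⟩ := exists_min_JJ hK hKi p hm hm1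
  refine ⟨w, ?_⟩
  have hle : ∀ i, (unif K).real (cell K p w i) ≤ m i := cell_le_of_min hK hKi hp hm hw
  have hsum : ∑ i, (unif K).real (cell K p w i) = ∑ i, m i := by
    have := integral_eq_sum_cells hK hp w (f := fun _ => (1 : ℝ)) (integrable_const 1)
    simp only [integral_const, smul_eq_mul, mul_one, probReal_univ, measureReal_restrict_apply,
      MeasurableSet.univ, Set.univ_inter] at this
    rw [hm1, ← this]
  intro i
  exact (Finset.sum_eq_sum_iff_of_le (fun i _ => hle i)).1 hsum i (Finset.mem_univ i)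

end Vale.Agent.P074
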