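import Vale.Agent.P074.Third.Core
import Vale.Agent.P074.Third.Discretize
import Vale.Agent.P074.Quarter

open MeasureTheory Filter Topology
open scoped ENNReal NNReal RealInnerProductSpace

namespace Vale.Agent.P074

variable {d : ℕ}

/-- Every optimal map admits a dual pair. -/
lemma exists_dualPair_of_isOTMap (hd : 0 < d) {K : Set (EE d)} (hK : IsCompact K)
    (hKc : Convex ℝ K) (hKi : (interior K).Nonempty) {Y : Set (EE d)} (hY : IsCompact Y)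
    {r R : ℝ} (hKr : ∀ x ∈ K, ‖x‖ ≤ r) (hYR : ∀ y ∈ Y, ‖y‖ ≤ R)
    {μ : Measure (EE d)} [IsProbabilityMeasure μ] (hμY : μ Y = 1)
    {T : EE d → EE d} (hT : IsOTMap (unif K) μ T) :
    (∀ᵐ x ∂(unif K), T x ∈ Y) ∧ ∃ φ ψ : EE d → ℝ, DualPair (unif K) Y T r R φ ψ := by
  obtain ⟨L, hLae, hLK, hLY, hcyc⟩ := exists_cyclically_monotone hd hK hKc hKi hY hμY hT
  have hprob : IsProbabilityMeasure (unif K) := unif_isProbabilityMeasure hK hKi
  have hLne : L.Nonempty := by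
    obtain ⟨x, hx⟩ := hLae.exists
    exact ⟨x, hx⟩
  obtain ⟨a, ha⟩ := exists_rockafellar hLne (fun x hx => hYR _ (hLY x hx)) hcyc
  refine ⟨?_, exists_dualPair_of_rockafellar hLne hLae (fun x hx => hKr x (hLK hx)) hYR hLY ha⟩
  filter_upwards [hLae] with x hx
  exact hLY x hx

/-- From a bound on the squared `L^2` norm to a bound on `eLpNorm`. -/
lemma eLpNorm_le_of_integral_sq_le {ρ : Measure (EE d)} [IsFiniteMeasure ρ] {T S : EE d → EE d}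
    (hT : Measurable T) (hS : Measurable S) {R : ℝ} (hTR : ∀ x, ‖T x‖ ≤ R) (hSR : ∀ x, ‖S x‖ ≤ R)
    {B : ℝ} (hB : ∫ x, ‖T x - S x‖ ^ 2 ∂ρ ≤ B) :
    eLpNorm (fun x => T x - S x) 2 ρ ≤ ENNReal.ofReal (Real.sqrt B) := by
  have hbd : ∀ᵐ x ∂ρ, ‖T x - S x‖ ≤ 2 * R := Eventually.of_forall fun x => by
    have := (norm_sub_le (T x) (S x)).trans (add_le_add (hTR x) (hSR x))
    linarith
  have hmem : MemLp (fun x => T x - S x) 2 ρ :=
    MemLp.of_bound (hT.sub hS).aestronglyMeasurable (2 * R) hbd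
  rw [hmem.eLpNorm_eq_integral_rpow_norm (by norm_num) (by norm_num)]
  simp only [ENNReal.toReal_ofNat]
  refine ENNReal.ofReal_le_ofReal ?_
  have h6 : 0 ≤ ∫ x, ‖T x - S x‖ ^ (2 : ℝ) ∂ρ := integral_nonneg fun x => by positivity
  have h7 : ∫ x, ‖T x - S x‖ ^ (2 : ℝ) ∂ρ ≤ B := by
    simpa [Real.rpow_two] using hB
  rw [Real.sqrt_eq_rpow]
  calc (∫ x, ‖T x - S x‖ ^ (2 : ℝ) ∂ρ) ^ ((2 : ℝ)⁻¹) ≤ B ^ ((2 : ℝ)⁻¹) :=
        Real.rpow_le_rpow h6 h7 (by norm_num)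
    _ = B ^ (1 / 2 : ℝ) := by norm_num

/-- Passage to the limit `η → 0`. -/
lemma le_of_forall_eta {X a b c : ℝ≥0∞} (ha : a ≠ ∞) (hb : b ≠ ∞)
    (h : ∀ η : ℝ, 0 < η → η ≤ 1 →
      X ≤ a * ENNReal.ofReal η ^ (1 / 4 : ℝ) + b * (c + 2 * ENNReal.ofReal η) ^ (1 / 3 : ℝ)) :
    X ≤ b * c ^ (1 / 3 : ℝ) := by
  have hcont : Continuous fun η : ℝ =>
      a * ENNReal.ofReal η ^ (1 / 4 : ℝ) + b * (c + 2 * ENNReal.ofReal η) ^ (1 / 3 : ℝ) := by
    have h1 : Continuous fun η : ℝ => ENNReal.ofReal η ^ (1 / 4 : ℝ) :=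
      ENNReal.continuous_rpow_const.comp ENNReal.continuous_ofReal
    have h2 : Continuous fun η : ℝ => c + 2 * ENNReal.ofReal η :=
      continuous_const.add
        ((ENNReal.continuous_const_mul (by norm_num)).comp ENNReal.continuous_ofReal)
    have h3 : Continuous fun η : ℝ => (c + 2 * ENNReal.ofReal η) ^ (1 / 3 : ℝ) :=
      ENNReal.continuous_rpow_const.comp h2
    exact ((ENNReal.continuous_const_mul ha).comp h1).add
      ((ENNReal.continuous_const_mul hb).comp h3)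
  have hlim : Tendsto (fun η : ℝ =>
      a * ENNReal.ofReal η ^ (1 / 4 : ℝ) + b * (c + 2 * ENNReal.ofReal η) ^ (1 / 3 : ℝ))
      (𝓝[>] 0) (𝓝 (b * c ^ (1 / 3 : ℝ))) := by
    have := (hcont.tendsto 0).mono_left (nhdsWithin_le_nhds (s := Set.Ioi (0 : ℝ)))
    simpa using this
  refine ge_of_tendsto hlim ?_
  have hmem : Set.Ioc (0 : ℝ) 1 ∈ 𝓝[>] (0 : ℝ) := Ioc_mem_nhdsGT one_pos
  filter_upwards [hmem] with η hη
  exact h η hη.1 hη.2

/-- Passage to the infimum over the couplings. -/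
lemma le_mul_W2_rpow {μ ν : Measure (EE d)} {X b : ℝ≥0∞} (hb0 : b ≠ 0) (hb : b ≠ ∞)
    (h : ∀ π : Measure (EE d × EE d), IsCoupling μ ν π →
      X ≤ b * ((∫⁻ p, ENNReal.ofReal (‖p.1 - p.2‖ ^ 2) ∂π) ^ (1 / 2 : ℝ)) ^ (1 / 3 : ℝ)) :
    X ≤ b * W2 μ ν ^ (1 / 3 : ℝ) := by
  have h3 : (0 : ℝ) < 3 := by norm_num
  rw [mul_comm, ← ENNReal.div_le_iff hb0 hb, one_div, ENNReal.le_rpow_inv_iff h3, W2]
  refine le_iInf₂ fun π hπ => ?_
  rw [← ENNReal.le_rpow_inv_iff h3, ENNReal.div_le_iff hb0 hb, mul_comm, ← one_div]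
  exact h π hπ

/-- The exponent `1/3` is admissible. -/
theorem admissible_third (hd : 0 < d) : Admissible d (1 / 3) := by
  refine ⟨by norm_num, by norm_num, ?_⟩
  intro K hK hKc hKi Y hY hYne
  obtain ⟨r₀, hKr₀⟩ : ∃ r : ℝ, ∀ x ∈ K, ‖x‖ ≤ r := hK.isBounded.exists_norm_le
  obtain ⟨R₀, hYR₀⟩ : ∃ R : ℝ, ∀ y ∈ Y, ‖y‖ ≤ R := hY.isBounded.exists_norm_le
  have hprob : IsProbabilityMeasure (unif K) := unif_isProbabilityMeasure hK hKi
  have hR₀ : 0 ≤ R₀ := by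
    obtain ⟨y, hy⟩ := hYne
    exact (norm_nonneg _).trans (hYR₀ y hy)
  set r : ℝ := |r₀| + 1 with hr
  have hr0 : 0 < r := by positivity
  have hKr : ∀ x ∈ K, ‖x‖ ≤ r := fun x hx =>
    (hKr₀ x hx).trans ((le_abs_self r₀).trans (by linarith))
  set R : ℝ := R₀ + 1 with hR
  have hR0 : 0 < R := by positivity
  set Y' : Set (EE d) := Metric.closedBall (0 : EE d) R with hY'
  have hY'c : IsCompact Y' := isCompact_closedBall _ _
  have hY'R : ∀ y ∈ Y', ‖y‖ ≤ R := fun y hy => by simpa [hY'] using hy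
  have hYY' : Y ⊆ Y' := fun y hy => by
    have := hYR₀ y hy
    simp only [hY', Metric.mem_closedBall, dist_zero_right]
    linarith
  obtain ⟨C₄, hC₄⟩ := stability_of_dualPairs hK hKi hY'c hKr hY'R
  obtain ⟨C, hC0, hC⟩ := core_discrete hK hKc hKi hr0 hR0 hKr
  refine ⟨Real.toNNReal (Real.sqrt C) + 1, ?_⟩
  intro μ ν hμ hν hμY hνY T S hT hS
  have hμY' : μ Y' = 1 := le_antisymm prob_le_one (hμY ▸ measure_mono hYY')
  have hνY' : ν Y' = 1 := le_antisymm prob_le_one (hνY ▸ measure_mono hYY')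
  obtain ⟨hTY, φ, ψ, hdT⟩ := exists_dualPair_of_isOTMap hd hK hKc hKi hY'c hKr hY'R hμY' hT
  obtain ⟨hSY, φ', ψ', hdS⟩ := exists_dualPair_of_isOTMap hd hK hKc hKi hY'c hKr hY'R hνY' hS
  refine le_mul_W2_rpow (by simp) (by simp) fun π hπ => ?_
  set c : ℝ≥0∞ := (∫⁻ p, ENNReal.ofReal (‖p.1 - p.2‖ ^ 2) ∂π) ^ (1 / 2 : ℝ) with hc
  refine le_of_forall_eta (a := 2 * (C₄ : ℝ≥0∞)) (by finiteness) (by simp) fun η hη hη1 => ?_
  obtain ⟨n, hn, hcore⟩ := hC η hη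
  obtain ⟨ι, hι1, hι2, m, y, z, hm, hm1, hy, hz, hinj, hWy, hWz, hW⟩ :=
    exists_discretization hd hY hYR₀ hμY hνY hπ hη hη1 hn
  obtain ⟨Ty, Sz, φy, ψy, φz, ψz, hTym, hSzm, hTyY, hSzY, hdTy, hdSz, hTymap, hSzmap, hint⟩ :=
    hcore ι m y z hm hm1 hy hz hinj
  -- the three pieces
  have h1 : eLpNorm (fun x => T x - Ty x) 2 (unif K)
      ≤ (C₄ : ℝ≥0∞) * ENNReal.ofReal η ^ (1 / 4 : ℝ) := by
    refine (hC₄ T Ty φ ψ φy ψy hT.1 hTym hTY (Eventually.of_forall hTyY) hdT hdTy).trans ?_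
    rw [hT.2.1, hTymap]
    gcongr
  have h3 : eLpNorm (fun x => Sz x - S x) 2 (unif K)
      ≤ (C₄ : ℝ≥0∞) * ENNReal.ofReal η ^ (1 / 4 : ℝ) := by
    have hcomm : eLpNorm (fun x => Sz x - S x) 2 (unif K)
        = eLpNorm (fun x => S x - Sz x) 2 (unif K) := eLpNorm_sub_comm Sz S 2 (unif K)
    rw [hcomm]
    refine (hC₄ S Sz φ' ψ' φz ψz hS.1 hSzm hSY (Eventually.of_forall hSzY) hdS hdSz).trans ?_
    rw [hS.2.1, hSzmap]
    gcongr
  set W : ℝ := Real.sqrt (∑ i, m i * ‖y i - z i‖ ^ 2) with hWdef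
  have hW0 : 0 ≤ W := Real.sqrt_nonneg _
  have h2 : eLpNorm (fun x => Ty x - Sz x) 2 (unif K)
      ≤ ((Real.toNNReal (Real.sqrt C) + 1 : ℝ≥0) : ℝ≥0∞)
        * (c + 2 * ENNReal.ofReal η) ^ (1 / 3 : ℝ) := by
    refine (eLpNorm_le_of_integral_sq_le hTym hSzm (R := R) (fun x => hY'R _ (hTyY x))
      (fun x => hY'R _ (hSzY x)) hint).trans ?_
    have hs : Real.sqrt (C * (W + η) ^ (2 / 3 : ℝ)) = Real.sqrt C * (W + η) ^ (1 / 3 : ℝ) := by
      rw [Real.sqrt_mul hC0, Real.sqrt_eq_rpow ((W + η) ^ (2 / 3 : ℝ)),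
        ← Real.rpow_mul (by positivity)]
      norm_num
    rw [hs, ENNReal.ofReal_mul (Real.sqrt_nonneg _),
      ← ENNReal.ofReal_rpow_of_nonneg (by positivity) (by norm_num)]
    have hle : ENNReal.ofReal (W + η) ≤ c + 2 * ENNReal.ofReal η := by
      rw [ENNReal.ofReal_add hW0 hη.le, two_mul, ← add_assoc]
      gcongr
    gcongr
    rw [ENNReal.coe_add, ENNReal.ofReal]
    exact le_self_add
  have hsplit : (fun x => T x - S x)
      = (fun x => T x - Ty x) + ((fun x => Ty x - Sz x) + fun x => Sz x - S x) := by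
    funext x
    simp only [Pi.add_apply]
    abel
  have hm1' : AEStronglyMeasurable (fun x => T x - Ty x) (unif K) :=
    (hT.1.sub hTym).aestronglyMeasurable
  have hm2' : AEStronglyMeasurable (fun x => Ty x - Sz x) (unif K) :=
    (hTym.sub hSzm).aestronglyMeasurable
  have hm3' : AEStronglyMeasurable (fun x => Sz x - S x) (unif K) :=
    (hSzm.sub hS.1).aestronglyMeasurable
  calc eLpNorm (fun x => T x - S x) 2 (unif K)
      ≤ eLpNorm (fun x => T x - Ty x) 2 (unif K)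
        + (eLpNorm (fun x => Ty x - Sz x) 2 (unif K)
          + eLpNorm (fun x => Sz x - S x) 2 (unif K)) := by
        rw [hsplit]
        refine (eLpNorm_add_le hm1' (hm2'.add hm3') (by norm_num)).trans ?_
        gcongr
        exact eLpNorm_add_le hm2' hm3' (by norm_num)
    _ ≤ (C₄ : ℝ≥0∞) * ENNReal.ofReal η ^ (1 / 4 : ℝ)
        + (((Real.toNNReal (Real.sqrt C) + 1 : ℝ≥0) : ℝ≥0∞)
            * (c + 2 * ENNReal.ofReal η) ^ (1 / 3 : ℝ)
          + (C₄ : ℝ≥0∞) * ENNReal.ofReal η ^ (1 / 4 : ℝ)) := by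
        gcongr
    _ = 2 * (C₄ : ℝ≥0∞) * ENNReal.ofReal η ^ (1 / 4 : ℝ)
        + ((Real.toNNReal (Real.sqrt C) + 1 : ℝ≥0) : ℝ≥0∞)
            * (c + 2 * ENNReal.ofReal η) ^ (1 / 3 : ℝ) := by
        ring

end Vale.Agent.P074
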