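import Vale.Agent.P074.Third.Close

open MeasureTheory
open scoped ENNReal NNReal RealInnerProductSpace

namespace Vale.Agent.P074

variable {d : ℕ} {ι : Type} [Fintype ι]

/-- Inverse of the Gaussian weight. -/
noncomputable def kap (lam : ℝ) (x : EE d) : ℝ := Real.exp (lam * ‖x‖ ^ 2 / 2)

lemma kap_mul_gw (lam : ℝ) (x : EE d) : kap lam x * gw lam x = 1 := by
  unfold kap gw
  rw [← Real.exp_add]
  simp

lemma continuous_kap (lam : ℝ) : Continuous (kap lam : EE d → ℝ) := by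
  unfold kap
  fun_prop

lemma one_le_kap {lam : ℝ} (hlam : 0 ≤ lam) (x : EE d) : 1 ≤ kap lam x := by
  unfold kap
  apply Real.one_le_exp
  positivity

lemma kap_le {lam r : ℝ} (hlam : 0 ≤ lam) {x : EE d} (hx : ‖x‖ ≤ r) :
    kap lam x ≤ Real.exp (lam * r ^ 2 / 2) := by
  unfold kap
  apply Real.exp_le_exp.mpr
  have : ‖x‖ ^ 2 ≤ r ^ 2 := by gcongr
  have := mul_le_mul_of_nonneg_left this hlam
  linarith

lemma one_le_exp_mul_gw {lam r : ℝ} (hlam : 0 ≤ lam) {x : EE d} (hx : ‖x‖ ≤ r) :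
    1 ≤ Real.exp (lam * r ^ 2 / 2) * gw lam x := by
  rw [← kap_mul_gw lam x]
  exact mul_le_mul_of_nonneg_right (kap_le hlam hx) (gw_pos lam x).le

lemma exp_sub_exp_le {a b c : ℝ} (ha : a ≤ c) (hb : b ≤ c) :
    |Real.exp a - Real.exp b| ≤ Real.exp c * |a - b| := by
  wlog hab : a ≤ b generalizing a b
  · rw [abs_sub_comm, abs_sub_comm a b]
    exact this hb ha (le_of_not_ge hab)
  rw [abs_sub_comm, abs_sub_comm a b, abs_of_nonneg (sub_nonneg.mpr (Real.exp_le_exp.mpr hab)),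
    abs_of_nonneg (sub_nonneg.mpr hab)]
  have h1 : Real.exp b - Real.exp a = Real.exp b * (1 - Real.exp (a - b)) := by
    rw [mul_sub, mul_one, ← Real.exp_add]
    congr 2
    ring
  have h2 : 1 - Real.exp (a - b) ≤ b - a := by
    have := Real.add_one_le_exp (a - b)
    linarith
  rw [h1]
  calc Real.exp b * (1 - Real.exp (a - b)) ≤ Real.exp b * (b - a) :=
        mul_le_mul_of_nonneg_left h2 (Real.exp_pos _).le
    _ ≤ Real.exp c * (b - a) :=
        mul_le_mul_of_nonneg_right (Real.exp_le_exp.mpr hb) (sub_nonneg.mpr hab)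

lemma kap_lip {lam r : ℝ} (hlam : 0 ≤ lam) {x x' : EE d} (hx : ‖x‖ ≤ r)
    (hx' : ‖x'‖ ≤ r) :
    |kap lam x - kap lam x'| ≤ lam * r * Real.exp (lam * r ^ 2 / 2) * ‖x - x'‖ := by
  have h1 : ∀ y : EE d, ‖y‖ ≤ r → lam * ‖y‖ ^ 2 / 2 ≤ lam * r ^ 2 / 2 := by
    intro y hy
    have : ‖y‖ ^ 2 ≤ r ^ 2 := by gcongr
    have := mul_le_mul_of_nonneg_left this hlam
    linarith
  have h2 := exp_sub_exp_le (h1 x hx) (h1 x' hx')
  have h3 : |lam * ‖x‖ ^ 2 / 2 - lam * ‖x'‖ ^ 2 / 2| ≤ lam * r * ‖x - x'‖ := by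
    have e : lam * ‖x‖ ^ 2 / 2 - lam * ‖x'‖ ^ 2 / 2
        = lam / 2 * ((‖x‖ - ‖x'‖) * (‖x‖ + ‖x'‖)) := by ring
    rw [e, abs_mul, abs_mul, abs_of_nonneg (by positivity : 0 ≤ lam / 2),
      abs_of_nonneg (by positivity : 0 ≤ ‖x‖ + ‖x'‖)]
    have h4 := abs_norm_sub_norm_le x x'
    have h5 : |‖x‖ - ‖x'‖| * (‖x‖ + ‖x'‖) ≤ ‖x - x'‖ * (2 * r) := by
      apply mul_le_mul h4 (by linarith) (by positivity) (norm_nonneg _)
    have := mul_le_mul_of_nonneg_left h5 (by positivity : 0 ≤ lam / 2)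
    linarith
  unfold kap
  calc _ ≤ Real.exp (lam * r ^ 2 / 2) * |lam * ‖x‖ ^ 2 / 2 - lam * ‖x'‖ ^ 2 / 2| := h2
    _ ≤ Real.exp (lam * r ^ 2 / 2) * (lam * r * ‖x - x'‖) :=
        mul_le_mul_of_nonneg_left h3 (Real.exp_pos _).le
    _ = _ := by ring

lemma integrable_of_bdd_on {G : Type*} [NormedAddCommGroup G] {K : Set (EE d)} (hK : IsCompact K)
    (hKi : (interior K).Nonempty) {f : EE d → G} (hf : AEStronglyMeasurable f (unif K)) {B : ℝ}
    (hB : ∀ x ∈ K, ‖f x‖ ≤ B) : Integrable f (unif K) := by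
  have := unif_isProbabilityMeasure hK hKi
  apply Integrable.of_bound hf B
  filter_upwards [ae_mem_unif hK.measurableSet] with x hx
  exact hB x hx

lemma gmass_le_real {K : Set (EE d)} (hK : IsCompact K) (hKi : (interior K).Nonempty) {lam : ℝ}
    (hlam : 0 ≤ lam) (p : ι → EE d) (w : ι → ℝ) (i : ι) :
    gmass K lam p w i ≤ (unif K).real (cell K p w i) := by
  have := unif_isProbabilityMeasure hK hKi
  have h := setIntegral_mono_on (μ := unif K) (s := cell K p w i) (f := gw lam)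
    (g := fun _ => (1 : ℝ)) (integrable_gw hK hKi hlam).integrableOn
    (integrable_const _).integrableOn (measurableSet_cell hK.isClosed p w i)
    (fun x _ => gw_le_one hlam x)
  rw [setIntegral_const, smul_eq_mul, mul_one] at h
  exact h

lemma real_le_gmass {K : Set (EE d)} (hK : IsCompact K) (hKi : (interior K).Nonempty) {lam r : ℝ}
    (hlam : 0 ≤ lam) (hKr : ∀ x ∈ K, ‖x‖ ≤ r) (p : ι → EE d) (w : ι → ℝ) (i : ι) :
    (unif K).real (cell K p w i) ≤ Real.exp (lam * r ^ 2 / 2) * gmass K lam p w i := by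
  have := unif_isProbabilityMeasure hK hKi
  have h := setIntegral_mono_on (μ := unif K) (s := cell K p w i) (f := fun _ => (1 : ℝ))
    (g := fun x => Real.exp (lam * r ^ 2 / 2) * gw lam x)
    (integrable_const _).integrableOn
    ((integrable_gw hK hKi hlam).const_mul _).integrableOn (measurableSet_cell hK.isClosed p w i)
    (fun x hx => one_le_exp_mul_gw hlam (hKr x hx.1))
  rw [setIntegral_const, smul_eq_mul, mul_one, integral_const_mul] at h
  exact h

omit [Fintype ι] in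
lemma setIntegral_kap_gw {K : Set (EE d)} (lam : ℝ) (p : ι → EE d) (w : ι → ℝ) (i : ι) :
    ∫ x in cell K p w i, kap lam x * gw lam x ∂(unif K) = (unif K).real (cell K p w i) := by
  simp only [kap_mul_gw]
  rw [setIntegral_const, smul_eq_mul, mul_one]

/-- elementary inequality behind the comparison of the two Hellinger quantities -/
lemma sqrt_split {a a' s0 s1 : ℝ} (hs0 : 1 ≤ s0) (hs1 : 1 ≤ s1) :
    (a / s0 - a' / s1) ^ 2 ≤ 2 * (a - a') ^ 2 + 1 / 2 * (a' ^ 2 * (s1 ^ 2 - s0 ^ 2) ^ 2) := by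
  have h0 : 0 < s0 := by linarith
  have h1 : 0 < s1 := by linarith
  have e : a / s0 - a' / s1 = (a - a') / s0 + a' * (s1 - s0) / (s0 * s1) := by
    field_simp
    ring
  have hu : ((a - a') / s0) ^ 2 ≤ (a - a') ^ 2 := by
    rw [div_pow]
    apply div_le_self (sq_nonneg _)
    nlinarith
  have hv : (a' * (s1 - s0) / (s0 * s1)) ^ 2 ≤ a' ^ 2 * (s1 - s0) ^ 2 := by
    rw [div_pow, mul_pow]
    apply div_le_self (by positivity)
    have : 1 ≤ s0 * s1 := by nlinarith
    nlinarith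
  have hw : 4 * (s1 - s0) ^ 2 ≤ (s1 ^ 2 - s0 ^ 2) ^ 2 := by
    have e2 : (s1 ^ 2 - s0 ^ 2) ^ 2 = (s1 - s0) ^ 2 * (s1 + s0) ^ 2 := by ring
    rw [e2]
    have : 4 ≤ (s1 + s0) ^ 2 := by nlinarith
    nlinarith [sq_nonneg (s1 - s0)]
  have hw' : a' ^ 2 * (4 * (s1 - s0) ^ 2) ≤ a' ^ 2 * (s1 ^ 2 - s0 ^ 2) ^ 2 :=
    mul_le_mul_of_nonneg_left hw (sq_nonneg _)
  rw [e]
  nlinarith [sq_nonneg ((a - a') / s0 - a' * (s1 - s0) / (s0 * s1))]

lemma sqrt_sub_sq_le {m m' : ℝ} (hm : 0 < m) (hm' : 0 ≤ m') :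
    (Real.sqrt m - Real.sqrt m') ^ 2 ≤ (m' - m) ^ 2 / m := by
  rw [le_div_iff₀ hm]
  have h1 := Real.sq_sqrt hm.le
  have h2 := Real.sq_sqrt hm'
  have h3 := Real.sqrt_nonneg m
  have h4 := Real.sqrt_nonneg m'
  have e : (m' - m) ^ 2 = (Real.sqrt m - Real.sqrt m') ^ 2 * (Real.sqrt m + Real.sqrt m') ^ 2 := by
    calc (m' - m) ^ 2 = (Real.sqrt m' ^ 2 - Real.sqrt m ^ 2) ^ 2 := by rw [h1, h2]
      _ = _ := by ring
  rw [e]
  apply mul_le_mul_of_nonneg_left _ (sq_nonneg _)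
  nlinarith

/-- Closing the estimate: with `lam = 1/(8 r^2)` the Hellinger quantity of the Gaussian masses is
controlled by the Fisher-type distance of the true masses. (Use `test_lipschitz` with
`ζ = exp (lam |x|^2/2)`, whose Gaussian average over a cell is `m i / gmass i`.) -/
theorem hell_le_fisher [Nonempty ι] {K : Set (EE d)} (hK : IsCompact K) (hKc : Convex ℝ K)
    (hKi : (interior K).Nonempty) {r : ℝ} (hr : 0 < r) (hKr : ∀ x ∈ K, ‖x‖ ≤ r)
    {p : ι → EE d} (hp : Function.Injective p) {m m' : ι → ℝ} (hm : ∀ i, 0 < m i)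
    (hm1 : ∀ i, m i / 2 ≤ m' i) (hm2 : ∀ i, m' i ≤ 2 * m i) {w w' : ι → ℝ}
    (hw : IsOpt K m p w) (hw' : IsOpt K m' p w') :
    hell K (1 / (8 * r ^ 2)) p w w' ≤ 4 * ∑ i, (m' i - m i) ^ 2 / m i := by
  obtain ⟨lam, hlamdef⟩ : ∃ lam : ℝ, lam = 1 / (8 * r ^ 2) := ⟨_, rfl⟩
  rw [← hlamdef]
  have hlam : 0 < lam := by rw [hlamdef]; positivity
  have hlr : lam * r ^ 2 / 2 = 1 / 16 := by
    rw [hlamdef]; field_simp; norm_num
  obtain ⟨e1, he1def⟩ : ∃ e1 : ℝ, e1 = Real.exp (lam * r ^ 2 / 2) := ⟨_, rfl⟩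
  have he1 : 1 ≤ e1 := by rw [he1def]; apply Real.one_le_exp; positivity
  have he1' : e1 ≤ 16 / 15 := by
    rw [he1def, hlr]
    have := Real.exp_bound_div_one_sub_of_interval (x := 1 / 16) (by norm_num) (by norm_num)
    norm_num at this ⊢
    linarith
  have hm' : ∀ i, 0 < m' i := fun i => by linarith [hm i, hm1 i]
  -- the Gaussian masses
  have hA0 : ∀ i, gmass K lam p w i ≤ m i := fun i => by
    rw [← hw i]; exact gmass_le_real hK hKi hlam.le p w i
  have hA1 : ∀ i, gmass K lam p w' i ≤ m' i := fun i => by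
    rw [← hw' i]; exact gmass_le_real hK hKi hlam.le p w' i
  have hB0 : ∀ i, m i ≤ e1 * gmass K lam p w i := fun i => by
    rw [← hw i, he1def]; exact real_le_gmass hK hKi hlam.le hKr p w i
  have hB1 : ∀ i, m' i ≤ e1 * gmass K lam p w' i := fun i => by
    rw [← hw' i, he1def]; exact real_le_gmass hK hKi hlam.le hKr p w' i
  have h0 : ∀ i, 0 < gmass K lam p w i := fun i => by
    have := hB0 i
    have h2 := hm i
    by_contra hcon
    push Not at hcon
    nlinarith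
  have h1 : ∀ i, 0 < gmass K lam p w' i := fun i => by
    have := hB1 i
    have h2 := hm' i
    by_contra hcon
    push Not at hcon
    nlinarith
  -- the test function lemma
  have hl : 0 < lam * r * e1 := by positivity
  have hT := test_lipschitz hK hKc hKi hp hlam.le w w' (fun _ => kap lam)
    (fun _ => (continuous_kap lam).measurable) hl
    (fun _ x hx x' hx' => by rw [he1def]; exact kap_lip hlam.le (hKr x hx) (hKr x' hx')) h0 h1
  simp only [setIntegral_kap_gw, hw _, hw' _] at hT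
  have hcoef : lam / (8 * (lam * r * e1) ^ 2) = 1 / e1 ^ 2 := by
    have : 8 * lam * r ^ 2 = 1 := by linarith
    field_simp
    linarith
  rw [hcoef] at hT
  -- per index estimates
  have hper : ∀ i, (Real.sqrt (gmass K lam p w i) - Real.sqrt (gmass K lam p w' i)) ^ 2
      ≤ 2 * ((m' i - m i) ^ 2 / m i) + Real.sqrt (gmass K lam p w i * gmass K lam p w' i) *
        (m' i / gmass K lam p w' i - m i / gmass K lam p w i) ^ 2 := by
    intro i
    obtain ⟨M0, hM0⟩ : ∃ M0, M0 = gmass K lam p w i := ⟨_, rfl⟩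
    obtain ⟨M1, hM1⟩ : ∃ M1, M1 = gmass K lam p w' i := ⟨_, rfl⟩
    have a0 := hA0 i
    have a1 := hA1 i
    have b0 := hB0 i
    have b1 := hB1 i
    have p0 := h0 i
    have p1 := h1 i
    rw [← hM0] at a0 b0 p0
    rw [← hM1] at a1 b1 p1
    rw [← hM0, ← hM1]
    have k0 : 1 ≤ m i / M0 := by rw [le_div_iff₀ p0]; linarith
    have k1 : 1 ≤ m' i / M1 := by rw [le_div_iff₀ p1]; linarith
    have s0 : 1 ≤ Real.sqrt (m i / M0) := by
      rw [Real.le_sqrt (by norm_num) (by linarith)]; linarith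
    have s1 : 1 ≤ Real.sqrt (m' i / M1) := by
      rw [Real.le_sqrt (by norm_num) (by linarith)]; linarith
    have e0 : Real.sqrt M0 = Real.sqrt (m i) / Real.sqrt (m i / M0) := by
      rw [← Real.sqrt_div (hm i).le]
      congr 1
      have := (hm i).ne'
      field_simp
    have e1' : Real.sqrt M1 = Real.sqrt (m' i) / Real.sqrt (m' i / M1) := by
      rw [← Real.sqrt_div (hm' i).le]
      congr 1
      have := (hm' i).ne'
      field_simp
    have hsp := sqrt_split (a := Real.sqrt (m i)) (a' := Real.sqrt (m' i)) s0 s1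
    rw [← e0, ← e1', Real.sq_sqrt (hm' i).le, Real.sq_sqrt (by linarith : 0 ≤ m' i / M1),
      Real.sq_sqrt (by linarith : 0 ≤ m i / M0)] at hsp
    have hsq := sqrt_sub_sq_le (hm i) (hm' i).le
    -- m' ≤ 2 sqrt (M0 M1)
    have hmm : m' i ≤ 2 * Real.sqrt (M0 * M1) := by
      have h4 : (m' i / 2) ^ 2 ≤ M0 * M1 := by
        have c1 : m' i ≤ e1 * M1 := b1
        have c2 : M1 ≤ 2 * (e1 * M0) := by linarith [hm2 i]
        have c3 : m' i ^ 2 ≤ (e1 * M1) * (e1 * (2 * (e1 * M0))) := by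
          have : m' i ≤ e1 * (2 * (e1 * M0)) :=
            c1.trans (mul_le_mul_of_nonneg_left c2 (by linarith))
          rw [sq]
          exact mul_le_mul c1 this (hm' i).le (by positivity)
        have c4 : e1 ^ 3 ≤ 2 := by
          calc e1 ^ 3 ≤ (16 / 15 : ℝ) ^ 3 := by gcongr
            _ ≤ 2 := by norm_num
        have c5 : 0 < M0 * M1 := by positivity
        nlinarith
      have := (Real.le_sqrt (by linarith [hm' i]) (by positivity)).mpr h4
      linarith
    have hnn : 0 ≤ (m' i / M1 - m i / M0) ^ 2 := sq_nonneg _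
    nlinarith
  have hsum : ∑ i, (Real.sqrt (gmass K lam p w i) - Real.sqrt (gmass K lam p w' i)) ^ 2
      ≤ 2 * ∑ i, (m' i - m i) ^ 2 / m i + ∑ i, Real.sqrt (gmass K lam p w i * gmass K lam p w' i) *
        (m' i / gmass K lam p w' i - m i / gmass K lam p w i) ^ 2 := by
    rw [Finset.mul_sum, ← Finset.sum_add_distrib]
    exact Finset.sum_le_sum fun i _ => hper i
  have hS : ∑ i, Real.sqrt (gmass K lam p w i * gmass K lam p w' i) *
        (m' i / gmass K lam p w' i - m i / gmass K lam p w i) ^ 2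
      ≤ e1 ^ 2 * hell K lam p w w' := by
    rw [div_mul_eq_mul_div, one_mul, div_le_iff₀ (by positivity)] at hT
    linarith
  have hH : hell K lam p w w' = 1 / 2 * ∑ i, (Real.sqrt (gmass K lam p w i)
      - Real.sqrt (gmass K lam p w' i)) ^ 2 := rfl
  have hH0 : 0 ≤ hell K lam p w w' := by
    rw [hH]
    have : 0 ≤ ∑ i, (Real.sqrt (gmass K lam p w i) - Real.sqrt (gmass K lam p w' i)) ^ 2 :=
      Finset.sum_nonneg fun i _ => sq_nonneg _
    linarith
  have he2 : e1 ^ 2 ≤ 3 / 2 := by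
    calc e1 ^ 2 ≤ (16 / 15 : ℝ) ^ 2 := by gcongr
      _ ≤ 3 / 2 := by norm_num
  have : e1 ^ 2 * hell K lam p w w' ≤ 3 / 2 * hell K lam p w w' :=
    mul_le_mul_of_nonneg_right he2 hH0
  linarith

end Vale.Agent.P074
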