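import Mathlib
import Vale.Agent.P074.Third.BM1

open MeasureTheory

namespace Vale.Agent.P074.Third

theorem layer_cake_le_one (u : ℝ → ENNReal) (hu : Measurable u) (hu1 : ∀ x, u x ≤ 1) :
    ∫⁻ x, u x = ∫⁻ t in Set.Ioi (0:ℝ), volume {x | ENNReal.ofReal t < u x} := by
  have hne : ∀ x, u x ≠ ⊤ := fun x => ne_top_of_le_ne_top ENNReal.one_ne_top (hu1 x)
  have := lintegral_eq_lintegral_meas_lt volume (f := fun x => (u x).toReal)
    (Filter.Eventually.of_forall fun x => ENNReal.toReal_nonneg) hu.ennreal_toReal.aemeasurable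
  simp_rw [ENNReal.ofReal_toReal (hne _)] at this
  rw [this]
  refine setLIntegral_congr_fun measurableSet_Ioi fun t ht => ?_
  congr 1
  ext x
  simp only [Set.mem_ofPred_eq]
  rw [ENNReal.ofReal_lt_iff_lt_toReal (le_of_lt ht) (hne x)]

theorem pl_norm (f g h : ℝ → ENNReal) (hf : Measurable f) (hg : Measurable g) (hh : Measurable h)
    (hf1 : ∀ x, f x ≤ 1) (hf2 : ∀ t : ENNReal, t < 1 → ∃ x, t < f x)
    (hg1 : ∀ x, g x ≤ 1) (hg2 : ∀ t : ENNReal, t < 1 → ∃ x, t < g x)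
    (H : ∀ x y, f x * g y ≤ h ((1/2 : ℝ) • (x + y)) ^ 2) :
    (∫⁻ x, f x) + (∫⁻ x, g x) ≤ 2 * ∫⁻ x, h x := by
  have hm : Measurable fun x => min (h x) 1 := hh.min measurable_const
  have hle : ∫⁻ x, min (h x) 1 ≤ ∫⁻ x, h x := lintegral_mono fun x => min_le_left _ _
  refine le_trans ?_ (mul_le_mul_right hle 2)
  rw [layer_cake_le_one f hf hf1, layer_cake_le_one g hg hg1,
    layer_cake_le_one _ hm (fun x => min_le_right _ _)]
  have hanti : ∀ u : ℝ → ENNReal, Measurable fun t : ℝ => volume {x | ENNReal.ofReal t < u x} := by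
    intro u
    apply Antitone.measurable
    intro s t hst
    apply measure_mono
    intro x hx
    exact lt_of_le_of_lt (ENNReal.ofReal_le_ofReal hst) hx
  rw [← lintegral_add_left (hanti f), ← lintegral_const_mul _ (hanti _)]
  refine setLIntegral_mono' measurableSet_Ioi fun t ht => ?_
  by_cases ht1 : ENNReal.ofReal t < 1
  · refine bm_one _ _ _ (measurableSet_lt measurable_const hf) (measurableSet_lt measurable_const hg)
      (measurableSet_lt measurable_const hm) (hf2 _ ht1) (hg2 _ ht1) ?_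
    intro a ha b hb
    simp only [Set.mem_ofPred_eq] at ha hb ⊢
    refine lt_min ?_ ht1
    have h1 : ENNReal.ofReal t * ENNReal.ofReal t < f a * g b := ENNReal.mul_lt_mul ha hb
    have h2 := lt_of_lt_of_le h1 (H a b)
    rw [← sq] at h2
    by_contra hc
    exact absurd (pow_le_pow_left' (not_lt.mp hc) 2) (not_le.mpr h2)
  · have e1 : {x | ENNReal.ofReal t < f x} = ∅ := by
      ext x
      simp only [Set.mem_ofPred_eq, Set.mem_empty_iff_false, iff_false, not_lt]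
      exact (hf1 x).trans (not_lt.mp ht1)
    have e2 : {x | ENNReal.ofReal t < g x} = ∅ := by
      ext x
      simp only [Set.mem_ofPred_eq, Set.mem_empty_iff_false, iff_false, not_lt]
      exact (hg1 x).trans (not_lt.mp ht1)
    rw [e1, e2]
    simp

theorem four_mul_le_add_sq (x y : ENNReal) : 4 * (x * y) ≤ (x + y) ^ 2 := by
  induction x using ENNReal.recTopCoe with
  | top => simp
  | coe x =>
    induction y using ENNReal.recTopCoe with
    | top => simp
    | coe y =>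
      have h : 4 * (x * y) ≤ (x + y) ^ 2 := by
        rw [← NNReal.coe_le_coe]
        push_cast
        nlinarith [sq_nonneg ((x : ℝ) - y)]
      exact_mod_cast h

theorem pl_bdd (f g h : ℝ → ENNReal) (hf : Measurable f) (hg : Measurable g) (hh : Measurable h)
    (hfb : (⨆ x, f x) ≠ ⊤) (hgb : (⨆ x, g x) ≠ ⊤)
    (H : ∀ x y, f x * g y ≤ h ((1/2 : ℝ) • (x + y)) ^ 2) :
    (∫⁻ x, f x) * (∫⁻ x, g x) ≤ (∫⁻ x, h x) ^ 2 := by
  set a := ⨆ x, f x with ha
  set b := ⨆ x, g x with hb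
  by_cases ha0 : a = 0
  · have : ∀ x, f x = 0 := fun x => le_antisymm (ha0 ▸ le_iSup f x) (zero_le)
    simp [this]
  by_cases hb0 : b = 0
  · have : ∀ x, g x = 0 := fun x => le_antisymm (hb0 ▸ le_iSup g x) (zero_le)
    simp [this]
  set c : ENNReal := (a * b) ^ (1/2 : ℝ) with hc
  have hc2 : c ^ 2 = a * b := by
    rw [hc, ← ENNReal.rpow_natCast, ← ENNReal.rpow_mul]
    norm_num
  have hinv : (c⁻¹) ^ 2 = a⁻¹ * b⁻¹ := by
    rw [← ENNReal.inv_pow, hc2, ENNReal.mul_inv (Or.inl ha0) (Or.inl hfb)]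
  have key := pl_norm (fun x => f x * a⁻¹) (fun x => g x * b⁻¹) (fun x => h x * c⁻¹)
    (hf.mul_const _) (hg.mul_const _) (hh.mul_const _) ?_ ?_ ?_ ?_ ?_
  · rw [lintegral_mul_const _ hf, lintegral_mul_const _ hg, lintegral_mul_const _ hh] at key
    set I := ∫⁻ x, f x
    set J := ∫⁻ x, g x
    set K := ∫⁻ x, h x
    have h1 : 4 * ((I * a⁻¹) * (J * b⁻¹)) ≤ (2 * (K * c⁻¹)) ^ 2 :=
      (four_mul_le_add_sq _ _).trans (pow_le_pow_left' key 2)
    have h2 : (4 * (a⁻¹ * b⁻¹)) * (I * J) ≤ (4 * (a⁻¹ * b⁻¹)) * K ^ 2 := by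
      calc (4 * (a⁻¹ * b⁻¹)) * (I * J) = 4 * ((I * a⁻¹) * (J * b⁻¹)) := by ring
        _ ≤ (2 * (K * c⁻¹)) ^ 2 := h1
        _ = 4 * (c⁻¹ ^ 2) * K ^ 2 := by ring
        _ = (4 * (a⁻¹ * b⁻¹)) * K ^ 2 := by rw [hinv]
    have hk0 : 4 * (a⁻¹ * b⁻¹) ≠ 0 := by
      simp [hfb, hgb]
    have hkt : 4 * (a⁻¹ * b⁻¹) ≠ ⊤ := by
      refine ENNReal.mul_ne_top (by norm_num) (ENNReal.mul_ne_top ?_ ?_)
      · simpa using ha0
      · simpa using hb0
    exact (ENNReal.mul_le_mul_iff_right hk0 hkt).1 h2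
  · intro x
    rw [← div_eq_mul_inv]
    exact ENNReal.div_le_of_le_mul (by rw [one_mul]; exact le_iSup f x)
  · intro t ht
    have h1 : t * a < a := by
      calc t * a < 1 * a := (ENNReal.mul_lt_mul_iff_left ha0 hfb).2 ht
        _ = a := one_mul a
    obtain ⟨x, hx⟩ := lt_iSup_iff.1 h1
    refine ⟨x, ?_⟩
    rw [← div_eq_mul_inv]
    exact (ENNReal.lt_div_iff_mul_lt (Or.inl ha0) (Or.inl hfb)).2 hx
  · intro x
    rw [← div_eq_mul_inv]
    exact ENNReal.div_le_of_le_mul (by rw [one_mul]; exact le_iSup g x)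
  · intro t ht
    have h1 : t * b < b := by
      calc t * b < 1 * b := (ENNReal.mul_lt_mul_iff_left hb0 hgb).2 ht
        _ = b := one_mul b
    obtain ⟨x, hx⟩ := lt_iSup_iff.1 h1
    refine ⟨x, ?_⟩
    rw [← div_eq_mul_inv]
    exact (ENNReal.lt_div_iff_mul_lt (Or.inl hb0) (Or.inl hgb)).2 hx
  · intro x y
    calc f x * a⁻¹ * (g y * b⁻¹) = (f x * g y) * (a⁻¹ * b⁻¹) := by ring
      _ ≤ h ((1/2 : ℝ) • (x + y)) ^ 2 * (a⁻¹ * b⁻¹) := mul_le_mul_left (H x y) _
      _ = (h ((1/2 : ℝ) • (x + y)) * c⁻¹) ^ 2 := by rw [mul_pow, hinv]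

theorem pl_one (f g h : ℝ → ENNReal) (hf : Measurable f) (hg : Measurable g)
    (hh : Measurable h) (H : ∀ x y, f x * g y ≤ h ((1/2 : ℝ) • (x + y)) ^ 2) :
    (∫⁻ x, f x) * (∫⁻ x, g x) ≤ (∫⁻ x, h x) ^ 2 := by
  have trunc : ∀ u : ℝ → ENNReal, Measurable u →
      ∫⁻ x, u x = ⨆ N : ℕ, ∫⁻ x, min (u x) N := by
    intro u hu
    rw [← lintegral_iSup (fun N => hu.min measurable_const)]
    · refine lintegral_congr fun x => ?_
      refine le_antisymm ?_ (iSup_le fun N => min_le_left _ _)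
      by_cases hx : u x = ⊤
      · rw [hx]
        simp only [le_top, inf_of_le_right]
        rw [ENNReal.iSup_natCast]
      · obtain ⟨N, hN⟩ := ENNReal.exists_nat_gt hx
        exact le_iSup_of_le N (le_min le_rfl hN.le)
    · intro M N hMN x
      exact min_le_min le_rfl (by exact_mod_cast hMN)
  rw [trunc f hf, trunc g hg]
  rw [ENNReal.iSup_mul]
  refine iSup_le fun M => ?_
  rw [ENNReal.mul_iSup]
  refine iSup_le fun N => ?_
  refine pl_bdd _ _ h (hf.min measurable_const) (hg.min measurable_const) hh ?_ ?_ ?_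
  · exact ne_top_of_le_ne_top (ENNReal.natCast_ne_top M) (iSup_le fun x => min_le_right _ _)
  · exact ne_top_of_le_ne_top (ENNReal.natCast_ne_top N) (iSup_le fun x => min_le_right _ _)
  · intro x y
    exact (mul_le_mul' (min_le_left _ _) (min_le_left _ _)).trans (H x y)

end Vale.Agent.P074.Third
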