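import Mathlib
import Vale.Agent.P074.Third.PL1

open MeasureTheory

namespace Vale.Agent.P074.Third

theorem lintegral_succ {n : ℕ} (f : (Fin (n+1) → ℝ) → ENNReal) (hf : Measurable f) :
    ∫⁻ x, f x = ∫⁻ t : ℝ, ∫⁻ z : Fin n → ℝ, f (Fin.cons t z) := by
  have e := (volume_preserving_piFinSuccAbove (fun _ : Fin (n+1) => ℝ) 0).symm
  rw [← e.lintegral_comp hf]
  rw [Measure.volume_eq_prod]
  rw [lintegral_prod (fun a => f ((MeasurableEquiv.piFinSuccAbove (fun _ => ℝ) 0).symm a))
    (hf.comp (MeasurableEquiv.measurable _)).aemeasurable]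
  refine lintegral_congr fun t => lintegral_congr fun z => ?_
  congr 1
  simp [MeasurableEquiv.piFinSuccAbove, Fin.insertNthEquiv]

theorem measurable_cons_marg {n : ℕ} (f : (Fin (n+1) → ℝ) → ENNReal) (hf : Measurable f) :
    Measurable fun t : ℝ => ∫⁻ z : Fin n → ℝ, f (Fin.cons t z) := by
  have h1 : Measurable fun p : ℝ × (Fin n → ℝ) => (Fin.cons p.1 p.2 : Fin (n+1) → ℝ) := by
    rw [measurable_pi_iff]
    intro i
    refine Fin.cases ?_ (fun j => ?_) i
    · simpa using measurable_fst
    · simpa [Function.comp_def] using (measurable_pi_apply j).comp measurable_snd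
  exact (hf.comp h1).lintegral_prod_right'

theorem measurable_cons_sec {n : ℕ} (f : (Fin (n+1) → ℝ) → ENNReal) (hf : Measurable f) (t : ℝ) :
    Measurable fun z : Fin n → ℝ => f (Fin.cons t z) := by
  have h1 : Measurable fun z : (Fin n → ℝ) => (Fin.cons t z : Fin (n+1) → ℝ) := by
    rw [measurable_pi_iff]
    intro i
    refine Fin.cases ?_ (fun j => ?_) i
    · simp
    · simpa using (measurable_pi_apply j)
  exact hf.comp h1

theorem pl_pi (n : ℕ) : ∀ (f g h : (Fin n → ℝ) → ENNReal) (_ : Measurable f) (_ : Measurable g)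
    (_ : Measurable h) (_ : ∀ x y, f x * g y ≤ h ((1/2 : ℝ) • (x + y)) ^ 2),
    (∫⁻ x, f x) * (∫⁻ x, g x) ≤ (∫⁻ x, h x) ^ 2 := by
  induction n with
  | zero =>
    intro f g h hf hg hh H
    rw [Measure.volume_pi_eq_dirac 0, lintegral_dirac, lintegral_dirac, lintegral_dirac]
    have := H 0 0
    simpa using this
  | succ n ih =>
    intro f g h hf hg hh H
    rw [lintegral_succ f hf, lintegral_succ g hg, lintegral_succ h hh]
    refine pl_one _ _ _ (measurable_cons_marg f hf) (measurable_cons_marg g hg)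
      (measurable_cons_marg h hh) ?_
    intro s t
    refine ih _ _ _ (measurable_cons_sec f hf s) (measurable_cons_sec g hg t)
      (measurable_cons_sec h hh _) ?_
    intro z w
    have h2 : (Fin.cons ((1/2 : ℝ) • (s + t)) ((1/2 : ℝ) • (z + w)) : Fin (n+1) → ℝ)
        = (1/2 : ℝ) • ((Fin.cons s z : Fin (n+1) → ℝ) + Fin.cons t w) := by
      funext i
      refine Fin.cases ?_ (fun j => ?_) i
      · simp
      · simp [mul_add]
    rw [h2]
    exact H _ _

end Vale.Agent.P074.Third

namespace Vale.Agent.P074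

open scoped ENNReal

/-- Prekopa-Leindler inequality, midpoint form. -/
theorem prekopa_leindler_mid {d : ℕ} (f g h : EuclideanSpace ℝ (Fin d) → ℝ≥0∞)
    (hf : Measurable f) (hg : Measurable g) (hh : Measurable h)
    (H : ∀ x y, f x * g y ≤ h ((1 / 2 : ℝ) • (x + y)) ^ 2) :
    (∫⁻ x, f x) * (∫⁻ y, g y) ≤ (∫⁻ z, h z) ^ 2 := by
  have e := PiLp.volume_preserving_toLp (Fin d)
  rw [← e.lintegral_comp hf, ← e.lintegral_comp hg, ← e.lintegral_comp hh]
  refine Third.pl_pi d _ _ _ (hf.comp e.measurable) (hg.comp e.measurable)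
    (hh.comp e.measurable) ?_
  intro x y
  have := H (WithLp.toLp 2 x) (WithLp.toLp 2 y)
  simpa using this

end Vale.Agent.P074
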