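import Vale.Agent.P074.Third.Cells
import Vale.Agent.P074.Third.PL

open MeasureTheory
open scoped ENNReal NNReal RealInnerProductSpace

namespace Vale.Agent.P074

variable {d : ℕ} {ι : Type} [Fintype ι]

lemma gw_pos (lam : ℝ) (x : EE d) : 0 < gw lam x := Real.exp_pos _

lemma gw_le_one {lam : ℝ} (hlam : 0 ≤ lam) (x : EE d) : gw lam x ≤ 1 := by
  unfold gw
  rw [Real.exp_le_one_iff]
  have : 0 ≤ lam * ‖x‖ ^ 2 / 2 := by positivity
  linarith

lemma continuous_gw (lam : ℝ) : Continuous (gw lam : EE d → ℝ) := by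
  unfold gw
  fun_prop

lemma measurable_gw (lam : ℝ) : Measurable (gw lam : EE d → ℝ) := (continuous_gw lam).measurable

/-- Measurable functions which are bounded on `K` are integrable for `unif K`. -/
lemma integrable_unif_of_bound {K : Set (EE d)} (hK : IsCompact K) (hKi : (interior K).Nonempty)
    {F : EE d → ℝ} (hF : Measurable F) {C : ℝ} (hC : ∀ x ∈ K, |F x| ≤ C) :
    Integrable F (unif K) := by
  have := unif_isProbabilityMeasure hK hKi
  refine Integrable.of_bound (C := C) hF.aestronglyMeasurable ?_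
  filter_upwards [ae_mem_unif (d := d) hK.measurableSet] with x hx
  rw [Real.norm_eq_abs]
  exact hC x hx

lemma integrable_gw {K : Set (EE d)} (hK : IsCompact K) (hKi : (interior K).Nonempty)
    {lam : ℝ} (hlam : 0 ≤ lam) : Integrable (gw lam) (unif K) :=
  integrable_unif_of_bound hK hKi (measurable_gw lam) (C := 1) fun x _ => by
    rw [abs_of_pos (gw_pos lam x)]
    exact gw_le_one hlam x

lemma integrable_mul_gw {K : Set (EE d)} (hK : IsCompact K) (hKi : (interior K).Nonempty)
    {lam : ℝ} (hlam : 0 ≤ lam) {F : EE d → ℝ} (hF : Measurable F) {C : ℝ}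
    (hC : ∀ x ∈ K, |F x| ≤ C) : Integrable (fun x => F x * gw lam x) (unif K) :=
  integrable_unif_of_bound hK hKi (hF.mul (measurable_gw lam)) (C := C) fun x hx => by
    rw [abs_mul, abs_of_pos (gw_pos lam x)]
    calc |F x| * gw lam x ≤ |F x| * 1 :=
          mul_le_mul_of_nonneg_left (gw_le_one hlam x) (abs_nonneg _)
      _ ≤ C := by rw [mul_one]; exact hC x hx

lemma integrable_exp_mul_gw {K : Set (EE d)} (hK : IsCompact K) (hKi : (interior K).Nonempty)
    {lam : ℝ} (hlam : 0 ≤ lam) {F : EE d → ℝ} (hF : Measurable F) {C : ℝ}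
    (hC : ∀ x ∈ K, |F x| ≤ C) :
    Integrable (fun x => Real.exp (lam * F x / 4) * gw lam x) (unif K) := by
  refine integrable_mul_gw hK hKi hlam (F := fun x => Real.exp (lam * F x / 4))
    (C := Real.exp (lam * C / 4)) (by fun_prop) fun x hx => ?_
  rw [abs_of_pos (Real.exp_pos _), Real.exp_le_exp]
  have := (le_abs_self (F x)).trans (hC x hx)
  have := mul_le_mul_of_nonneg_left this hlam
  linarith

/-- Lebesgue integral of an indicator function against the integral for `unif K`. -/
lemma lintegral_indicator_eq_unif {K S : Set (EE d)} (hK : IsCompact K)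
    (hKi : (interior K).Nonempty) (hS : MeasurableSet S) (hSK : S ⊆ K) {F : EE d → ℝ}
    (hF : Integrable F (unif K)) (hF0 : ∀ x, 0 ≤ F x) :
    ∫⁻ x, S.indicator (fun x => ENNReal.ofReal (F x)) x
      = volume K * ENNReal.ofReal (∫ x in S, F x ∂(unif K)) := by
  have hv0 : volume K ≠ 0 :=
    (lt_of_lt_of_le (isOpen_interior.measure_pos volume hKi) (measure_mono interior_subset)).ne'
  have hvt : volume K ≠ ∞ := hK.measure_lt_top.ne
  rw [ofReal_integral_eq_lintegral_ofReal hF.integrableOn (Filter.Eventually.of_forall hF0),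
    lintegral_indicator hS]
  unfold unif
  rw [Measure.restrict_smul, Measure.restrict_restrict hS, Set.inter_eq_left.mpr hSK,
    lintegral_smul_measure, smul_eq_mul, ← mul_assoc, ENNReal.mul_inv_cancel hv0 hvt, one_mul]

/-- The pointwise inequality behind the application of Prekopa-Leindler. -/
lemma gw_mul_le {lam : ℝ} (hlam : 0 ≤ lam) {x y : EE d} {a b : ℝ} (hab : a + b ≤ ‖x - y‖ ^ 2) :
    (Real.exp (lam * a / 4) * gw lam x) * (Real.exp (lam * b / 4) * gw lam y)
      ≤ gw lam ((1 / 2 : ℝ) • (x + y)) ^ 2 := by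
  unfold gw
  rw [← Real.exp_add, ← Real.exp_add, ← Real.exp_add, ← Real.exp_nat_mul, Real.exp_le_exp]
  have h1 : ‖(1 / 2 : ℝ) • (x + y)‖ ^ 2 = ‖x + y‖ ^ 2 / 4 := by
    rw [norm_smul, mul_pow, Real.norm_eq_abs, sq_abs]
    ring
  have h2 : ‖x + y‖ ^ 2 + ‖x - y‖ ^ 2 = 2 * (‖x‖ ^ 2 + ‖y‖ ^ 2) := by
    have := parallelogram_law_with_norm ℝ x y
    nlinarith [this]
  rw [h1]
  have h3 := mul_le_mul_of_nonneg_left hab hlam
  push_cast
  nlinarith [h2, h3]

/-- Prekopa-Leindler for three subsets of `K`. -/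
lemma pl_sets {K A B C : Set (EE d)} (hK : IsCompact K) (hKi : (interior K).Nonempty)
    (hA : MeasurableSet A) (hB : MeasurableSet B) (hC : MeasurableSet C)
    (hAK : A ⊆ K) (hBK : B ⊆ K) (hCK : C ⊆ K)
    (hmid : ∀ x ∈ A, ∀ y ∈ B, (1 / 2 : ℝ) • (x + y) ∈ C) {lam : ℝ} (hlam : 0 ≤ lam)
    {α β : EE d → ℝ} (hα : Measurable α) (hβ : Measurable β) {Bd : ℝ}
    (hαB : ∀ x ∈ K, |α x| ≤ Bd) (hβB : ∀ x ∈ K, |β x| ≤ Bd)
    (hab : ∀ x ∈ A, ∀ y ∈ B, α x + β y ≤ ‖x - y‖ ^ 2) :
    (∫ x in A, Real.exp (lam * α x / 4) * gw lam x ∂(unif K))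
        * (∫ x in B, Real.exp (lam * β x / 4) * gw lam x ∂(unif K))
      ≤ (∫ x in C, gw lam x ∂(unif K)) ^ 2 := by
  have hv0 : volume K ≠ 0 :=
    (lt_of_lt_of_le (isOpen_interior.measure_pos volume hKi) (measure_mono interior_subset)).ne'
  have hvt : volume K ≠ ∞ := hK.measure_lt_top.ne
  have key := prekopa_leindler_mid
    (A.indicator fun x => ENNReal.ofReal (Real.exp (lam * α x / 4) * gw lam x))
    (B.indicator fun x => ENNReal.ofReal (Real.exp (lam * β x / 4) * gw lam x))
    (C.indicator fun x => ENNReal.ofReal (gw lam x))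
    (Measurable.indicator (by have := measurable_gw (d := d) lam; fun_prop) hA)
    (Measurable.indicator (by have := measurable_gw (d := d) lam; fun_prop) hB)
    (Measurable.indicator (by have := measurable_gw (d := d) lam; fun_prop) hC)
    (by
      intro x y
      by_cases hx : x ∈ A
      · by_cases hy : y ∈ B
        · rw [Set.indicator_of_mem hx, Set.indicator_of_mem hy,
            Set.indicator_of_mem (hmid x hx y hy),
            ← ENNReal.ofReal_mul (by have := gw_pos lam x; positivity),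
            ← ENNReal.ofReal_pow (gw_pos lam _).le]
          exact ENNReal.ofReal_le_ofReal (gw_mul_le hlam (hab x hx y hy))
        · rw [Set.indicator_of_notMem hy, mul_zero]
          exact zero_le
      · rw [Set.indicator_of_notMem hx, zero_mul]
        exact zero_le)
  rw [lintegral_indicator_eq_unif hK hKi hA hAK (integrable_exp_mul_gw hK hKi hlam hα hαB)
      (fun x => by have := gw_pos lam x; positivity),
    lintegral_indicator_eq_unif hK hKi hB hBK (integrable_exp_mul_gw hK hKi hlam hβ hβB)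
      (fun x => by have := gw_pos lam x; positivity),
    lintegral_indicator_eq_unif hK hKi hC hCK (integrable_gw hK hKi hlam)
      (fun x => (gw_pos lam x).le)] at key
  have hIA : 0 ≤ ∫ x in A, Real.exp (lam * α x / 4) * gw lam x ∂(unif K) :=
    integral_nonneg fun x => by have := gw_pos lam x; positivity
  have hIC : 0 ≤ ∫ x in C, gw lam x ∂(unif K) := integral_nonneg fun x => (gw_pos lam x).le
  have key2 : volume K ^ 2 * ENNReal.ofReal
        ((∫ x in A, Real.exp (lam * α x / 4) * gw lam x ∂(unif K))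
          * (∫ x in B, Real.exp (lam * β x / 4) * gw lam x ∂(unif K)))
      ≤ volume K ^ 2 * ENNReal.ofReal ((∫ x in C, gw lam x ∂(unif K)) ^ 2) := by
    rw [ENNReal.ofReal_mul hIA, ENNReal.ofReal_pow hIC]
    calc _ = _ := by ring
      _ ≤ _ := key
      _ = _ := by ring
  rw [ENNReal.mul_le_mul_iff_right (pow_ne_zero 2 hv0) (ENNReal.pow_ne_top hvt)] at key2
  exact (ENNReal.ofReal_le_ofReal_iff (by positivity)).mp key2

/-- Jensen's inequality for `exp` and the Gaussian probability measure on `A`. -/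
lemma jensen_exp_gw {K A : Set (EE d)} (hK : IsCompact K) (hKi : (interior K).Nonempty)
    {lam : ℝ} (hlam : 0 ≤ lam) {α : EE d → ℝ} (hα : Measurable α) {Bd : ℝ}
    (hαB : ∀ x ∈ K, |α x| ≤ Bd) (hM : 0 < ∫ x in A, gw lam x ∂(unif K)) :
    (∫ x in A, gw lam x ∂(unif K))
        * Real.exp (lam / 4 * ((∫ x in A, α x * gw lam x ∂(unif K)) / ∫ x in A, gw lam x ∂(unif K)))
      ≤ ∫ x in A, Real.exp (lam * α x / 4) * gw lam x ∂(unif K) := by
  set M := ∫ x in A, gw lam x ∂(unif K) with hMdef
  set J := ∫ x in A, α x * gw lam x ∂(unif K) with hJdef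
  set t0 := lam / 4 * (J / M) with ht0
  have i1 : IntegrableOn (gw lam) A (unif K) := (integrable_gw hK hKi hlam).integrableOn
  have i2 : IntegrableOn (fun x => α x * gw lam x) A (unif K) :=
    (integrable_mul_gw hK hKi hlam hα hαB).integrableOn
  have i3 : IntegrableOn (fun x => Real.exp (lam * α x / 4) * gw lam x) A (unif K) :=
    (integrable_exp_mul_gw hK hKi hlam hα hαB).integrableOn
  have e1 : ∫ x in A, Real.exp t0 * ((1 - t0) * gw lam x + lam / 4 * (α x * gw lam x)) ∂(unif K)
      = M * Real.exp t0 := by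
    rw [integral_const_mul, integral_add (i1.const_mul _) (i2.const_mul _), integral_const_mul,
      integral_const_mul, ← hMdef, ← hJdef]
    have : t0 * M = lam / 4 * J := by
      rw [ht0]
      field_simp
    linear_combination (-Real.exp t0) * this
  rw [← e1]
  refine integral_mono (((i1.const_mul _).add (i2.const_mul _)).const_mul _) i3 fun x => ?_
  have h1 : Real.exp (lam * α x / 4) = Real.exp t0 * Real.exp (lam * α x / 4 - t0) := by
    rw [← Real.exp_add]
    congr 1
    ring
  have h2 := Real.add_one_le_exp (lam * α x / 4 - t0)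
  have h3 := gw_pos lam x
  simp only
  rw [h1]
  have h4 : Real.exp t0 * ((1 - t0) * gw lam x + lam / 4 * (α x * gw lam x))
      = Real.exp t0 * (lam * α x / 4 - t0 + 1) * gw lam x := by ring
  rw [h4]
  exact mul_le_mul_of_nonneg_right (mul_le_mul_of_nonneg_left h2 (Real.exp_pos _).le) h3.le

/-- Main consequence of Prekopa-Leindler for two families of Laguerre cells with the same sites.
For each `i` apply `prekopa_leindler_mid` to
`f = 1_{cell w0 i} exp (-lam |x|^2/2 + lam α_i/4)`, `g = 1_{cell w1 i} exp (-lam |x|^2/2 + lam β_i/4)`,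
`h = 1_{cell ((w0+w1)/2) i} exp (-lam |z|^2/2)`
(use `|x|^2/2 + |x'|^2/2 - |x-x'|^2/4 = |(x+x')/2|^2` and `midpoint_mem_cell`), then Jensen for `exp`
on each cell, sum over `i` (the middle cells are essentially disjoint subsets of `K`), use
`∑ M0 = ∑ M1 = ∫ gw` and `exp t ≥ 1 + t`. -/
theorem hellinger_cells [Nonempty ι] {K : Set (EE d)} (hK : IsCompact K) (hKc : Convex ℝ K)
    (hKi : (interior K).Nonempty) {p : ι → EE d} (hp : Function.Injective p) {lam : ℝ}
    (hlam : 0 ≤ lam) (w0 w1 : ι → ℝ) (α β : ι → EE d → ℝ) (hα : ∀ i, Measurable (α i))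
    (hβ : ∀ i, Measurable (β i)) {B : ℝ} (hαB : ∀ i, ∀ x ∈ K, |α i x| ≤ B)
    (hβB : ∀ i, ∀ x ∈ K, |β i x| ≤ B)
    (hab : ∀ i, ∀ x ∈ cell K p w0 i, ∀ x' ∈ cell K p w1 i, α i x + β i x' ≤ ‖x - x'‖ ^ 2)
    (h0 : ∀ i, 0 < gmass K lam p w0 i) (h1 : ∀ i, 0 < gmass K lam p w1 i) :
    lam / 8 * ∑ i, Real.sqrt (gmass K lam p w0 i * gmass K lam p w1 i) *
        ((∫ x in cell K p w0 i, α i x * gw lam x ∂(unif K)) / gmass K lam p w0 i
          + (∫ x in cell K p w1 i, β i x * gw lam x ∂(unif K)) / gmass K lam p w1 i)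
      ≤ 1 / 2 * ∑ i, (Real.sqrt (gmass K lam p w0 i) - Real.sqrt (gmass K lam p w1 i)) ^ 2 := by
  set wm : ι → ℝ := fun j => (w0 j + w1 j) / 2 with hwm
  -- the estimate on each cell
  have cellwise : ∀ i, Real.sqrt (gmass K lam p w0 i * gmass K lam p w1 i) *
      (1 + lam / 8 * ((∫ x in cell K p w0 i, α i x * gw lam x ∂(unif K)) / gmass K lam p w0 i
          + (∫ x in cell K p w1 i, β i x * gw lam x ∂(unif K)) / gmass K lam p w1 i))
      ≤ gmass K lam p wm i := by
    intro i
    set a := (∫ x in cell K p w0 i, α i x * gw lam x ∂(unif K)) / gmass K lam p w0 i with ha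
    set b := (∫ x in cell K p w1 i, β i x * gw lam x ∂(unif K)) / gmass K lam p w1 i with hb
    have hpl := pl_sets hK hKi (measurableSet_cell hK.isClosed p w0 i)
      (measurableSet_cell hK.isClosed p w1 i) (measurableSet_cell hK.isClosed p wm i)
      (cell_subset K p w0 i) (cell_subset K p w1 i) (cell_subset K p wm i)
      (fun x hx y hy => midpoint_mem_cell hKc hx hy) hlam (hα i) (hβ i) (hαB i) (hβB i) (hab i)
    have hj0 := jensen_exp_gw (A := cell K p w0 i) hK hKi hlam (hα i) (hαB i) (h0 i)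
    have hj1 := jensen_exp_gw (A := cell K p w1 i) hK hKi hlam (hβ i) (hβB i) (h1 i)
    have hm0 : 0 ≤ gmass K lam p wm i := integral_nonneg fun x => (gw_pos lam x).le
    change gmass K lam p w0 i * Real.exp (lam / 4 * a) ≤ _ at hj0
    change gmass K lam p w1 i * Real.exp (lam / 4 * b) ≤ _ at hj1
    change _ ≤ gmass K lam p wm i ^ 2 at hpl
    have h2 : (gmass K lam p w0 i * Real.exp (lam / 4 * a))
        * (gmass K lam p w1 i * Real.exp (lam / 4 * b)) ≤ gmass K lam p wm i ^ 2 :=
      (mul_le_mul hj0 hj1 (mul_pos (h1 i) (Real.exp_pos _)).le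
        ((mul_pos (h0 i) (Real.exp_pos _)).le.trans hj0)).trans hpl
    have h3 : (Real.sqrt (gmass K lam p w0 i * gmass K lam p w1 i)
        * Real.exp (lam / 8 * (a + b))) ^ 2 ≤ gmass K lam p wm i ^ 2 := by
      rw [mul_pow, Real.sq_sqrt (mul_pos (h0 i) (h1 i)).le, ← Real.exp_nat_mul]
      refine le_trans (le_of_eq ?_) h2
      have : ((2 : ℕ) : ℝ) * (lam / 8 * (a + b)) = lam / 4 * a + lam / 4 * b := by
        push_cast
        ring
      rw [this, Real.exp_add]
      ring
    have h4 := abs_le_of_sq_le_sq' h3 hm0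
    refine le_trans ?_ h4.2
    refine mul_le_mul_of_nonneg_left ?_ (Real.sqrt_nonneg _)
    have := Real.add_one_le_exp (lam / 8 * (a + b))
    linarith
  -- the three decompositions of the total Gaussian mass
  have hg := integrable_gw (d := d) hK hKi hlam
  have s0 : ∫ x, gw lam x ∂(unif K) = ∑ i, gmass K lam p w0 i := integral_eq_sum_cells hK hp w0 hg
  have s1 : ∫ x, gw lam x ∂(unif K) = ∑ i, gmass K lam p w1 i := integral_eq_sum_cells hK hp w1 hg
  have sm : ∫ x, gw lam x ∂(unif K) = ∑ i, gmass K lam p wm i := integral_eq_sum_cells hK hp wm hg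
  have hsum := Finset.sum_le_sum fun i (_ : i ∈ Finset.univ) => cellwise i
  rw [← sm] at hsum
  have e2 : ∀ i, (Real.sqrt (gmass K lam p w0 i) - Real.sqrt (gmass K lam p w1 i)) ^ 2
      = gmass K lam p w0 i + gmass K lam p w1 i
        - 2 * Real.sqrt (gmass K lam p w0 i * gmass K lam p w1 i) := by
    intro i
    rw [Real.sqrt_mul (h0 i).le, sub_sq, Real.sq_sqrt (h0 i).le, Real.sq_sqrt (h1 i).le]
    ring
  simp only [e2, mul_add, mul_one, Finset.sum_add_distrib, Finset.sum_sub_distrib,
    ← Finset.mul_sum] at hsum ⊢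
  rw [← s0, ← s1]
  simp only [Finset.mul_sum] at hsum ⊢
  have e3 : ∀ (u v : ι → ℝ), ∑ i, lam / 8 * (u i * v i) = ∑ i, u i * (lam / 8 * v i) := by
    intro u v
    exact Finset.sum_congr rfl fun i _ => by ring
  rw [e3, e3, ← Finset.mul_sum]
  linarith

end Vale.Agent.P074
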