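import Vale.Agent.P074.Third.Fisher

open MeasureTheory
open scoped ENNReal NNReal RealInnerProductSpace

namespace Vale.Agent.P074

variable {d : ℕ} {ι : Type} [Fintype ι]

lemma integrable_id_unif_ms {K : Set (EE d)} (hK : IsCompact K) (hKi : (interior K).Nonempty) {r : ℝ}
    (hKr : ∀ x ∈ K, ‖x‖ ≤ r) : Integrable (fun x : EE d => x) (unif K) :=
  integrable_of_bdd_on hK hKi continuous_id.aestronglyMeasurable hKr

omit [Fintype ι] in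
lemma setIntegral_test_mom {K : Set (EE d)} (hK : IsCompact K) (hKi : (interior K).Nonempty)
    {r : ℝ} (hKr : ∀ x ∈ K, ‖x‖ ≤ r) (lam : ℝ) (p : ι → EE d) (w : ι → ℝ) (i : ι) (u : EE d) :
    ∫ x in cell K p w i, (kap lam x * ⟪u, x⟫) * gw lam x ∂(unif K) = ⟪u, mom K p w i⟫ := by
  have e : ∀ x : EE d, (kap lam x * ⟪u, x⟫) * gw lam x = ⟪u, x⟫ := by
    intro x
    have := kap_mul_gw lam x
    calc (kap lam x * ⟪u, x⟫) * gw lam x = (kap lam x * gw lam x) * ⟪u, x⟫ := by ring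
      _ = ⟪u, x⟫ := by rw [this, one_mul]
  simp only [e]
  unfold mom
  exact integral_inner (integrable_id_unif_ms hK hKi hKr).integrableOn u

lemma test_mom_lip {lam r : ℝ} (hlam : 0 ≤ lam) (hr : 0 ≤ r) {u x x' : EE d} (hu : ‖u‖ ≤ 1)
    (hx : ‖x‖ ≤ r) (hx' : ‖x'‖ ≤ r) :
    |kap lam x * ⟪u, x⟫ - kap lam x' * ⟪u, x'⟫|
      ≤ Real.exp (lam * r ^ 2 / 2) * (1 + lam * r ^ 2) * ‖x - x'‖ := by
  have e : kap lam x * ⟪u, x⟫ - kap lam x' * ⟪u, x'⟫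
      = kap lam x * ⟪u, x - x'⟫ + (kap lam x - kap lam x') * ⟪u, x'⟫ := by
    rw [inner_sub_right]; ring
  have h1 : |⟪u, x - x'⟫| ≤ ‖x - x'‖ := by
    calc |⟪u, x - x'⟫| ≤ ‖u‖ * ‖x - x'‖ := abs_real_inner_le_norm _ _
      _ ≤ 1 * ‖x - x'‖ := by gcongr
      _ = ‖x - x'‖ := one_mul _
  have h2 : |⟪u, x'⟫| ≤ r := by
    calc |⟪u, x'⟫| ≤ ‖u‖ * ‖x'‖ := abs_real_inner_le_norm _ _
      _ ≤ 1 * r := by gcongr
      _ = r := one_mul _
  have h3 := kap_lip hlam hx hx'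
  have h4 : |kap lam x| ≤ Real.exp (lam * r ^ 2 / 2) := by
    rw [abs_of_nonneg (by linarith [one_le_kap hlam x])]
    exact kap_le hlam hx
  rw [e]
  calc _ ≤ |kap lam x * ⟪u, x - x'⟫| + |(kap lam x - kap lam x') * ⟪u, x'⟫| := abs_add_le _ _
    _ = |kap lam x| * |⟪u, x - x'⟫| + |kap lam x - kap lam x'| * |⟪u, x'⟫| := by
        rw [abs_mul, abs_mul]
    _ ≤ Real.exp (lam * r ^ 2 / 2) * ‖x - x'‖
        + (lam * r * Real.exp (lam * r ^ 2 / 2) * ‖x - x'‖) * r := by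
        apply add_le_add
        · exact mul_le_mul h4 h1 (abs_nonneg _) (Real.exp_pos _).le
        · exact mul_le_mul h3 h2 (abs_nonneg _) (by positivity)
    _ = _ := by ring

/-- the per-cell estimate, in abstract form -/
lemma mom_diff_sq_le {G : Type*} [NormedAddCommGroup G] [NormedSpace ℝ G] {M0 M1 m c : ℝ}
    {a0 a1 : G} (hM0 : 0 < M0) (hM1 : 0 < M1) (hm : M0 ≤ m) (h94 : M1 ≤ 9 / 4 * M0)
    (ha0 : ‖a0‖ ≤ c * M0) :
    ‖a1 - a0‖ ^ 2 / m ≤ 27 / 4 * (Real.sqrt (M0 * M1) * ‖M1⁻¹ • a1 - M0⁻¹ • a0‖ ^ 2)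
      + 25 / 2 * c ^ 2 * (Real.sqrt M0 - Real.sqrt M1) ^ 2 := by
  have hmpos : 0 < m := by linarith
  have e : a1 - a0 = M1 • (M1⁻¹ • a1 - M0⁻¹ • a0) + (M1 - M0) • (M0⁻¹ • a0) := by
    rw [smul_sub, smul_smul, smul_smul, mul_inv_cancel₀ hM1.ne', one_smul, sub_smul, smul_smul,
      smul_smul, mul_inv_cancel₀ hM0.ne', one_smul]
    abel
  obtain ⟨D, hD⟩ : ∃ D, D = ‖M1⁻¹ • a1 - M0⁻¹ • a0‖ := ⟨_, rfl⟩
  have hD0 : 0 ≤ D := by rw [hD]; exact norm_nonneg _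
  have hv : ‖M0⁻¹ • a0‖ ≤ c := by
    rw [norm_smul, Real.norm_of_nonneg (by positivity), inv_mul_le_iff₀ hM0]
    linarith
  have h1 : ‖a1 - a0‖ ≤ M1 * D + |M1 - M0| * c := by
    rw [e]
    calc _ ≤ ‖M1 • (M1⁻¹ • a1 - M0⁻¹ • a0)‖ + ‖(M1 - M0) • (M0⁻¹ • a0)‖ := norm_add_le _ _
      _ = M1 * D + |M1 - M0| * ‖M0⁻¹ • a0‖ := by
          rw [norm_smul, norm_smul, Real.norm_of_nonneg hM1.le, Real.norm_eq_abs, hD]
      _ ≤ _ := by gcongr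
  have h2 : ‖a1 - a0‖ ^ 2 ≤ 2 * (M1 * D) ^ 2 + 2 * ((M1 - M0) ^ 2 * c ^ 2) := by
    have h3 : ‖a1 - a0‖ ^ 2 ≤ (M1 * D + |M1 - M0| * c) ^ 2 := by
      gcongr
    have h4 : (|M1 - M0| * c) ^ 2 = (M1 - M0) ^ 2 * c ^ 2 := by rw [mul_pow, sq_abs]
    nlinarith [sq_nonneg (M1 * D - |M1 - M0| * c)]
  rw [← hD]
  -- square roots
  obtain ⟨s0, hs0⟩ : ∃ s0, s0 = Real.sqrt M0 := ⟨_, rfl⟩
  obtain ⟨s1, hs1⟩ : ∃ s1, s1 = Real.sqrt M1 := ⟨_, rfl⟩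
  have hs0p : 0 < s0 := by rw [hs0]; exact Real.sqrt_pos.mpr hM0
  have hs1p : 0 < s1 := by rw [hs1]; exact Real.sqrt_pos.mpr hM1
  have q0 : s0 ^ 2 = M0 := by rw [hs0]; exact Real.sq_sqrt hM0.le
  have q1 : s1 ^ 2 = M1 := by rw [hs1]; exact Real.sq_sqrt hM1.le
  have hsm : Real.sqrt (M0 * M1) = s0 * s1 := by rw [Real.sqrt_mul hM0.le, hs0, hs1]
  rw [hsm, ← hs0, ← hs1]
  have h32 : s1 ≤ 3 / 2 * s0 := by
    by_contra hcon
    push Not at hcon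
    nlinarith
  rw [div_le_iff₀ hmpos]
  have t1 : (M1 * D) ^ 2 ≤ 27 / 8 * (s0 * s1 * D ^ 2) * M0 := by
    rw [← q0, ← q1]
    have : s1 ^ 3 ≤ 27 / 8 * s0 ^ 3 := by
      calc s1 ^ 3 ≤ (3 / 2 * s0) ^ 3 := by gcongr
        _ = 27 / 8 * s0 ^ 3 := by ring
    have h5 : 0 ≤ s1 * D ^ 2 := by positivity
    nlinarith [mul_le_mul_of_nonneg_left this h5]
  have t2 : (M1 - M0) ^ 2 ≤ 25 / 4 * (s0 - s1) ^ 2 * M0 := by
    rw [← q0, ← q1]
    have e2 : (s1 ^ 2 - s0 ^ 2) ^ 2 = (s0 - s1) ^ 2 * (s0 + s1) ^ 2 := by ring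
    rw [e2]
    have : (s0 + s1) ^ 2 ≤ 25 / 4 * s0 ^ 2 := by
      calc (s0 + s1) ^ 2 ≤ (s0 + 3 / 2 * s0) ^ 2 := by gcongr
        _ = 25 / 4 * s0 ^ 2 := by ring
    nlinarith [mul_le_mul_of_nonneg_left this (sq_nonneg (s0 - s1))]
  have t3 : (M1 - M0) ^ 2 * c ^ 2 ≤ 25 / 4 * (s0 - s1) ^ 2 * M0 * c ^ 2 :=
    mul_le_mul_of_nonneg_right t2 (sq_nonneg c)
  have t4 : 0 ≤ 27 / 4 * (s0 * s1 * D ^ 2) + 25 / 2 * c ^ 2 * (s0 - s1) ^ 2 := by positivity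
  have t5 := mul_le_mul_of_nonneg_left hm t4
  nlinarith

/-- Stability of the first moments of the cells under a change of the masses. -/
theorem mom_stability [Nonempty ι] {K : Set (EE d)} (hK : IsCompact K) (hKc : Convex ℝ K)
    (hKi : (interior K).Nonempty) {r : ℝ} (hr : 0 < r) (hKr : ∀ x ∈ K, ‖x‖ ≤ r)
    {p : ι → EE d} (hp : Function.Injective p) {m m' : ι → ℝ} (hm : ∀ i, 0 < m i)
    (hm1 : ∀ i, m i / 2 ≤ m' i) (hm2 : ∀ i, m' i ≤ 2 * m i) {w w' : ι → ℝ}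
    (hw : IsOpt K m p w) (hw' : IsOpt K m' p w') :
    ∑ i, ‖mom K p w' i - mom K p w i‖ ^ 2 / m i
      ≤ 10000 * r ^ 2 * ∑ i, (m' i - m i) ^ 2 / m i := by
  have hF := hell_le_fisher hK hKc hKi hr hKr hp hm hm1 hm2 hw hw'
  obtain ⟨lam, hlamdef⟩ : ∃ lam : ℝ, lam = 1 / (8 * r ^ 2) := ⟨_, rfl⟩
  rw [← hlamdef] at hF
  have hlam : 0 < lam := by rw [hlamdef]; positivity
  have hlr : lam * r ^ 2 / 2 = 1 / 16 := by
    rw [hlamdef]; field_simp; norm_num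
  obtain ⟨e1, he1def⟩ : ∃ e1 : ℝ, e1 = Real.exp (lam * r ^ 2 / 2) := ⟨_, rfl⟩
  have he1 : 1 ≤ e1 := by rw [he1def]; apply Real.one_le_exp; positivity
  have he1' : e1 ≤ 16 / 15 := by
    rw [he1def, hlr]
    have := Real.exp_bound_div_one_sub_of_interval (x := 1 / 16) (by norm_num) (by norm_num)
    norm_num at this ⊢
    linarith
  have hm' : ∀ i, 0 < m' i := fun i => by linarith [hm i, hm1 i]
  have hA0 : ∀ i, gmass K lam p w i ≤ m i := fun i => by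
    rw [← hw i]; exact gmass_le_real hK hKi hlam.le p w i
  have hA1 : ∀ i, gmass K lam p w' i ≤ m' i := fun i => by
    rw [← hw' i]; exact gmass_le_real hK hKi hlam.le p w' i
  have hB0 : ∀ i, m i ≤ e1 * gmass K lam p w i := fun i => by
    rw [← hw i, he1def]; exact real_le_gmass hK hKi hlam.le hKr p w i
  have hB1 : ∀ i, m' i ≤ e1 * gmass K lam p w' i := fun i => by
    rw [← hw' i, he1def]; exact real_le_gmass hK hKi hlam.le hKr p w' i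
  have h0 : ∀ i, 0 < gmass K lam p w i := fun i => by
    have := hB0 i
    have h2 := hm i
    by_contra hcon
    push Not at hcon
    nlinarith
  have h1 : ∀ i, 0 < gmass K lam p w' i := fun i => by
    have := hB1 i
    have h2 := hm' i
    by_contra hcon
    push Not at hcon
    nlinarith
  -- directions
  obtain ⟨Δ, hΔ⟩ : ∃ Δ : ι → EE d, ∀ i, Δ i = (gmass K lam p w' i)⁻¹ • mom K p w' i
      - (gmass K lam p w i)⁻¹ • mom K p w i := ⟨_, fun _ => rfl⟩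
  obtain ⟨u, hu⟩ : ∃ u : ι → EE d, ∀ i, u i = (‖Δ i‖)⁻¹ • Δ i := ⟨_, fun _ => rfl⟩
  have hu1 : ∀ i, ‖u i‖ ≤ 1 := by
    intro i
    rw [hu i, norm_smul, norm_inv, norm_norm]
    rcases eq_or_ne (‖Δ i‖) 0 with h | h
    · rw [h]; simp
    · rw [inv_mul_cancel₀ h]
  have hu2 : ∀ i, ⟪u i, Δ i⟫ = ‖Δ i‖ := by
    intro i
    rw [hu i, real_inner_smul_left, real_inner_self_eq_norm_sq]
    rcases eq_or_ne (‖Δ i‖) 0 with h | h
    · rw [h]; simp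
    · field_simp
  have hl : 0 < e1 * (1 + lam * r ^ 2) := by positivity
  have hT := test_lipschitz hK hKc hKi hp hlam.le w w'
    (fun i x => kap lam x * ⟪u i, x⟫)
    (fun i => ((continuous_kap lam).mul (continuous_const.inner continuous_id)).measurable) hl
    (fun i x hx x' hx' => by
      rw [he1def]; exact test_mom_lip hlam.le hr.le (hu1 i) (hKr x hx) (hKr x' hx')) h0 h1
  simp only [setIntegral_test_mom hK hKi hKr] at hT
  have havg : ∀ i, (⟪u i, mom K p w' i⟫ / gmass K lam p w' i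
      - ⟪u i, mom K p w i⟫ / gmass K lam p w i) ^ 2 = ‖Δ i‖ ^ 2 := by
    intro i
    congr 1
    rw [← hu2 i, hΔ i, inner_sub_right, real_inner_smul_right, real_inner_smul_right]
    ring
  simp only [havg] at hT
  have hcoef : lam / (8 * (e1 * (1 + lam * r ^ 2)) ^ 2) = 1 / (81 * r ^ 2 * e1 ^ 2) := by
    have h8 : lam * r ^ 2 = 1 / 8 := by linarith
    rw [h8, hlamdef]
    field_simp
    norm_num
  rw [hcoef] at hT
  have hS : ∑ i, Real.sqrt (gmass K lam p w i * gmass K lam p w' i) * ‖Δ i‖ ^ 2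
      ≤ 81 * r ^ 2 * e1 ^ 2 * hell K lam p w w' := by
    rw [div_mul_eq_mul_div, one_mul, div_le_iff₀ (by positivity)] at hT
    linarith
  -- per index
  have hper : ∀ i, ‖mom K p w' i - mom K p w i‖ ^ 2 / m i
      ≤ 27 / 4 * (Real.sqrt (gmass K lam p w i * gmass K lam p w' i) * ‖Δ i‖ ^ 2)
      + 25 / 2 * (r * e1) ^ 2 * (Real.sqrt (gmass K lam p w i)
        - Real.sqrt (gmass K lam p w' i)) ^ 2 := by
    intro i
    rw [hΔ i]
    apply mom_diff_sq_le (h0 i) (h1 i) (hA0 i) _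
    · calc ‖mom K p w i‖ ≤ r * m i := norm_mom_le hK hKi hKr hw i
        _ ≤ r * (e1 * gmass K lam p w i) := mul_le_mul_of_nonneg_left (hB0 i) hr.le
        _ = r * e1 * gmass K lam p w i := by ring
    · have c1 := hA1 i
      have c2 := hm2 i
      have c3 := hB0 i
      have c4 := h0 i
      nlinarith
  have hsum : ∑ i, ‖mom K p w' i - mom K p w i‖ ^ 2 / m i
      ≤ 27 / 4 * ∑ i, Real.sqrt (gmass K lam p w i * gmass K lam p w' i) * ‖Δ i‖ ^ 2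
      + 25 / 2 * (r * e1) ^ 2 * ∑ i, (Real.sqrt (gmass K lam p w i)
        - Real.sqrt (gmass K lam p w' i)) ^ 2 := by
    rw [Finset.mul_sum, Finset.mul_sum, ← Finset.sum_add_distrib]
    exact Finset.sum_le_sum fun i _ => hper i
  have hH : hell K lam p w w' = 1 / 2 * ∑ i, (Real.sqrt (gmass K lam p w i)
      - Real.sqrt (gmass K lam p w' i)) ^ 2 := rfl
  have hH0 : 0 ≤ hell K lam p w w' := by
    rw [hH]
    have : 0 ≤ ∑ i, (Real.sqrt (gmass K lam p w i) - Real.sqrt (gmass K lam p w' i)) ^ 2 :=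
      Finset.sum_nonneg fun i _ => sq_nonneg _
    linarith
  have he2 : e1 ^ 2 ≤ 3 / 2 := by
    calc e1 ^ 2 ≤ (16 / 15 : ℝ) ^ 2 := by gcongr
      _ ≤ 3 / 2 := by norm_num
  obtain ⟨H, hHdef⟩ : ∃ H, H = hell K lam p w w' := ⟨_, rfl⟩
  obtain ⟨θ, hθdef⟩ : ∃ θ, θ = ∑ i, (m' i - m i) ^ 2 / m i := ⟨_, rfl⟩
  rw [← hHdef] at hS hH hH0 hF
  rw [← hθdef] at hF ⊢
  have k1 : ∑ i, ‖mom K p w' i - mom K p w i‖ ^ 2 / m i
      ≤ 27 / 4 * (81 * r ^ 2 * e1 ^ 2 * H) + 25 / 2 * (r * e1) ^ 2 * (2 * H) := by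
    have : ∑ i, (Real.sqrt (gmass K lam p w i) - Real.sqrt (gmass K lam p w' i)) ^ 2 = 2 * H := by
      linarith
    rw [this] at hsum
    linarith
  have k2 : 27 / 4 * (81 * r ^ 2 * e1 ^ 2 * H) + 25 / 2 * (r * e1) ^ 2 * (2 * H)
      = (2287 / 4) * (r ^ 2 * H) * e1 ^ 2 := by ring
  have k3 : (2287 / 4) * (r ^ 2 * H) * e1 ^ 2 ≤ (2287 / 4) * (r ^ 2 * H) * (3 / 2) :=
    mul_le_mul_of_nonneg_left he2 (by positivity)
  have k4 : r ^ 2 * H ≤ r ^ 2 * (4 * θ) := mul_le_mul_of_nonneg_left hF (by positivity)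
  have hθ0 : 0 ≤ θ := by linarith
  have k5 : 0 ≤ r ^ 2 * θ := by positivity
  linarith

end Vale.Agent.P074
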