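import Vale.Agent.P074.Third.Tele
import Vale.Agent.P074.Third.Eterm

open MeasureTheory
open scoped ENNReal NNReal RealInnerProductSpace

namespace Vale.Agent.P074

variable {d : ℕ}

/-- Changing the masses in the Kantorovich functional. -/
lemma JJ_masses {ι : Type} [Fintype ι] (K : Set (EE d)) (m m' : ι → ℝ) (p : ι → EE d)
    (w : ι → ℝ) : JJ K m' p w = JJ K m p w + ∑ i, (m' i - m i) * w i := by
  unfold JJ
  have : ∑ i, (m' i - m i) * w i = ∑ i, m' i * w i - ∑ i, m i * w i := by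
    rw [← Finset.sum_sub_distrib]
    exact Finset.sum_congr rfl fun i _ => by ring
  rw [this]
  ring

/-- Optimal weights minimise the Kantorovich functional. -/
lemma JJ_le_of_isOpt {ι : Type} [Fintype ι] [Nonempty ι] {K : Set (EE d)} (hK : IsCompact K)
    (hKi : (interior K).Nonempty) {p : ι → EE d} (hp : Function.Injective p) {m : ι → ℝ}
    {w : ι → ℝ} (hw : IsOpt K m p w) (w' : ι → ℝ) : JJ K m p w ≤ JJ K m p w' := by
  rw [strong_duality hK hKi hp hw]
  exact weak_duality hK hKi hp hw p w'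

/-- Lipschitz dependence of the optimal weights on the sites, in `L^2(m)` modulo constants
(up to errors which vanish when `s → 0` and then `n → ∞`).
Proof. `D i = wy i - wz i`, `g i = D i - Dbar`, `|g i| ≤ 4 r R` (`weights_osc`),
`m' i = m i (1 + s g i)`, optimal weights `wy', wz'` for `m'` from `exists_isOpt`. Then
`JJ m' z wz' ≤ JJ m' z wz = JJ m z wz + ∑ (m' i - m i) wz i` (weak + strong duality),
`JJ m' y wy' = JJ m y wy + ∑ (m' i - m i) wy i - E`, `E ≤ C θ^(5/4)`, `θ = s G` (`eterm_le`), so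
`s G^2 - E ≤ (JJ m' y wy' - JJ m y wy) - (JJ m' z wz' - JJ m z wz)`; conclude with
`value_diff_lipschitz` and divide by `s`; `G ≤ 4 r R`. -/
theorem weights_lipschitz {K : Set (EE d)} (hK : IsCompact K) (hKc : Convex ℝ K)
    (hKi : (interior K).Nonempty) {r R : ℝ} (hr : 0 < r) (hR : 0 < R) (hKr : ∀ x ∈ K, ‖x‖ ≤ r) :
    ∃ C : ℝ, 0 ≤ C ∧ ∀ (ι : Type) [Fintype ι] [Nonempty ι] (m : ι → ℝ) (y z : ι → EE d)
      (wy wz : ι → ℝ) (n : ℕ) (s : ℝ),
      (∀ i, 0 < m i) → ∑ i, m i = 1 → (∀ i, ‖y i‖ ≤ R) → (∀ i, ‖z i‖ ≤ R) → 0 < n →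
      (∀ k ≤ n, Function.Injective fun i => z i + ((k : ℝ) / n) • (y i - z i)) →
      IsOpt K m y wy → IsOpt K m z wz → 0 < s → s * (8 * r * R) ≤ 1 →
      ∑ i, m i * ((wy i - wz i) - ∑ j, m j * (wy j - wz j)) ^ 2
        ≤ 100 * r * Real.sqrt (∑ i, m i * ((wy i - wz i) - ∑ j, m j * (wy j - wz j)) ^ 2)
              * Real.sqrt (∑ i, m i * ‖y i - z i‖ ^ 2)
          + C * s ^ (1 / 4 : ℝ) + 2 * r / (n * s) * ∑ i, m i * ‖y i - z i‖ := by
  obtain ⟨CE, hCE0, hCE⟩ := eterm_le hK hKc hKi hr hR hKr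
  refine ⟨CE * (4 * r * R) ^ (5 / 4 : ℝ), by positivity, ?_⟩
  intro ι _ _ m y z wy wz n s hm hms hyR hzR hn hinj hwy hwz hs hs1
  set Dbar : ℝ := ∑ j, m j * (wy j - wz j) with hDbar
  set g : ι → ℝ := fun i => (wy i - wz i) - Dbar with hg
  have hnR : (0 : ℝ) < n := by exact_mod_cast hn
  -- injectivity of the end points
  have hy : Function.Injective y := by
    have h := hinj n le_rfl
    have e : (fun i => z i + ((n : ℝ) / n) • (y i - z i)) = y := by
      funext i
      rw [div_self hnR.ne', one_smul]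
      abel
    rwa [e] at h
  have hz : Function.Injective z := by
    have h := hinj 0 (Nat.zero_le _)
    have e : (fun i => z i + (((0 : ℕ) : ℝ) / n) • (y i - z i)) = z := by
      funext i
      simp
    rwa [e] at h
  -- bound on g
  have hgb : ∀ i, |g i| ≤ 4 * r * R := by
    intro i
    have e : g i = ∑ j, m j * ((wy i - wy j) - (wz i - wz j)) := by
      have e1 : ∑ j, m j * ((wy i - wy j) - (wz i - wz j))
          = (∑ j, m j) * (wy i - wz i) - ∑ j, m j * (wy j - wz j) := by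
        rw [Finset.sum_mul, ← Finset.sum_sub_distrib]
        exact Finset.sum_congr rfl fun j _ => by ring
      rw [e1, hms, one_mul]
    rw [e]
    calc |∑ j, m j * ((wy i - wy j) - (wz i - wz j))|
        ≤ ∑ j, |m j * ((wy i - wy j) - (wz i - wz j))| := Finset.abs_sum_le_sum_abs _ _
      _ ≤ ∑ j, m j * (4 * r * R) := by
          refine Finset.sum_le_sum fun j _ => ?_
          rw [abs_mul, abs_of_pos (hm j)]
          refine mul_le_mul_of_nonneg_left ?_ (hm j).le
          have h1 := weights_osc hKr hyR hm hwy i j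
          have h2 := weights_osc hKr hzR hm hwz i j
          have h3 := abs_sub (wy i - wy j) (wz i - wz j)
          linarith
      _ = 4 * r * R := by rw [← Finset.sum_mul, hms, one_mul]
  have hsg : ∀ i, |s * g i| ≤ 1 / 2 := by
    intro i
    rw [abs_mul, abs_of_pos hs]
    have := mul_le_mul_of_nonneg_left (hgb i) hs.le
    nlinarith
  have hmg : ∑ i, m i * g i = 0 := by
    have e1 : ∑ i, m i * g i = ∑ i, m i * (wy i - wz i) - (∑ i, m i) * Dbar := by
      rw [Finset.sum_mul, ← Finset.sum_sub_distrib]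
      exact Finset.sum_congr rfl fun j _ => by simp only [hg]; ring
    rw [e1, hms, one_mul, hDbar, sub_self]
  -- perturbed masses
  set m' : ι → ℝ := fun i => m i * (1 + s * g i) with hm'
  have hm1 : ∀ i, m i / 2 ≤ m' i := by
    intro i
    have h := (abs_le.mp (hsg i)).1
    have := mul_le_mul_of_nonneg_left h (hm i).le
    simp only [hm']
    nlinarith
  have hm2 : ∀ i, m' i ≤ 2 * m i := by
    intro i
    have h := (abs_le.mp (hsg i)).2
    have := mul_le_mul_of_nonneg_left h (hm i).le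
    have := hm i
    simp only [hm']
    nlinarith
  have hm'pos : ∀ i, 0 < m' i := fun i => lt_of_lt_of_le (by have := hm i; linarith) (hm1 i)
  have hms' : ∑ i, m' i = 1 := by
    have e1 : ∑ i, m' i = ∑ i, m i + s * ∑ i, m i * g i := by
      rw [Finset.mul_sum, ← Finset.sum_add_distrib]
      exact Finset.sum_congr rfl fun j _ => by simp only [hm']; ring
    rw [e1, hms, hmg, mul_zero, add_zero]
  obtain ⟨wy', hwy'⟩ := exists_isOpt hK hKi hy hm'pos hms'
  obtain ⟨wz', hwz'⟩ := exists_isOpt hK hKi hz hm'pos hms'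
  set G2 : ℝ := ∑ i, m i * g i ^ 2 with hG2
  have hG2nn : 0 ≤ G2 := Finset.sum_nonneg fun i _ => mul_nonneg (hm i).le (sq_nonneg _)
  have hG2le : G2 ≤ (4 * r * R) ^ 2 := by
    calc G2 ≤ ∑ i, m i * (4 * r * R) ^ 2 := by
          refine Finset.sum_le_sum fun i _ => mul_le_mul_of_nonneg_left ?_ (hm i).le
          exact sq_le_sq' (by have := (abs_le.mp (hgb i)).1; linarith) (abs_le.mp (hgb i)).2
      _ = (4 * r * R) ^ 2 := by rw [← Finset.sum_mul, hms, one_mul]
  have hθ2 : ∑ i, (m' i - m i) ^ 2 / m i = s ^ 2 * G2 := by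
    rw [hG2, Finset.mul_sum]
    refine Finset.sum_congr rfl fun i _ => ?_
    have := (hm i).ne'
    simp only [hm']
    field_simp
    ring
  have hθ : Real.sqrt (∑ i, (m' i - m i) ^ 2 / m i) = s * Real.sqrt G2 := by
    rw [hθ2, Real.sqrt_mul (sq_nonneg s), Real.sqrt_sq hs.le]
  -- the four ingredients
  have hV := value_diff_lipschitz hK hKc hKi hr hKr hm hms hms' hm1 hm2 hn hinj hwy hwy' hwz hwz'
  have hE := hCE ι y m m' wy wy' hy hyR hm hms hms' hm1 hm2 hwy hwy'
  have hZ := JJ_le_of_isOpt hK hKi hz hwz' wz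
  rw [JJ_masses K m m' z wz] at hZ
  rw [JJ_masses K m m' y wy] at hE
  rw [hθ] at hV hE
  have hsum : ∑ i, (m' i - m i) * wy i - ∑ i, (m' i - m i) * wz i = s * G2 := by
    have e1 : ∑ i, (m' i - m i) * wy i - ∑ i, (m' i - m i) * wz i
        = s * ∑ i, m i * g i ^ 2 + s * Dbar * ∑ i, m i * g i := by
      rw [← Finset.sum_sub_distrib, Finset.mul_sum, Finset.mul_sum, ← Finset.sum_add_distrib]
      exact Finset.sum_congr rfl fun j _ => by simp only [hm', hg]; ring
    rw [e1, hmg, mul_zero, add_zero]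
  -- bound on the excess term
  have hsq : Real.sqrt G2 ≤ 4 * r * R := by
    rw [show 4 * r * R = Real.sqrt ((4 * r * R) ^ 2) from (Real.sqrt_sq (by positivity)).symm]
    exact Real.sqrt_le_sqrt hG2le
  have hpow : (s * Real.sqrt G2) ^ (5 / 4 : ℝ) ≤ s * (s ^ (1 / 4 : ℝ) * (4 * r * R) ^ (5 / 4 : ℝ)) := by
    rw [Real.mul_rpow hs.le (Real.sqrt_nonneg _)]
    have e : s ^ (5 / 4 : ℝ) = s * s ^ (1 / 4 : ℝ) := by
      rw [show (5 / 4 : ℝ) = 1 + 1 / 4 by norm_num, Real.rpow_add hs, Real.rpow_one]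
    rw [e, mul_assoc]
    refine mul_le_mul_of_nonneg_left (mul_le_mul_of_nonneg_left ?_ (by positivity)) hs.le
    exact Real.rpow_le_rpow (Real.sqrt_nonneg _) hsq (by norm_num)
  have hE2 : CE * (s * Real.sqrt G2) ^ (5 / 4 : ℝ)
      ≤ s * (CE * (4 * r * R) ^ (5 / 4 : ℝ) * s ^ (1 / 4 : ℝ)) := by
    have := mul_le_mul_of_nonneg_left hpow hCE0
    linarith
  set W : ℝ := Real.sqrt (∑ i, m i * ‖y i - z i‖ ^ 2) with hW
  set L : ℝ := ∑ i, m i * ‖y i - z i‖ with hL
  have hmain : s * G2 ≤ s * (100 * r * Real.sqrt G2 * W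
      + CE * (4 * r * R) ^ (5 / 4 : ℝ) * s ^ (1 / 4 : ℝ) + 2 * r / (n * s) * L) := by
    have e : s * (2 * r / (n * s) * L) = 2 * r / n * L := by
      field_simp
    have : s * (100 * r * Real.sqrt G2 * W
      + CE * (4 * r * R) ^ (5 / 4 : ℝ) * s ^ (1 / 4 : ℝ) + 2 * r / (n * s) * L)
      = 100 * r * (s * Real.sqrt G2) * W + s * (CE * (4 * r * R) ^ (5 / 4 : ℝ) * s ^ (1 / 4 : ℝ))
        + 2 * r / n * L := by
      rw [← e]
      ring
    rw [this]
    linarith
  exact le_of_mul_le_mul_left hmain hs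

end Vale.Agent.P074
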