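import Vale.Agent.P074.Third.MomStab
import Vale.Agent.P074.Third.Exist

open MeasureTheory
open scoped ENNReal NNReal RealInnerProductSpace

namespace Vale.Agent.P074

variable {d : ℕ} {ι : Type} [Fintype ι]

/-- Weighted Cauchy-Schwarz inequality for finite sums. -/
lemma tele_cs_weighted (m a c : ι → ℝ) (hm : ∀ i, 0 < m i) :
    ∑ i, a i * c i ≤ Real.sqrt (∑ i, a i ^ 2 / m i) * Real.sqrt (∑ i, m i * c i ^ 2) := by
  have h := Real.sum_mul_le_sqrt_mul_sqrt Finset.univ (fun i => a i / Real.sqrt (m i))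
    (fun i => Real.sqrt (m i) * c i)
  have e1 : ∀ i, a i / Real.sqrt (m i) * (Real.sqrt (m i) * c i) = a i * c i := by
    intro i
    have : Real.sqrt (m i) ≠ 0 := (Real.sqrt_pos.2 (hm i)).ne'
    field_simp
  have e2 : ∀ i, (a i / Real.sqrt (m i)) ^ 2 = a i ^ 2 / m i := by
    intro i
    rw [div_pow, Real.sq_sqrt (hm i).le]
  have e3 : ∀ i, (Real.sqrt (m i) * c i) ^ 2 = m i * c i ^ 2 := by
    intro i
    rw [mul_pow, Real.sq_sqrt (hm i).le]
  simp only [e1, e2, e3] at h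
  exact h

/-- The optimal value does not depend on the choice of the optimal weights. -/
lemma tele_value_unique [Nonempty ι] {K : Set (EE d)} (hK : IsCompact K)
    (hKi : (interior K).Nonempty) {p : ι → EE d} (hp : Function.Injective p) {m : ι → ℝ}
    {w1 w2 : ι → ℝ} (h1 : IsOpt K m p w1) (h2 : IsOpt K m p w2) :
    JJ K m p w1 = JJ K m p w2 := by
  apply le_antisymm
  · rw [strong_duality hK hKi hp h1]
    exact weak_duality hK hKi hp h1 p w2
  · rw [strong_duality hK hKi hp h2]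
    exact weak_duality hK hKi hp h2 p w1

/-- The function `sites ↦ (optimal value for m') - (optimal value for m)` is Lipschitz.
Telescoping along the nodes `P k = z + (k/n) (y - z)`: with `V k, V' k` the optimal values and
`b k, b' k` the first moments at the node `k`, weak and strong duality give
`V' (k+1) - V' k ≤ ∑ ⟪b' (k+1), P (k+1) - P k⟫` and `V (k+1) - V k ≥ ∑ ⟪b k, P (k+1) - P k⟫`;
write `b' (k+1) - b k = (b' (k+1) - b (k+1)) + (b (k+1) - b k)`, use `mom_stability` and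
Cauchy-Schwarz for the first part; the second part telescopes. -/
theorem value_diff_lipschitz [Nonempty ι] {K : Set (EE d)} (hK : IsCompact K) (hKc : Convex ℝ K)
    (hKi : (interior K).Nonempty) {r : ℝ} (hr : 0 < r) (hKr : ∀ x ∈ K, ‖x‖ ≤ r)
    {m m' : ι → ℝ} (hm : ∀ i, 0 < m i) (hms : ∑ i, m i = 1) (hms' : ∑ i, m' i = 1)
    (hm1 : ∀ i, m i / 2 ≤ m' i) (hm2 : ∀ i, m' i ≤ 2 * m i)
    {y z : ι → EE d} {n : ℕ} (hn : 0 < n)
    (hinj : ∀ k ≤ n, Function.Injective fun i => z i + ((k : ℝ) / n) • (y i - z i))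
    {wy wy' wz wz' : ι → ℝ} (hwy : IsOpt K m y wy) (hwy' : IsOpt K m' y wy')
    (hwz : IsOpt K m z wz) (hwz' : IsOpt K m' z wz') :
    (JJ K m' y wy' - JJ K m y wy) - (JJ K m' z wz' - JJ K m z wz)
      ≤ 100 * r * Real.sqrt (∑ i, (m' i - m i) ^ 2 / m i) * Real.sqrt (∑ i, m i * ‖y i - z i‖ ^ 2)
        + 2 * r / n * ∑ i, m i * ‖y i - z i‖ := by
  classical
  have hnR : (0 : ℝ) < n := by exact_mod_cast hn
  set P : ℕ → ι → EE d := fun k i => z i + ((k : ℝ) / n) • (y i - z i) with hP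
  have hPinj : ∀ k ≤ n, Function.Injective (P k) := hinj
  have hm' : ∀ i, 0 < m' i := fun i => by
    have h1 := hm i
    have h2 := hm1 i
    linarith
  have hex : ∀ k, k ≤ n → ∃ w, IsOpt K m (P k) w :=
    fun k hk => exists_isOpt hK hKi (hPinj k hk) hm hms
  have hex' : ∀ k, k ≤ n → ∃ w, IsOpt K m' (P k) w :=
    fun k hk => exists_isOpt hK hKi (hPinj k hk) hm' hms'
  choose! W hW using hex
  choose! W' hW' using hex'
  have hP0 : P 0 = z := by
    funext i
    simp [hP]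
  have hPn : P n = y := by
    funext i
    have : ((n : ℝ) / n) = 1 := div_self hnR.ne'
    simp [hP, this]
  set θ : ℝ := Real.sqrt (∑ i, (m' i - m i) ^ 2 / m i) with hθ
  set Wd : ℝ := Real.sqrt (∑ i, m i * ‖y i - z i‖ ^ 2) with hWd
  set V : ℕ → ℝ := fun k => JJ K m (P k) (W k) with hV
  set V' : ℕ → ℝ := fun k => JJ K m' (P k) (W' k) with hV'
  set b : ℕ → ι → EE d := fun k i => mom K (P k) (W k) i with hb
  set b' : ℕ → ι → EE d := fun k i => mom K (P k) (W' k) i with hb'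
  -- increments of the nodes
  have hΔ : ∀ k i, P (k + 1) i - P k i = (1 / (n : ℝ)) • (y i - z i) := by
    intro k i
    simp only [hP]
    rw [add_sub_add_left_eq_sub, ← sub_smul]
    congr 1
    push_cast
    field_simp
    ring
  -- the end values
  have hVn : V n = JJ K m y wy := by
    have h1 : IsOpt K m (P n) wy := by rw [hPn]; exact hwy
    have := tele_value_unique hK hKi (hPinj n le_rfl) (hW n le_rfl) h1
    simp only [hV]
    rw [this, hPn]
  have hV0 : V 0 = JJ K m z wz := by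
    have h1 : IsOpt K m (P 0) wz := by rw [hP0]; exact hwz
    have := tele_value_unique hK hKi (hPinj 0 (Nat.zero_le _)) (hW 0 (Nat.zero_le _)) h1
    simp only [hV]
    rw [this, hP0]
  have hVn' : V' n = JJ K m' y wy' := by
    have h1 : IsOpt K m' (P n) wy' := by rw [hPn]; exact hwy'
    have := tele_value_unique hK hKi (hPinj n le_rfl) (hW' n le_rfl) h1
    simp only [hV']
    rw [this, hPn]
  have hV0' : V' 0 = JJ K m' z wz' := by
    have h1 : IsOpt K m' (P 0) wz' := by rw [hP0]; exact hwz'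
    have := tele_value_unique hK hKi (hPinj 0 (Nat.zero_le _)) (hW' 0 (Nat.zero_le _)) h1
    simp only [hV']
    rw [this, hP0]
  -- one step
  have hstep : ∀ k, k < n → (V' (k + 1) - V' k) - (V (k + 1) - V k)
      ≤ 100 * r * θ * Wd / n
        + ((∑ i, ⟪b (k + 1) i, (1 / (n : ℝ)) • (y i - z i)⟫)
          - ∑ i, ⟪b k i, (1 / (n : ℝ)) • (y i - z i)⟫) := by
    intro k hk
    have hk1 : k + 1 ≤ n := hk
    have hk0 : k ≤ n := hk.le
    have a1 : V' (k + 1) = ∑ i, ⟪b' (k + 1) i, P (k + 1) i⟫ :=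
      strong_duality hK hKi (hPinj _ hk1) (hW' _ hk1)
    have a2 : ∑ i, ⟪b' (k + 1) i, P k i⟫ ≤ V' k :=
      weak_duality hK hKi (hPinj _ hk1) (hW' _ hk1) (P k) (W' k)
    have a3 : V k = ∑ i, ⟪b k i, P k i⟫ :=
      strong_duality hK hKi (hPinj _ hk0) (hW _ hk0)
    have a4 : ∑ i, ⟪b k i, P (k + 1) i⟫ ≤ V (k + 1) :=
      weak_duality hK hKi (hPinj _ hk0) (hW _ hk0) (P (k + 1)) (W (k + 1))
    have c1 : V' (k + 1) - V' k ≤ ∑ i, ⟪b' (k + 1) i, (1 / (n : ℝ)) • (y i - z i)⟫ := by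
      have : ∑ i, ⟪b' (k + 1) i, (1 / (n : ℝ)) • (y i - z i)⟫
          = ∑ i, ⟪b' (k + 1) i, P (k + 1) i⟫ - ∑ i, ⟪b' (k + 1) i, P k i⟫ := by
        rw [← Finset.sum_sub_distrib]
        refine Finset.sum_congr rfl fun i _ => ?_
        rw [← hΔ k i, inner_sub_right]
      rw [this, a1]
      linarith
    have c2 : ∑ i, ⟪b k i, (1 / (n : ℝ)) • (y i - z i)⟫ ≤ V (k + 1) - V k := by
      have : ∑ i, ⟪b k i, (1 / (n : ℝ)) • (y i - z i)⟫
          = ∑ i, ⟪b k i, P (k + 1) i⟫ - ∑ i, ⟪b k i, P k i⟫ := by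
        rw [← Finset.sum_sub_distrib]
        refine Finset.sum_congr rfl fun i _ => ?_
        rw [← hΔ k i, inner_sub_right]
      rw [this, a3]
      linarith
    -- the main estimate
    have c3 : ∑ i, ⟪b' (k + 1) i, (1 / (n : ℝ)) • (y i - z i)⟫
        - ∑ i, ⟪b (k + 1) i, (1 / (n : ℝ)) • (y i - z i)⟫ ≤ 100 * r * θ * Wd / n := by
      have hst := mom_stability hK hKc hKi hr hKr (hPinj _ hk1) hm hm1 hm2 (hW _ hk1) (hW' _ hk1)
      have e1 : ∑ i, ⟪b' (k + 1) i, (1 / (n : ℝ)) • (y i - z i)⟫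
          - ∑ i, ⟪b (k + 1) i, (1 / (n : ℝ)) • (y i - z i)⟫
          = (1 / (n : ℝ)) * ∑ i, ⟪b' (k + 1) i - b (k + 1) i, y i - z i⟫ := by
        rw [← Finset.sum_sub_distrib, Finset.mul_sum]
        refine Finset.sum_congr rfl fun i _ => ?_
        rw [← inner_sub_left, inner_smul_right]
      have e2 : ∑ i, ⟪b' (k + 1) i - b (k + 1) i, y i - z i⟫
          ≤ ∑ i, ‖b' (k + 1) i - b (k + 1) i‖ * ‖y i - z i‖ :=
        Finset.sum_le_sum fun i _ => real_inner_le_norm _ _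
      have e3 := tele_cs_weighted m (fun i => ‖b' (k + 1) i - b (k + 1) i‖)
        (fun i => ‖y i - z i‖) hm
      have e4 : Real.sqrt (∑ i, ‖b' (k + 1) i - b (k + 1) i‖ ^ 2 / m i) ≤ 100 * r * θ := by
        calc Real.sqrt (∑ i, ‖b' (k + 1) i - b (k + 1) i‖ ^ 2 / m i)
            ≤ Real.sqrt (10000 * r ^ 2 * ∑ i, (m' i - m i) ^ 2 / m i) := Real.sqrt_le_sqrt hst
          _ = 100 * r * θ := by
              rw [show 10000 * r ^ 2 * ∑ i, (m' i - m i) ^ 2 / m i
                = (100 * r) ^ 2 * ∑ i, (m' i - m i) ^ 2 / m i by ring,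
                Real.sqrt_mul (sq_nonneg _), Real.sqrt_sq (by positivity)]
      have e5 : ∑ i, ⟪b' (k + 1) i - b (k + 1) i, y i - z i⟫ ≤ 100 * r * θ * Wd := by
        refine e2.trans (e3.trans ?_)
        exact mul_le_mul_of_nonneg_right e4 (Real.sqrt_nonneg _)
      rw [e1]
      calc (1 / (n : ℝ)) * ∑ i, ⟪b' (k + 1) i - b (k + 1) i, y i - z i⟫
          ≤ (1 / (n : ℝ)) * (100 * r * θ * Wd) :=
            mul_le_mul_of_nonneg_left e5 (by positivity)
        _ = 100 * r * θ * Wd / n := by ring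
    linarith
  -- summation
  have hsum := Finset.sum_le_sum (s := Finset.range n)
    (fun k hk => hstep k (Finset.mem_range.1 hk))
  have s1 : ∑ k ∈ Finset.range n, ((V' (k + 1) - V' k) - (V (k + 1) - V k))
      = (V' n - V' 0) - (V n - V 0) := by
    rw [Finset.sum_sub_distrib, Finset.sum_range_sub, Finset.sum_range_sub]
  have s2 : ∑ k ∈ Finset.range n, (100 * r * θ * Wd / n
        + ((∑ i, ⟪b (k + 1) i, (1 / (n : ℝ)) • (y i - z i)⟫)
          - ∑ i, ⟪b k i, (1 / (n : ℝ)) • (y i - z i)⟫))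
      = 100 * r * θ * Wd + ((∑ i, ⟪b n i, (1 / (n : ℝ)) • (y i - z i)⟫)
          - ∑ i, ⟪b 0 i, (1 / (n : ℝ)) • (y i - z i)⟫) := by
    rw [Finset.sum_add_distrib,
      Finset.sum_range_sub (fun k => ∑ i, ⟪b k i, (1 / (n : ℝ)) • (y i - z i)⟫)]
    congr 1
    rw [Finset.sum_const, Finset.card_range, nsmul_eq_mul]
    field_simp
  rw [s1, s2, hVn, hV0, hVn', hV0'] at hsum
  have s3 : (∑ i, ⟪b n i, (1 / (n : ℝ)) • (y i - z i)⟫)
      - ∑ i, ⟪b 0 i, (1 / (n : ℝ)) • (y i - z i)⟫ ≤ 2 * r / n * ∑ i, m i * ‖y i - z i‖ := by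
    rw [← Finset.sum_sub_distrib, Finset.mul_sum]
    refine Finset.sum_le_sum fun i _ => ?_
    rw [← inner_sub_left, inner_smul_right]
    have h1 : ‖b n i‖ ≤ r * m i := norm_mom_le hK hKi hKr (hW n le_rfl) i
    have h2 : ‖b 0 i‖ ≤ r * m i := norm_mom_le hK hKi hKr (hW 0 (Nat.zero_le _)) i
    have h3 : ‖b n i - b 0 i‖ ≤ 2 * r * m i := by
      calc ‖b n i - b 0 i‖ ≤ ‖b n i‖ + ‖b 0 i‖ := norm_sub_le _ _
        _ ≤ 2 * r * m i := by linarith
    have h4 : ⟪b n i - b 0 i, y i - z i⟫ ≤ 2 * r * m i * ‖y i - z i‖ :=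
      (real_inner_le_norm _ _).trans (mul_le_mul_of_nonneg_right h3 (norm_nonneg _))
    calc (1 / (n : ℝ)) * ⟪b n i - b 0 i, y i - z i⟫
        ≤ (1 / (n : ℝ)) * (2 * r * m i * ‖y i - z i‖) :=
          mul_le_mul_of_nonneg_left h4 (by positivity)
      _ = 2 * r / n * (m i * ‖y i - z i‖) := by ring
  linarith

end Vale.Agent.P074
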